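import Crest.Agent.R155.Mult1_C

set_option autoImplicit false
set_option linter.unusedSectionVars false

namespace Crest.Agent.R155

open Finset Module

variable {α V : Type*} [Fintype α] [DecidableEq α] [NormedAddCommGroup V] [InnerProductSpace ℝ V]
  [FiniteDimensional ℝ V]

/-- (M1) Write `τ a b = ρ (swap a b)`. For `v` invariant under `J` and `b ∉ J`, the vector
`v + ∑ q ∈ J, τ b q v` is invariant under `insert b J` (for `p, p' ∈ J`:
`τ p p' τ b q = τ b (swap p p' q) τ p p'`, reindex; for `τ b p`: `τ b p τ b q = τ b q τ q p` when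
`q ≠ p`), lies in `U`, hence vanishes. -/
theorem sum_swap_eq_neg (ρ : Representation ℝ (Equiv.Perm α) V) (U : Submodule ℝ V)
    (N : Finset α) (hU : Stab ρ U N) (J : Finset α) (hJ : J ⊆ N)
    (hno : NoInv ρ U N (J.card + 1)) (b : α) (hbN : b ∈ N) (hbJ : b ∉ J) (v : V)
    (hv : v ∈ U ⊓ InvJ ρ J) : ∑ q ∈ J, ρ (Equiv.swap b q) v = -v :=
  M1.sum_swap ρ U N hU J hJ hno b hbN hbJ v hv

/-- (Ballot multiplicity.) Notation `U^J = U ⊓ InvJ ρ J`, `j = |J|`.

(a) Transport: for `J, J' ⊆ N` with the same cardinality, `finrank U^J = finrank U^J'`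
(`τ a b` maps `U^J` onto `U^(swap a b '' J)`; induct on `|J \ J'|`).

(b) D-lemma. Let `l` be a list without repetition of elements of `N \ J`, `m : α → α` injective on
`l` with values in `J`, `w l = ∏ a ∈ l, swap a (m a)` (list product, so
`w (a :: l) = swap a (m a) * w l`; `w l c = m c` for `c ∈ l`, `w l x = x` if `x` is in no pair).
Sign lemma: for `u ∈ U^J` there are `y ∈ U^J` invariant under `l.toFinset` and `c, μ > 0` with
`⟪u, ρ (w l) u'⟫ = (-1)^|l| c ⟪y, u'⟫` for all `u' ∈ U^J` and `⟪y, y'⟫ = μ ⟪u, y'⟫` for all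
`l`-invariant `y'`. Induction on `l`: by (M1) `∑ q ∈ J, ⟪u, τ a q ρ(w l) u'⟫ = -⟪u, ρ(w l) u'⟫`;
terms with `q ∉ m '' l` all equal `⟪u, ρ (w (a :: l)) u'⟫` (conjugate by `τ q (m a)`), there are
`j - |l| > 0` of them; the term `q = m c` equals `⟪u, ρ (w l) (τ a c u')⟫` and `τ a c u' ∈ U^J`.
So take `y_new = y + ∑ c ∈ l, τ a c y`, `c_new = c / (j - |l|)`, `μ_new = (|l|+1) μ`.
With `y' = y`: `⟪u, y⟫ ≥ 0`, so `(-1)^|l| ⟪u, ρ (w l) u⟫ ≥ 0`.
Define `D [] = id`, `D (a :: t) = D t ∘ (1 - τ a (m a))`, `c (S, T) = (-1)^|S| ⟪v, D T (ρ (w S) v)⟫`;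
`c (S, a :: T) = c (S, T) + c (a :: S, T)`, so `c (S, T) ≥ c (S, []) ≥ 0` and `c ([], T) ≥ ‖v‖²`:
`D T` is injective on `U^J`. Also `D T v = 0` if `τ a (m a) v = v` for some `a ∈ T`
(the transpositions of disjoint pairs commute).

(c) Independence. Enumerate `j + b` elements of `N` by `ι` (injective on `range (j+b)`). Let `𝓕` be
a finite family of `I ⊆ range (j+b)`, `|I| = b`, each with a map `m_I` injective on `I`,
`m_I a < a`, `m_I a ∉ I`. Put `J_I = ι '' (range (j+b) \ I)`. Then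
`|𝓕| * finrank U^J ≤ finrank W` for every subspace `W` containing all `U^(J_I)`:
take `I ∈ 𝓕` with minimal `∑ I`; `D_I` kills `U^(J_I')` for `I' ≠ I` in `𝓕` (otherwise `I'` meets
every pair `{a, m a}`, so is a transversal, `∑ I' ≤ ∑ I` with equality only if `I' = I`), and is
injective on `U^(J_I)`; induct on `|𝓕|` with `W' = W ⊓ ker D_I`.

(d) Counting: families `𝓑 (M, b)` of such `I ⊆ range M` for `2 b ≤ M`:
`𝓑 (M+1, b+1) ⊇ 𝓑 (M, b+1) ∪ {insert M I | I ∈ 𝓑 (M, b)}` (first part only if `2(b+1) ≤ M`; the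
new element `M` is matched with an unused element, which exists as `M - 2b ≥ 1`), so
`|𝓑 (M, b)| + C(M, b-1) ≥ C(M, b)`, and `C(j+b, b) - C(j+b, b-1) = C(j+b,b) (j-b+1)/(j+1)`. -/
theorem ballot_mult (ρ : Representation ℝ (Equiv.Perm α) V) (hρ : IsOrth ρ) (U : Submodule ℝ V)
    (N : Finset α) (hU : Stab ρ U N) (J : Finset α) (hJ : J ⊆ N)
    (hno : NoInv ρ U N (J.card + 1)) (b : ℕ) (hb : b ≤ J.card) (hbN : J.card + b ≤ N.card) :
    (J.card + b).choose b * finrank ℝ (U ⊓ InvJ ρ J : Submodule ℝ V) ≤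
      (J.card + 1) * finrank ℝ U := by
  obtain ⟨M, hM, hMc⟩ := Finset.exists_subset_card_eq hbN
  obtain ⟨r, hr⟩ := M1.ballot M
  obtain ⟨F, hF, hc⟩ := hr b (by omega)
  rw [hMc] at hc
  have h1 := M1.ballot_arith hb hc
  have h2 := M1.indep hρ hU hno hM hMc r F hF U fun _ _ => inf_le_left
  have h3 : F.card * finrank ℝ (U ⊓ InvJ ρ J : Submodule ℝ V) ≤
      ∑ I ∈ F, finrank ℝ (U ⊓ InvJ ρ (M \ I) : Submodule ℝ V) := by
    rw [← smul_eq_mul]
    refine Finset.card_nsmul_le_sum _ _ _ fun I hI => ?_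
    refine M1.transport ρ U N hU _ (Finset.sdiff_subset.trans hM) _ J hJ ?_ rfl
    have := Finset.card_sdiff_add_card_eq_card (hF I hI).2.1
    rw [(hF I hI).1] at this
    omega
  calc _ ≤ ((J.card + 1) * F.card) * finrank ℝ (U ⊓ InvJ ρ J : Submodule ℝ V) :=
        Nat.mul_le_mul_right _ h1
    _ = (J.card + 1) * (F.card * finrank ℝ (U ⊓ InvJ ρ J : Submodule ℝ V)) := mul_assoc _ _ _
    _ ≤ _ := Nat.mul_le_mul_left _ (h3.trans h2)

/-- (Low level multiplicity.) Apply (c) above with `j = n - k`, `b = k`, `ι` an enumeration of `α`,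
`𝓕` = all `k`-subsets of `Ico (n - k') n` (match them injectively into `range (n - k')`, possible
as `k ≤ n - k'`), `J₀ = ι '' range (n - k')`, `W = U ⊓ InvJ ρ J₀`. -/
theorem low_mult (ρ : Representation ℝ (Equiv.Perm α) V) (hρ : IsOrth ρ) (U : Submodule ℝ V)
    (hU : Stab ρ U univ) (k k' : ℕ) (hkk : k ≤ k') (hn : k + k' ≤ Fintype.card α)
    (hno : NoInv ρ U univ (Fintype.card α - k + 1))
    (hex : ∃ J : Finset α, J.card = Fintype.card α - k ∧ U ⊓ InvJ ρ J ≠ ⊥) :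
    ∃ J₀ : Finset α, J₀.card = Fintype.card α - k' ∧
      k'.choose k ≤ finrank ℝ (U ⊓ InvJ ρ J₀ : Submodule ℝ V) := by
  obtain ⟨J, hJc, hJ⟩ := hex
  obtain ⟨J₀, -, hJ₀⟩ := Finset.exists_subset_card_eq (s := (univ : Finset α))
    (n := Fintype.card α - k') (by rw [Finset.card_univ]; omega)
  refine ⟨J₀, hJ₀, ?_⟩
  have hcc : J₀ᶜ.card = k' := by rw [Finset.card_compl, hJ₀]; omega
  have hF : ∀ I ∈ powersetCard k J₀ᶜ, I.card = k ∧
      M1.Matched univ (fun a => if a ∈ J₀ then 0 else 1) I := by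
    intro I hI
    obtain ⟨hI, hIc⟩ := Finset.mem_powersetCard.1 hI
    refine ⟨hIc, Finset.subset_univ _, ?_⟩
    obtain ⟨e⟩ : Nonempty (I ↪ J₀) := by
      refine Function.Embedding.nonempty_of_card_le ?_
      rw [Fintype.card_coe, Fintype.card_coe, hIc, hJ₀]; omega
    refine ⟨fun a => if h : a ∈ I then (e ⟨a, h⟩ : α) else a, fun a ha c hc h => ?_,
      fun a ha => ?_⟩
    · have ha' : a ∈ I := ha
      have hc' : c ∈ I := hc
      simp only [ha', hc', dif_pos] at h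
      exact congrArg Subtype.val (e.injective (Subtype.ext h))
    · have h1 : (e ⟨a, ha⟩ : α) ∈ J₀ := (e ⟨a, ha⟩).2
      have h2 : a ∉ J₀ := Finset.mem_compl.1 (hI ha)
      simp only [ha, dif_pos, h1, h2, if_true, if_false]
      exact ⟨Finset.mem_univ _, fun h => Finset.mem_compl.1 (hI h) h1, zero_lt_one⟩
  have h2 := M1.indep (j := Fintype.card α - k) (b := k) hρ hU hno (Finset.Subset.refl _)
    (by rw [Finset.card_univ]; omega) _ _ hF (U ⊓ InvJ ρ J₀) fun I hI =>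
      inf_le_inf_left _ (M1.InvJ_mono ρ fun a ha => Finset.mem_sdiff.2 ⟨Finset.mem_univ _,
        fun h => Finset.mem_compl.1 ((Finset.mem_powersetCard.1 hI).1 h) ha⟩)
  refine le_trans ?_ h2
  have h4 : 1 ≤ finrank ℝ (U ⊓ InvJ ρ J : Submodule ℝ V) :=
    Submodule.one_le_finrank_iff.2 hJ
  have h5 := Finset.card_nsmul_le_sum (powersetCard k J₀ᶜ)
    (fun I => finrank ℝ (U ⊓ InvJ ρ (univ \ I) : Submodule ℝ V)) 1 fun I hI => by
      refine h4.trans (M1.transport ρ U univ hU _ (Finset.subset_univ _) _ J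
        (Finset.subset_univ _) ?_ rfl)
      have := Finset.card_sdiff_add_card_eq_card (Finset.subset_univ I)
      rw [(hF I hI).1, Finset.card_univ] at this
      omega
  rwa [Finset.card_powersetCard, hcc, smul_eq_mul, mul_one] at h5

end Crest.Agent.R155
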