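import Crest.Agent.R155.Spec
import Crest.Agent.R155.Mult1

set_option autoImplicit false

namespace Crest.Agent.R155

open Finset Module

variable {α V : Type*} [Fintype α] [DecidableEq α] [NormedAddCommGroup V] [InnerProductSpace ℝ V]
  [FiniteDimensional ℝ V]

namespace Asm

omit [Fintype α] [FiniteDimensional ℝ V] in
theorem map_mem_InvJ (ρ : Representation ℝ (Equiv.Perm α) V) (J : Finset α) (g : Equiv.Perm α)
    (v : V) (hv : v ∈ InvJ ρ J) : ρ g v ∈ InvJ ρ (J.map g.toEmbedding) := by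
  intro a ha b hb
  obtain ⟨c, hc, rfl⟩ := mem_map.1 ha
  obtain ⟨d, hd, rfl⟩ := mem_map.1 hb
  have h1 : Equiv.swap (g.toEmbedding c) (g.toEmbedding d) = g * Equiv.swap c d * g⁻¹ :=
    Equiv.swap_apply_apply g c d
  rw [h1, ← Module.End.mul_apply, ← map_mul, inv_mul_cancel_right, map_mul, Module.End.mul_apply,
    hv c hc d hd]

/-- The filtration of a stable subspace by levels. -/
noncomputable def Fl (ρ : Representation ℝ (Equiv.Perm α) V) (E : Submodule ℝ V) (k : ℕ) :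
    Submodule ℝ V :=
  ⨆ (J : Finset α) (_ : Fintype.card α - J.card < k), E ⊓ InvJ ρ J

/-- The orthogonal complement of the `k`-th step of the filtration. -/
noncomputable def Ul (ρ : Representation ℝ (Equiv.Perm α) V) (E : Submodule ℝ V) (k : ℕ) :
    Submodule ℝ V :=
  (Fl ρ E k)ᗮ ⊓ E

variable (ρ : Representation ℝ (Equiv.Perm α) V) (E : Submodule ℝ V)

omit [FiniteDimensional ℝ V] in
theorem le_Fl (k : ℕ) (J : Finset α) (hJ : Fintype.card α - J.card < k) :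
    E ⊓ InvJ ρ J ≤ Fl ρ E k :=
  le_iSup₂_of_le (f := fun (J : Finset α) (_ : Fintype.card α - J.card < k) => E ⊓ InvJ ρ J)
    J hJ le_rfl

omit [FiniteDimensional ℝ V] in
theorem Fl_le_iff (k : ℕ) (W : Submodule ℝ V) :
    Fl ρ E k ≤ W ↔ ∀ J : Finset α, Fintype.card α - J.card < k → E ⊓ InvJ ρ J ≤ W :=
  iSup₂_le_iff

omit [FiniteDimensional ℝ V] in
theorem Fl_le (k : ℕ) : Fl ρ E k ≤ E :=
  (Fl_le_iff ρ E k E).2 fun _ _ => inf_le_left

omit [FiniteDimensional ℝ V] in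
theorem Fl_zero : Fl ρ E 0 = ⊥ :=
  le_bot_iff.1 ((Fl_le_iff ρ E 0 ⊥).2 fun _ h => absurd h (Nat.not_lt_zero _))

omit [FiniteDimensional ℝ V] in
theorem Fl_mono (k : ℕ) : Fl ρ E k ≤ Fl ρ E (k + 1) :=
  (Fl_le_iff ρ E k _).2 fun J h => le_Fl ρ E (k + 1) J (Nat.lt_succ_of_lt h)

omit [FiniteDimensional ℝ V] in
theorem Fl_stab (hE : Stab ρ E univ) (k : ℕ) : Stab ρ (Fl ρ E k) univ := by
  intro a ha b hb
  have : Fl ρ E k ≤ (Fl ρ E k).comap (ρ (Equiv.swap a b)) := by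
    rw [Fl_le_iff]
    intro J hJ v hv
    refine le_Fl ρ E k (J.map (Equiv.swap a b).toEmbedding) (by rwa [card_map]) ?_
    exact ⟨hE a ha b hb v hv.1, map_mem_InvJ ρ J _ v hv.2⟩
  exact fun v hv => this hv

omit [FiniteDimensional ℝ V] in
theorem Ul_stab (hρ : IsOrth ρ) (hE : Stab ρ E univ) (k : ℕ) : Stab ρ (Ul ρ E k) univ := by
  intro a ha b hb v hv
  refine ⟨?_, hE a ha b hb v hv.2⟩
  change ρ (Equiv.swap a b) v ∈ (Fl ρ E k)ᗮ
  rw [Submodule.mem_orthogonal]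
  intro u hu
  have h1 : u = ρ (Equiv.swap a b) (ρ (Equiv.swap a b) u) := by
    rw [← Module.End.mul_apply, ← map_mul, Equiv.swap_mul_self, map_one, Module.End.one_apply]
  rw [h1, hρ]
  exact (Submodule.mem_orthogonal _ _).1 hv.1 _ (Fl_stab ρ E hE k a ha b hb u hu)

theorem finrank_split (k : ℕ) :
    finrank ℝ (Fl ρ E k) + finrank ℝ (Ul ρ E k) = finrank ℝ E :=
  Submodule.finrank_add_inf_finrank_orthogonal (Fl_le ρ E k)

theorem finrank_sup_finset_le {ι : Type*} (s : Finset ι) (W : ι → Submodule ℝ V) :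
    finrank ℝ (s.sup W : Submodule ℝ V) ≤ ∑ i ∈ s, finrank ℝ (W i) := by
  classical
  induction s using Finset.induction_on with
  | empty => simp
  | insert i s hi ih =>
    rw [Finset.sup_insert, Finset.sum_insert hi]
    exact (Submodule.finrank_add_le_finrank_add_finrank _ _).trans (by omega)

theorem jump_le (k : ℕ) (hk : k ≤ Fintype.card α) :
    finrank ℝ (Fl ρ E (k + 1)) ≤ finrank ℝ (Fl ρ E k) +
      ∑ J ∈ powersetCard (Fintype.card α - k) (univ : Finset α),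
        finrank ℝ (E ⊓ InvJ ρ J : Submodule ℝ V) := by
  have h1 : Fl ρ E (k + 1) ≤ Fl ρ E k ⊔
      (powersetCard (Fintype.card α - k) (univ : Finset α)).sup (fun J => E ⊓ InvJ ρ J) := by
    rw [Fl_le_iff]
    intro J hJ
    rcases Nat.lt_succ_iff_lt_or_eq.1 hJ with h | h
    · exact (le_Fl ρ E k J h).trans le_sup_left
    · refine le_trans ?_ le_sup_right
      refine Finset.le_sup (f := fun J => E ⊓ InvJ ρ J) ?_
      have := card_le_univ J
      rw [mem_powersetCard]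
      exact ⟨subset_univ _, by omega⟩
  refine (Submodule.finrank_mono h1).trans ?_
  refine (Submodule.finrank_add_le_finrank_add_finrank _ _).trans ?_
  exact Nat.add_le_add_left (finrank_sup_finset_le _ _) _

omit [FiniteDimensional ℝ V] in
theorem Ul_noInv (k : ℕ) (hk : k ≤ Fintype.card α) :
    NoInv ρ (Ul ρ E k) univ (Fintype.card α - k + 1) := by
  intro J _ hJ
  have := card_le_univ J
  rw [eq_bot_iff]
  intro v hv
  have h1 : v ∈ Fl ρ E k := le_Fl ρ E k J (by omega) ⟨hv.1.2, hv.2⟩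
  have h2 : v ∈ Fl ρ E k ⊓ (Fl ρ E k)ᗮ := ⟨h1, hv.1.1⟩
  rwa [Submodule.inf_orthogonal_eq_bot] at h2

theorem exists_inv_of_jump (hρ : IsOrth ρ) (hE : Stab ρ E univ) (k : ℕ)
    (hk : k ≤ Fintype.card α) (hj : finrank ℝ (Fl ρ E k) < finrank ℝ (Fl ρ E (k + 1))) :
    ∃ J : Finset α, J.card = Fintype.card α - k ∧ Ul ρ E k ⊓ InvJ ρ J ≠ ⊥ := by
  by_contra hcon
  push Not at hcon
  have h1 : Fl ρ E (k + 1) ≤ Fl ρ E k := by
    rw [Fl_le_iff]
    intro J hJ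
    rcases Nat.lt_succ_iff_lt_or_eq.1 hJ with h | h
    · exact le_Fl ρ E k J h
    · have := card_le_univ J
      have hb := hcon J (by omega)
      intro v hv
      obtain ⟨y, hy, z, hz, hyz⟩ := Submodule.exists_add_mem_mem_orthogonal (K := Fl ρ E k) v
      have hzE : z ∈ E := by
        have : z = v - y := by rw [hyz]; abel
        rw [this]
        exact E.sub_mem hv.1 (Fl_le ρ E k hy)
      have hzU : z ∈ Ul ρ E k := ⟨hz, hzE⟩
      have hzI : z ∈ InvJ ρ J := by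
        intro a ha b hb'
        have e1 : ρ (Equiv.swap a b) v = v := hv.2 a ha b hb'
        have e2 : ρ (Equiv.swap a b) y ∈ Fl ρ E k :=
          Fl_stab ρ E hE k a (mem_univ _) b (mem_univ _) y hy
        have e3 : ρ (Equiv.swap a b) z ∈ Ul ρ E k :=
          Ul_stab ρ E hρ hE k a (mem_univ _) b (mem_univ _) z hzU
        have e4 : ρ (Equiv.swap a b) z - z = y - ρ (Equiv.swap a b) y := by
          rw [hyz, map_add] at e1
          rw [sub_eq_sub_iff_add_eq_add, add_comm, e1]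
        have e5 : ρ (Equiv.swap a b) z - z ∈ Fl ρ E k ⊓ (Fl ρ E k)ᗮ :=
          ⟨by rw [e4]; exact Submodule.sub_mem _ hy e2, Submodule.sub_mem _ e3.1 hz⟩
        rw [Submodule.inf_orthogonal_eq_bot, Submodule.mem_bot, sub_eq_zero] at e5
        exact e5
      have hz0 : z ∈ Ul ρ E k ⊓ InvJ ρ J := ⟨hzU, hzI⟩
      rw [hb, Submodule.mem_bot] at hz0
      rw [hyz, hz0, add_zero]
      exact hy
  exact absurd (Submodule.finrank_mono h1) (not_le.2 hj)

/-- A jump at level `k` forces a large multiplicity at level `k'`. -/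
theorem mult_of_jump (hρ : IsOrth ρ) (hE : Stab ρ E univ) (k k' : ℕ) (hkk : k ≤ k')
    (hn : k + k' ≤ Fintype.card α)
    (hj : finrank ℝ (Fl ρ E k) < finrank ℝ (Fl ρ E (k + 1))) :
    ∃ J₀ : Finset α, J₀.card = Fintype.card α - k' ∧
      k'.choose k ≤ finrank ℝ (E ⊓ InvJ ρ J₀ : Submodule ℝ V) := by
  obtain ⟨J₀, h1, h2⟩ := low_mult ρ hρ (Ul ρ E k) (Ul_stab ρ E hρ hE k) k k' hkk hn
    (Ul_noInv ρ E k (by omega)) (exists_inv_of_jump ρ E hρ hE k (by omega) hj)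
  refine ⟨J₀, h1, h2.trans (Submodule.finrank_mono ?_)⟩
  exact inf_le_inf_right _ inf_le_right

/-- The estimate for one eigenvalue. -/
theorem one_eig (β : ℝ) (r : ℕ → ℝ) (y m : ℝ) (kA k₀ : ℕ)
    (hk : kA ≤ k₀) (hk₀ : k₀ ≤ Fintype.card α) (hr0 : ∀ k < k₀, 0 ≤ r k) (hy0 : 0 ≤ y)
    (hm0 : 0 ≤ m)
    (hr : ∀ k < k₀, finrank ℝ (Fl ρ E k) < finrank ℝ (Fl ρ E (k + 1)) → β ^ 32 ≤ r k)
    (hm : ∀ k, kA ≤ k → k < k₀ → r k ≤ m)
    (hy : β ≠ 0 → Ul ρ E k₀ ≠ ⊥ → β ^ 64 ≤ y) :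
    β ^ 1024 * (finrank ℝ E : ℝ) ≤
      ∑ k ∈ range kA, r k ^ 31 * ∑ J ∈ powersetCard (Fintype.card α - k) (univ : Finset α),
          β ^ 32 * (finrank ℝ (E ⊓ InvJ ρ J : Submodule ℝ V) : ℝ) +
        m ^ 31 * (β ^ 32 * (finrank ℝ E : ℝ)) + y ^ 15 * (β ^ 64 * (finrank ℝ E : ℝ)) := by
  set f : ℕ → ℝ := fun k => (finrank ℝ (Fl ρ E k) : ℝ) with hf
  have hb32 : 0 ≤ β ^ 32 := by positivity
  have hb64 : 0 ≤ β ^ 64 := by positivity
  have hf0 : f 0 = 0 := by simp [hf, Fl_zero]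
  have hfm : ∀ k, 0 ≤ f (k + 1) - f k := fun k => by
    have := Submodule.finrank_mono (Fl_mono ρ E k)
    simp only [hf, sub_nonneg]
    exact_mod_cast this
  have htel : f k₀ = ∑ k ∈ range kA, (f (k + 1) - f k) + ∑ k ∈ Ico kA k₀, (f (k + 1) - f k) := by
    rw [Finset.sum_range_add_sum_Ico _ hk, Finset.sum_range_sub, hf0, sub_zero]
  have hsplit : (finrank ℝ E : ℝ) = f k₀ + (finrank ℝ (Ul ρ E k₀) : ℝ) := by
    rw [← finrank_split ρ E k₀]
    simp [hf]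
  have hkey : ∀ k < k₀, ∀ t, r k ≤ t →
      β ^ 1024 * (f (k + 1) - f k) ≤ t ^ 31 * (β ^ 32 * (f (k + 1) - f k)) := by
    intro k hk' t ht
    rcases (hfm k).eq_or_lt with h | h
    · rw [← h]; simp
    · have h1 : finrank ℝ (Fl ρ E k) < finrank ℝ (Fl ρ E (k + 1)) := by
        have : f k < f (k + 1) := sub_pos.1 h
        simp only [hf] at this
        exact_mod_cast this
      have h2 : (β ^ 32) ^ 31 ≤ t ^ 31 := pow_le_pow_left₀ hb32 ((hr k hk' h1).trans ht) 31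
      calc β ^ 1024 * (f (k + 1) - f k) = (β ^ 32) ^ 31 * (β ^ 32 * (f (k + 1) - f k)) := by
            rw [← mul_assoc, ← pow_succ, ← pow_mul]
        _ ≤ _ := mul_le_mul_of_nonneg_right h2 (mul_nonneg hb32 h.le)
  have p1 : β ^ 1024 * ∑ k ∈ range kA, (f (k + 1) - f k) ≤
      ∑ k ∈ range kA, r k ^ 31 * ∑ J ∈ powersetCard (Fintype.card α - k) (univ : Finset α),
          β ^ 32 * (finrank ℝ (E ⊓ InvJ ρ J : Submodule ℝ V) : ℝ) := by
    rw [Finset.mul_sum]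
    refine Finset.sum_le_sum fun k hk' => ?_
    have hk'' : k < k₀ := lt_of_lt_of_le (mem_range.1 hk') hk
    refine (hkey k hk'' (r k) le_rfl).trans ?_
    refine mul_le_mul_of_nonneg_left ?_ (pow_nonneg (hr0 k hk'') _)
    rw [← Finset.mul_sum]
    refine mul_le_mul_of_nonneg_left ?_ hb32
    have := jump_le ρ E k (by omega)
    rw [sub_le_iff_le_add']
    simp only [hf]
    exact_mod_cast this
  have p2 : β ^ 1024 * ∑ k ∈ Ico kA k₀, (f (k + 1) - f k) ≤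
      m ^ 31 * (β ^ 32 * (finrank ℝ E : ℝ)) := by
    rw [Finset.mul_sum]
    refine (Finset.sum_le_sum fun k hk' =>
      hkey k (mem_Ico.1 hk').2 m (hm k (mem_Ico.1 hk').1 (mem_Ico.1 hk').2)).trans ?_
    rw [← Finset.mul_sum, ← Finset.mul_sum]
    refine mul_le_mul_of_nonneg_left (mul_le_mul_of_nonneg_left ?_ hb32) (pow_nonneg hm0 _)
    have h1 : 0 ≤ ∑ k ∈ range kA, (f (k + 1) - f k) := Finset.sum_nonneg fun k _ => hfm k
    have h2 : (0 : ℝ) ≤ (finrank ℝ (Ul ρ E k₀) : ℝ) := Nat.cast_nonneg _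
    linarith
  have p3 : β ^ 1024 * (finrank ℝ (Ul ρ E k₀) : ℝ) ≤ y ^ 15 * (β ^ 64 * (finrank ℝ E : ℝ)) := by
    have h0 : 0 ≤ y ^ 15 * (β ^ 64 * (finrank ℝ E : ℝ)) :=
      mul_nonneg (pow_nonneg hy0 _) (mul_nonneg hb64 (Nat.cast_nonneg _))
    by_cases hβ : β = 0
    · rw [hβ] at h0 ⊢
      simp
    by_cases hU : Ul ρ E k₀ = ⊥
    · rw [hU]
      simpa using h0
    have h2 : (β ^ 64) ^ 15 ≤ y ^ 15 := pow_le_pow_left₀ hb64 (hy hβ hU) 15
    have h3 : (finrank ℝ (Ul ρ E k₀) : ℝ) ≤ (finrank ℝ E : ℝ) := by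
      exact_mod_cast Submodule.finrank_mono (inf_le_right : Ul ρ E k₀ ≤ E)
    calc β ^ 1024 * (finrank ℝ (Ul ρ E k₀) : ℝ)
        = (β ^ 64) ^ 15 * (β ^ 64 * (finrank ℝ (Ul ρ E k₀) : ℝ)) := by
          rw [← mul_assoc, ← pow_succ, ← pow_mul]
      _ ≤ y ^ 15 * (β ^ 64 * (finrank ℝ E : ℝ)) :=
        mul_le_mul h2 (mul_le_mul_of_nonneg_left h3 hb64)
          (mul_nonneg hb64 (Nat.cast_nonneg _)) (pow_nonneg hy0 _)
  calc β ^ 1024 * (finrank ℝ E : ℝ)
      = β ^ 1024 * ∑ k ∈ range kA, (f (k + 1) - f k) +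
          β ^ 1024 * ∑ k ∈ Ico kA k₀, (f (k + 1) - f k) +
          β ^ 1024 * (finrank ℝ (Ul ρ E k₀) : ℝ) := by
        rw [hsplit, htel, mul_add, mul_add]
    _ ≤ _ := add_le_add (add_le_add p1 p2) p3

end Asm

open Asm

/-- Spectral assembly. Use `trace_pow_eq` (file `Spec`) and `low_mult` (file `Mult1`) as black
boxes. Let `n = card α`, `B` from `trace_pow_eq`. Fix `β`, `E = eigenspace A β` (stable under `ρ`
by `hcomm`). Put `F k = ⨆ J with n - |J| < k, E ⊓ InvJ ρ J` (`F 0 = ⊥`, monotone, `≤ E`, stable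
under transpositions because `τ a b` maps `E ⊓ InvJ ρ J` into `E ⊓ InvJ ρ (swap a b '' J)`), and
`U k = E ⊓ (F k)ᗮ` (stable since `τ a b` is an orthogonal involution). `dim E = dim F k + dim U k`.
`jump k = dim F (k+1) - dim F k ≤ ∑ J with |J| = n - k, dim (E ⊓ InvJ ρ J)`.
For `k ≤ n`, `NoInv ρ (U k) univ (n - k + 1)` (such a vector is in `F k` and in its complement; for
`k = 0` there is no such `J`). If `jump k > 0` then `U k ⊓ InvJ ρ J ≠ ⊥` for some `|J| = n - k`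
(otherwise write `v ∈ E ⊓ InvJ ρ J` as `a + b`, `a ∈ F k`, `b ∈ (F k)ᗮ`; uniqueness of the
decomposition gives `b ∈ U k ⊓ InvJ ρ J = ⊥`, so `F (k+1) = F k`), so `low_mult` and `hZ` (with
`B = {β}`) give `β^32 * C(κ k, k) ≤ Z (κ k)`. If `U k₀ ≠ ⊥` and `β ≠ 0` then
`β^64 * mh ≤ β^64 dim E ≤ Y`. Now
`β^1024 dim E = ∑ k < k₀, (β^32)^31 β^32 jump k + (β^64)^15 β^64 dim U k₀`; bound the factors
`(β^32)^31`, `(β^64)^15`, use `∑ kA ≤ k < k₀, jump k ≤ dim E = dim (E ⊓ InvJ ρ ∅)`, sum over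
`β ∈ B` and use `hZ`, `hY`. (`Z k ≥ 0` for `k ≤ n` and `Y ≥ 0` follow from `B = ∅`.) -/
theorem assembly (ρ : Representation ℝ (Equiv.Perm α) V) (hρ : IsOrth ρ) (A : V →ₗ[ℝ] V)
    (hA : A.IsSymmetric) (hcomm : ∀ g v, A (ρ g v) = ρ g (A v))
    (Z : ℕ → ℝ) (Y mh m : ℝ) (kA k₀ : ℕ) (κ : ℕ → ℕ)
    (hZ : ∀ (J : Finset α) (B : Finset ℝ),
      ∑ β ∈ B, β ^ 32 * (finrank ℝ (End.eigenspace A β ⊓ InvJ ρ J : Submodule ℝ V) : ℝ) ≤
        Z (Fintype.card α - J.card))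
    (hY : ∀ B : Finset ℝ, ∑ β ∈ B, β ^ 64 * (finrank ℝ (End.eigenspace A β) : ℝ) ≤ Y)
    (hk : kA ≤ k₀) (hk₀ : k₀ ≤ Fintype.card α)
    (hκ : ∀ k < k₀, k ≤ κ k ∧ k + κ k ≤ Fintype.card α)
    (hm0 : 0 ≤ m) (hm : ∀ k, kA ≤ k → k < k₀ → Z (κ k) / ((κ k).choose k : ℝ) ≤ m)
    (hmh : 0 < mh)
    (hhigh : ∀ β : ℝ, β ≠ 0 → ∀ U : Submodule ℝ V, U ≤ End.eigenspace A β → U ≠ ⊥ →
      Stab ρ U univ → NoInv ρ U univ (Fintype.card α - k₀ + 1) → mh ≤ (finrank ℝ U : ℝ)) :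
    LinearMap.trace ℝ V (A ^ 1024) ≤
      ∑ k ∈ range kA, ((Fintype.card α).choose k : ℝ) * Z k *
          (Z (κ k) / ((κ k).choose k : ℝ)) ^ 31 +
        Z (Fintype.card α) * m ^ 31 + Y * (Y / mh) ^ 15 := by
  classical
  obtain ⟨B, hB, -⟩ := trace_pow_eq A hA
  set n := Fintype.card α with hn
  set r : ℕ → ℝ := fun k => Z (κ k) / ((κ k).choose k : ℝ) with hr
  have hZ0 : ∀ k ≤ n, 0 ≤ Z k := by
    intro k hkn
    obtain ⟨J, -, hJ⟩ := Finset.exists_subset_card_eq (s := (univ : Finset α)) (n := n - k)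
      (by rw [card_univ]; omega)
    have := hZ J ∅
    rw [Finset.sum_empty, hJ, show n - (n - k) = k by omega] at this
    exact this
  have hY0 : 0 ≤ Y := by simpa using hY ∅
  have hr0 : ∀ k < k₀, 0 ≤ r k := fun k hk' =>
    div_nonneg (hZ0 _ (by have := hκ k hk'; omega)) (Nat.cast_nonneg _)
  have hE : ∀ β : ℝ, Stab ρ (End.eigenspace A β) univ := by
    intro β a _ b _ v hv
    rw [End.mem_eigenspace_iff] at hv ⊢
    rw [hcomm, hv, map_smul]
  have hone : ∀ β : ℝ, β ^ 1024 * (finrank ℝ (End.eigenspace A β) : ℝ) ≤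
      ∑ k ∈ range kA, r k ^ 31 * ∑ J ∈ powersetCard (n - k) (univ : Finset α),
          β ^ 32 * (finrank ℝ (End.eigenspace A β ⊓ InvJ ρ J : Submodule ℝ V) : ℝ) +
        m ^ 31 * (β ^ 32 * (finrank ℝ (End.eigenspace A β) : ℝ)) +
        (Y / mh) ^ 15 * (β ^ 64 * (finrank ℝ (End.eigenspace A β) : ℝ)) := by
    intro β
    refine one_eig ρ _ β r (Y / mh) m kA k₀ hk hk₀ hr0 (div_nonneg hY0 hmh.le) hm0
      ?_ hm ?_
    · intro k hk' hj
      obtain ⟨h1, h2⟩ := hκ k hk'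
      obtain ⟨J₀, hJ₀, hc⟩ := mult_of_jump ρ _ hρ (hE β) k (κ k) h1 h2 hj
      have h3 := hZ J₀ {β}
      rw [Finset.sum_singleton, hJ₀, show n - (n - κ k) = κ k by omega] at h3
      have h4 : (0 : ℝ) < ((κ k).choose k : ℝ) := by exact_mod_cast Nat.choose_pos h1
      rw [hr]
      dsimp only
      rw [le_div_iff₀ h4]
      refine le_trans (mul_le_mul_of_nonneg_left ?_ (by positivity)) h3
      exact_mod_cast hc
    · intro hβ hU
      have h1 := hhigh β hβ _ (inf_le_right : Ul ρ (End.eigenspace A β) k₀ ≤ _) hU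
        (Ul_stab ρ _ hρ (hE β) k₀) (Ul_noInv ρ _ k₀ hk₀)
      have h2 := hY {β}
      rw [Finset.sum_singleton] at h2
      have h3 : (finrank ℝ (Ul ρ (End.eigenspace A β) k₀) : ℝ) ≤
          (finrank ℝ (End.eigenspace A β) : ℝ) := by
        exact_mod_cast Submodule.finrank_mono (inf_le_right : Ul ρ (End.eigenspace A β) k₀ ≤ _)
      rw [le_div_iff₀ hmh]
      exact le_trans (mul_le_mul_of_nonneg_left (h1.trans h3) (by positivity)) h2
  rw [hB 1024]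
  refine (Finset.sum_le_sum fun β _ => hone β).trans ?_
  rw [Finset.sum_add_distrib, Finset.sum_add_distrib]
  refine add_le_add (add_le_add ?_ ?_) ?_
  · rw [Finset.sum_comm]
    refine Finset.sum_le_sum fun k hk' => ?_
    have hk'' : k < k₀ := lt_of_lt_of_le (mem_range.1 hk') hk
    rw [← Finset.mul_sum, mul_comm]
    refine mul_le_mul_of_nonneg_right ?_ (pow_nonneg (hr0 k hk'') _)
    rw [Finset.sum_comm]
    have h1 : ∀ J ∈ powersetCard (n - k) (univ : Finset α),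
        ∑ β ∈ B, β ^ 32 * (finrank ℝ (End.eigenspace A β ⊓ InvJ ρ J : Submodule ℝ V) : ℝ) ≤
          Z k := by
      intro J hJ
      have := hZ J B
      rwa [(mem_powersetCard.1 hJ).2, show n - (n - k) = k by omega] at this
    refine (Finset.sum_le_sum h1).trans ?_
    rw [Finset.sum_const, card_powersetCard, card_univ, nsmul_eq_mul, ← hn,
      Nat.choose_symm (by omega)]
  · rw [← Finset.mul_sum, mul_comm]
    refine mul_le_mul_of_nonneg_right ?_ (pow_nonneg hm0 _)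
    have h1 := hZ ∅ B
    have h2 : InvJ ρ (∅ : Finset α) = ⊤ := by
      rw [eq_top_iff]
      intro v _ a ha
      simp at ha
    rw [h2, card_empty, Nat.sub_zero] at h1
    refine le_trans (le_of_eq (Finset.sum_congr rfl fun β _ => ?_)) h1
    rw [inf_top_eq]
  · rw [← Finset.mul_sum, mul_comm]
    exact mul_le_mul_of_nonneg_right (hY B) (pow_nonneg (div_nonneg hY0 hmh.le) _)

end Crest.Agent.R155
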