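import Mathlib

/-!
# Thorp shuffle project (rid 155): shared definitions
-/

set_option autoImplicit false

namespace Crest.Agent.R155

open Finset BigOperators

/-! ## Networks -/

/-- Positions of a network of depth `j` (bit strings, most significant bit first). -/
def Pos : ℕ → Type
  | 0 => Unit
  | j + 1 => Bool × Pos j

instance instFintypePos : (j : ℕ) → Fintype (Pos j)
  | 0 => inferInstanceAs (Fintype Unit)
  | j + 1 => haveI := instFintypePos j; inferInstanceAs (Fintype (Bool × Pos j))

instance instDecEqPos : (j : ℕ) → DecidableEq (Pos j)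
  | 0 => inferInstanceAs (DecidableEq Unit)
  | j + 1 => haveI := instDecEqPos j; inferInstanceAs (DecidableEq (Bool × Pos j))

theorem card_Pos : (j : ℕ) → Fintype.card (Pos j) = 2 ^ j
  | 0 => by
    show Fintype.card Unit = 2 ^ 0
    simp
  | j + 1 => by
    show Fintype.card (Bool × Pos j) = 2 ^ (j + 1)
    rw [Fintype.card_prod, card_Pos j, Fintype.card_bool, pow_succ, mul_comm]

/-- One layer of switches: `(b, p) ↦ (b xor s p, p)`. It is an involution. -/
def sw {β : Type*} (s : β → Bool) : Equiv.Perm (Bool × β) where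
  toFun v := (xor v.1 (s v.2), v.2)
  invFun v := (xor v.1 (s v.2), v.2)
  left_inv v := by simp
  right_inv v := by simp

@[simp] theorem sw_apply {β : Type*} (s : β → Bool) (v : Bool × β) :
    sw s v = (xor v.1 (s v.2), v.2) := rfl

@[simp] theorem sw_inv {β : Type*} (s : β → Bool) : (sw s)⁻¹ = sw s := rfl

/-- Two permutations acting on the two halves: `(false, p) ↦ (false, σ₀ p)`,
`(true, p) ↦ (true, σ₁ p)`. -/
def blk {β : Type*} (σ₀ σ₁ : Equiv.Perm β) : Equiv.Perm (Bool × β) where
  toFun v := (v.1, (bif v.1 then σ₁ else σ₀) v.2)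
  invFun v := (v.1, (bif v.1 then σ₁ else σ₀)⁻¹ v.2)
  left_inv v := by simp
  right_inv v := by simp

@[simp] theorem blk_apply {β : Type*} (σ₀ σ₁ : Equiv.Perm β) (v : Bool × β) :
    blk σ₀ σ₁ v = (v.1, (bif v.1 then σ₁ else σ₀) v.2) := rfl

/-- Coins of the butterfly network of depth `j`. -/
def Theta : ℕ → Type
  | 0 => Unit
  | j + 1 => (Pos j → Bool) × Theta j × Theta j

instance instFintypeTheta : (j : ℕ) → Fintype (Theta j)
  | 0 => inferInstanceAs (Fintype Unit)
  | j + 1 =>
    haveI := instFintypeTheta j; inferInstanceAs (Fintype ((Pos j → Bool) × Theta j × Theta j))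

instance instNonemptyTheta : (j : ℕ) → Nonempty (Theta j)
  | 0 => inferInstanceAs (Nonempty Unit)
  | j + 1 =>
    haveI := instNonemptyTheta j; inferInstanceAs (Nonempty ((Pos j → Bool) × Theta j × Theta j))

/-- The butterfly network (one pass of `j` shuffles on `2 ^ j` cards): first the layer of
switches in the first coordinate, then two independent smaller networks. -/
def bfly : (j : ℕ) → Theta j → Equiv.Perm (Pos j)
  | 0, _ => 1
  | j + 1, θ => (blk (bfly j θ.2.1) (bfly j θ.2.2) * sw θ.1 : Equiv.Perm (Bool × Pos j))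

/-- `π(ω₂)⁻¹ π(ω₁)` for two independent copies (for the butterfly: the Beneš network). -/
def pairLaw {α Ω : Type*} (π : Ω → Equiv.Perm α) (ω : Ω × Ω) : Equiv.Perm α :=
  (π ω.2)⁻¹ * π ω.1

/-- Transition matrix of left multiplication by the random permutation `π`. -/
noncomputable def lawMat {α Ω : Type*} [Fintype α] [DecidableEq α] [Fintype Ω]
    (π : Ω → Equiv.Perm α) : Matrix (Equiv.Perm α) (Equiv.Perm α) ℝ :=
  Matrix.of fun g h => 𝔼 ω, if π ω * g = h then (1 : ℝ) else 0

/-- Probability that the random permutation `π` agrees with `σ` on `X`. -/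
noncomputable def kap {α Ω : Type*} [DecidableEq α] [Fintype Ω] (π : Ω → Equiv.Perm α)
    (X : Finset α) (σ : Equiv.Perm α) : ℝ :=
  𝔼 ω, if ∀ v ∈ X, π ω v = σ v then (1 : ℝ) else 0

/-- The cards of `X` that the switch setting `s` sends to the half `b`. -/
def side {β : Type*} [Fintype β] [DecidableEq β] (s : β → Bool) (b : Bool)
    (X : Finset (Bool × β)) : Finset β :=
  univ.filter fun p => (xor b (s p), p) ∈ X

/-- Number of switches both of whose inputs carry a card of `X`. -/
def npair {β : Type*} [Fintype β] [DecidableEq β] (X : Finset (Bool × β)) : ℕ :=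
  (univ.filter fun p => (false, p) ∈ X ∧ (true, p) ∈ X).card

/-- The function `G` of the Rényi recursion. -/
noncomputable def Gf (c θ : ℝ) : (j : ℕ) → Finset (Pos j) → ℝ
  | 0, _ => 1
  | j + 1, X => Real.exp (θ ^ j * c * (npair (β := Pos j) X : ℝ)) *
      𝔼 s : Pos j → Bool,
        Gf c θ j (side (β := Pos j) s false X) * Gf c θ j (side (β := Pos j) s true X)

theorem Gf_pos (c θ : ℝ) : (j : ℕ) → (X : Finset (Pos j)) → 0 < Gf c θ j X
  | 0, _ => by simp [Gf]
  | j + 1, X => by
    rw [Gf]
    refine mul_pos (Real.exp_pos _) (expect_pos (fun s _ => ?_) univ_nonempty)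
    exact mul_pos (Gf_pos c θ j _) (Gf_pos c θ j _)

/-! ## Orthogonal representations of a symmetric group -/

section Rep

variable {α V : Type*} [Fintype α] [DecidableEq α] [NormedAddCommGroup V] [InnerProductSpace ℝ V]

/-- The representation preserves the inner product. -/
def IsOrth (ρ : Representation ℝ (Equiv.Perm α) V) : Prop :=
  ∀ g x y, inner ℝ (ρ g x) (ρ g y) = inner ℝ x y

/-- Twist of a representation by the sign character. -/
def tw (ρ : Representation ℝ (Equiv.Perm α) V) : Representation ℝ (Equiv.Perm α) V where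
  toFun g := ((Equiv.Perm.sign g : ℤ) : ℝ) • ρ g
  map_one' := by simp
  map_mul' g h := by
    simp only [map_mul, Units.val_mul, Int.cast_mul]
    rw [smul_mul_smul_comm]

/-- Vectors fixed by all transpositions of elements of `J`. -/
def InvJ (ρ : Representation ℝ (Equiv.Perm α) V) (J : Finset α) : Submodule ℝ V where
  carrier := {v | ∀ a ∈ J, ∀ b ∈ J, ρ (Equiv.swap a b) v = v}
  add_mem' hx hy a ha b hb := by rw [map_add, hx a ha b hb, hy a ha b hb]
  zero_mem' a _ b _ := map_zero _
  smul_mem' c x hx a ha b hb := by rw [map_smul, hx a ha b hb]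

omit [Fintype α] in
theorem mem_InvJ {ρ : Representation ℝ (Equiv.Perm α) V} {J : Finset α} {v : V} :
    v ∈ InvJ ρ J ↔ ∀ a ∈ J, ∀ b ∈ J, ρ (Equiv.swap a b) v = v := Iff.rfl

/-- `U` is stable under all transpositions of elements of `N`. -/
def Stab (ρ : Representation ℝ (Equiv.Perm α) V) (U : Submodule ℝ V) (N : Finset α) : Prop :=
  ∀ a ∈ N, ∀ b ∈ N, ∀ v ∈ U, ρ (Equiv.swap a b) v ∈ U

/-- No nonzero vector of `U` is invariant under the symmetric group of an `m`-subset of `N`. -/
def NoInv (ρ : Representation ℝ (Equiv.Perm α) V) (U : Submodule ℝ V) (N : Finset α) (m : ℕ) :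
    Prop :=
  ∀ J ⊆ N, J.card = m → U ⊓ InvJ ρ J = ⊥

end Rep

/-! ## The right regular representation and the kernels -/

/-- Right regular representation on functions on the symmetric group. -/
def rightReg (α : Type*) [Fintype α] [DecidableEq α] :
    Representation ℝ (Equiv.Perm α) (EuclideanSpace ℝ (Equiv.Perm α)) where
  toFun h :=
    { toFun := fun f => WithLp.toLp 2 fun g => f (g * h)
      map_add' := fun _ _ => rfl
      map_smul' := fun _ _ => rfl }
  map_one' := by
    ext f g
    simp
  map_mul' h h' := by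
    ext f g
    simp [mul_assoc]

@[simp] theorem rightReg_apply {α : Type*} [Fintype α] [DecidableEq α] (h : Equiv.Perm α)
    (f : EuclideanSpace ℝ (Equiv.Perm α)) (g : Equiv.Perm α) :
    rightReg α h f g = f (g * h) := rfl

/-- The kernel of `lawMat π` composed with the projection on functions that depend only on the
values of the permutation outside `J`. -/
noncomputable def Ahat {α Ω : Type*} [Fintype α] [DecidableEq α] [Fintype Ω]
    (π : Ω → Equiv.Perm α) (J : Finset α) : Matrix (Equiv.Perm α) (Equiv.Perm α) ℝ :=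
  Matrix.of fun g h =>
    (𝔼 ω, if ∀ a, a ∉ J → π ω (g a) = h a then (1 : ℝ) else 0) / (J.card.factorial : ℝ)

/-- The bound on `tr (Ahat J) ^ s` for `|J| = n - k`, with `n = 2 * h` positions. -/
noncomputable def zb (Q : ℝ) (h k : ℕ) (z : ℝ) : ℝ :=
  (k.factorial : ℝ) / ((2 * h : ℝ) * z) ^ k * (1 + 2 * z + Q * z ^ 2) ^ h

end Crest.Agent.R155
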