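import Crest.Agent.R155.Defs

set_option autoImplicit false

namespace Crest.Agent.R155

open Matrix

namespace DysonAux

variable {n : Type*} [Fintype n] [DecidableEq n]

theorem trace_mul_pow_comm (M N : Matrix n n ℝ) (m : ℕ) :
    ((M * N) ^ m).trace = ((N * M) ^ m).trace := by
  cases m with
  | zero => simp
  | succ m =>
    rw [pow_succ, ← mul_assoc, mul_pow_mul, Matrix.trace_mul_comm, ← mul_assoc, ← pow_succ']

omit [DecidableEq n] in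
theorem trace_mul_le (P Q : Matrix n n ℝ) :
    (P * Q).trace ≤ ((P * Pᵀ).trace + (Qᵀ * Q).trace) / 2 := by
  simp only [Matrix.trace, Matrix.diag, Matrix.mul_apply, Matrix.transpose_apply]
  rw [← Finset.sum_add_distrib, Finset.sum_div]
  refine Finset.sum_le_sum fun i _ => ?_
  rw [← Finset.sum_add_distrib, Finset.sum_div]
  refine Finset.sum_le_sum fun j _ => ?_
  nlinarith [sq_nonneg (P i j - Q j i)]

/-- Claim `B a`. -/
def ClaimB (n : Type*) [Fintype n] [DecidableEq n] (a : ℕ) : Prop :=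
  ∀ p q : Matrix n n ℝ, pᵀ = p → qᵀ = q →
    ((p * q) ^ 2 ^ a).trace ≤ (p ^ 2 ^ a * q ^ 2 ^ a).trace

/-- Claim `S (a+1)`. -/
def ClaimS (n : Type*) [Fintype n] [DecidableEq n] (a : ℕ) : Prop :=
  ∀ X : Matrix n n ℝ, (X ^ 2 ^ (a + 1)).trace ≤ ((X * Xᵀ) ^ 2 ^ a).trace

theorem sq_step {a : ℕ} (hB : ClaimB n a) (Y : Matrix n n ℝ) :
    ((Y ^ 2 * (Y ^ 2)ᵀ) ^ 2 ^ a).trace ≤ ((Y * Yᵀ) ^ 2 ^ (a + 1)).trace := by
  have h1 : Y ^ 2 * (Y ^ 2)ᵀ = (Y * (Y * Yᵀ)) * Yᵀ := by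
    simp only [sq, Matrix.transpose_mul, mul_assoc]
  have hp : (Yᵀ * Y)ᵀ = Yᵀ * Y := by simp [Matrix.transpose_mul]
  have hq : (Y * Yᵀ)ᵀ = Y * Yᵀ := by simp [Matrix.transpose_mul]
  rw [h1, trace_mul_pow_comm, ← mul_assoc]
  refine (hB _ _ hp hq).trans ((trace_mul_le _ _).trans (le_of_eq ?_))
  rw [Matrix.transpose_pow, Matrix.transpose_pow, hp, hq, ← pow_add, ← pow_add,
    trace_mul_pow_comm Yᵀ Y, pow_succ 2 a, mul_two]
  ring

theorem claims (a : ℕ) : ClaimS n a ∧ ClaimB n a := by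
  induction a with
  | zero =>
    refine ⟨fun X => ?_, fun p q _ _ => by simp⟩
    have := trace_mul_le X X
    rw [Matrix.trace_mul_comm Xᵀ X] at this
    simp only [zero_add, pow_one, pow_zero, sq]
    linarith
  | succ a ih =>
    obtain ⟨hS, hB⟩ := ih
    refine ⟨fun X => ?_, fun p q hp hq => ?_⟩
    · have h1 : X ^ 2 ^ (a + 1 + 1) = (X ^ 2) ^ 2 ^ (a + 1) := by
        rw [← pow_mul, ← pow_succ']
      rw [h1]
      exact (hS _).trans (sq_step hB X)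
    · refine (hS _).trans ?_
      have h1 : p * q * (p * q)ᵀ = (p * (q * q)) * p := by
        simp only [Matrix.transpose_mul, hp, hq, mul_assoc]
      have hp2 : (p * p)ᵀ = p * p := by simp [Matrix.transpose_mul, hp]
      have hq2 : (q * q)ᵀ = q * q := by simp [Matrix.transpose_mul, hq]
      rw [h1, trace_mul_pow_comm, ← mul_assoc]
      refine (hB _ _ hp2 hq2).trans (le_of_eq ?_)
      rw [← sq, ← sq, ← pow_mul, ← pow_mul, ← pow_succ']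

theorem iter (T : Matrix n n ℝ) (b a : ℕ) :
    ((T ^ 2 ^ b * (T ^ 2 ^ b)ᵀ) ^ 2 ^ a).trace ≤ ((T * Tᵀ) ^ 2 ^ (a + b)).trace := by
  induction b generalizing a with
  | zero => simp
  | succ b ih =>
    have h1 : T ^ 2 ^ (b + 1) = (T ^ 2 ^ b) ^ 2 := by rw [← pow_mul, ← pow_succ]
    rw [h1]
    refine (sq_step (claims a).2 _).trans ((ih (a + 1)).trans (le_of_eq ?_))
    rw [show a + 1 + b = a + (b + 1) by ring]

end DysonAux

/-- Dyson / Thompson trace inequality for powers of two (real matrices).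

Proof. Three claims, all for arbitrary real square matrices.
* `S a` (`a ≥ 1`): `tr (X ^ 2^a) ≤ tr ((X * Xᵀ) ^ 2^(a-1))` for all `X`.
* `B a` (`a ≥ 0`): for symmetric `p q`, `tr ((p * q) ^ 2^a) ≤ tr (p ^ 2^a * q ^ 2^a)`.
Cauchy-Schwarz: `tr (P * Q) ≤ sqrt (tr (P Pᵀ) tr (Q Qᵀ))`, or simply
`tr (P * Q) ≤ (tr (P Pᵀ) + tr (Qᵀ Q)) / 2` (from `0 ≤ tr ((P - Qᵀ)(P - Qᵀ)ᵀ)`).
`S 1` is this with `P = Q = X`. `B 0` is trivial.
`S a, B (a-1) ⇒ B a`: `tr (pq)^(2^a) ≤ tr (p q q p)^(2^(a-1)) = tr (p² q²)^(2^(a-1))` (cyclicity: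
`tr ((M N)^m) = tr ((N M)^m)`) `≤ tr (p^(2^a) q^(2^a))`.
`S a, B (a-1) ⇒ S (a+1)`: with `m = 2^(a-1)`, `tr X^(2^(a+1)) = tr (X²)^(2^a) ≤ tr (X X Xᵀ Xᵀ)^m
= tr ((Xᵀ X)(X Xᵀ))^m ≤ tr ((XᵀX)^m (XXᵀ)^m) ≤ (tr (XᵀX)^(2m) + tr (XXᵀ)^(2m))/2
= tr (XXᵀ)^(2m)`.
The same computation gives `f (Y², 2^b) ≤ f (Y, 2^(b+1))` for `f (Y, m) = tr ((Y Yᵀ)^m)`;
iterating, `f (T^(2^b), 2^a) ≤ f (T, 2^(a+b))` (induction on `b`, generalizing `a`). -/
theorem dyson {n : Type*} [Fintype n] [DecidableEq n] (T : Matrix n n ℝ) (b : ℕ) :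
    (T ^ (2 ^ b) * (T ^ (2 ^ b))ᵀ).trace ≤ ((T * Tᵀ) ^ (2 ^ b)).trace := by
  simpa using DysonAux.iter T b 0

end Crest.Agent.R155
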