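import Crest.Agent.R155.Defs

set_option autoImplicit false

namespace Crest.Agent.R155

open Finset BigOperators

namespace GSum

variable {β : Type*} [Fintype β] [DecidableEq β]

/-- The bijection `X ↦ (side s false X, side s true X)`. -/
def sideEquiv (s : β → Bool) : Finset (Bool × β) ≃ Finset β × Finset β where
  toFun X := (side s false X, side s true X)
  invFun AB := univ.filter fun v => v.2 ∈ (bif xor v.1 (s v.2) then AB.2 else AB.1)
  left_inv X := by
    ext ⟨b, p⟩
    cases b <;> cases h : s p <;> simp [side, h]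
  right_inv AB := by
    obtain ⟨A, B⟩ := AB
    ext p <;> simp [side]

theorem card_side (s : β → Bool) (X : Finset (Bool × β)) :
    X.card = (side s false X).card + (side s true X).card := by
  have h1 : X.card = ∑ v : Bool × β, if v ∈ X then 1 else 0 := by
    simp
  rw [h1, Fintype.sum_prod_type_right, side, side, card_filter, card_filter, ← sum_add_distrib]
  refine sum_congr rfl fun p _ => ?_
  rw [Fintype.sum_bool]
  cases s p
  · simp only [Bool.xor_false]
    exact add_comm _ _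
  · simp only [Bool.xor_true, Bool.not_false, Bool.not_true]

theorem sum_side (s : β → Bool) (z : ℝ) (F : Finset β → Finset β → ℝ) :
    ∑ X : Finset (Bool × β), z ^ X.card * F (side s false X) (side s true X) =
      ∑ A : Finset β, ∑ B : Finset β, z ^ A.card * z ^ B.card * F A B := by
  rw [← Fintype.sum_prod_type' (fun A B : Finset β => z ^ A.card * z ^ B.card * F A B)]
  refine Fintype.sum_equiv (sideEquiv s) _ _ fun X => ?_
  simp only [sideEquiv, Equiv.coe_fn_mk]
  rw [card_side s X, pow_add]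

theorem sum_side_mul (s : β → Bool) (z : ℝ) (f : Finset β → ℝ) :
    ∑ X : Finset (Bool × β), z ^ X.card * (f (side s false X) * f (side s true X)) =
      (∑ A : Finset β, z ^ A.card * f A) ^ 2 := by
  rw [sum_side s z (fun A B => f A * f B), sq, sum_mul_sum]
  refine sum_congr rfl fun A _ => sum_congr rfl fun B _ => ?_
  ring

theorem npair_eq (X : Finset (Bool × β)) :
    npair X = (side (fun _ => false) false X ∩ side (fun _ => false) true X).card := by
  unfold npair
  congr 1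
  ext p
  simp [side]

theorem sum_inter (z Q : ℝ) (A : Finset β) :
    ∑ B : Finset β, z ^ B.card * Q ^ (A ∩ B).card =
      (1 + z * Q) ^ A.card * (1 + z) ^ (Fintype.card β - A.card) := by
  have h1 : ∏ p : β, (1 + z * (if p ∈ A then Q else 1)) =
      ∑ B : Finset β, z ^ B.card * Q ^ (A ∩ B).card := by
    rw [prod_one_add, powerset_univ]
    refine sum_congr rfl fun B _ => ?_
    rw [prod_mul_distrib, prod_const, prod_ite_mem, prod_const, inter_comm]
  rw [← h1, ← prod_mul_prod_compl A, ← card_compl]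
  congr 1
  · rw [← prod_const]
    exact prod_congr rfl fun p hp => by simp [hp]
  · rw [← prod_const]
    exact prod_congr rfl fun p hp => by simp [mem_compl.1 hp]

theorem sum_npair (z Q : ℝ) :
    ∑ X : Finset (Bool × β), z ^ X.card * Q ^ npair X =
      (1 + 2 * z + Q * z ^ 2) ^ Fintype.card β := by
  simp only [npair_eq]
  rw [sum_side (fun _ => false) z (fun A B => Q ^ (A ∩ B).card)]
  have h : (1 + 2 * z + Q * z ^ 2) = z * (1 + z * Q) + (1 + z) := by ring
  rw [h, ← Fintype.sum_pow_mul_eq_add_pow]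
  refine sum_congr rfl fun A _ => ?_
  simp only [mul_assoc]
  rw [← mul_sum, sum_inter, mul_pow, mul_assoc]

theorem jensen {ι : Type*} [Fintype ι] [Nonempty ι] (f : ι → ℝ) (hf : ∀ i, 0 ≤ f i) {p : ℝ}
    (hp : 1 ≤ p) : (𝔼 i, f i) ^ p ≤ 𝔼 i, f i ^ p := by
  have hc : (0 : ℝ) < Fintype.card ι := by exact_mod_cast Fintype.card_pos
  have h := Real.rpow_arith_mean_le_arith_mean_rpow univ (fun _ : ι => (Fintype.card ι : ℝ)⁻¹) f
    (fun _ _ => by positivity) (by simp [hc.ne']) (fun i _ => hf i) hp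
  rw [expect_eq_sum_div_card, expect_eq_sum_div_card, card_univ, div_eq_inv_mul, div_eq_inv_mul,
    mul_sum, mul_sum]
  exact h

/-- The inductive step, for an arbitrary positive function `G` on the subsets of `β`. -/
theorem step (G : Finset β → ℝ) (hG : ∀ A, 0 < G A) (t γ L z : ℝ) (ht : 0 ≤ t) (hγ : 1 ≤ γ)
    (hz : 0 ≤ z) (hL : γ * t < L)
    (ih : (∑ A : Finset β, z ^ A.card * G A ^ (γ / (1 - γ * t / L))) ^ 2 ≤
      (1 + 2 * z + Real.exp L * z ^ 2) ^ Fintype.card β) :
    ∑ X : Finset (Bool × β), z ^ X.card * (Real.exp (t * (npair X : ℝ)) *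
        𝔼 s : β → Bool, G (side s false X) * G (side s true X)) ^ γ ≤
      (1 + 2 * z + Real.exp L * z ^ 2) ^ Fintype.card β := by
  have hγt : 0 ≤ γ * t := by positivity
  have hL0 : 0 < L := lt_of_le_of_lt hγt hL
  set a := γ * t / L with ha
  have ha0 : 0 ≤ a := by positivity
  have ha1 : a < 1 := (div_lt_one hL0).2 hL
  have h1a : 0 < 1 - a := by linarith
  set γ' := γ / (1 - a) with hγ'
  have hγ'1 : 1 ≤ γ' := by
    rw [hγ', le_div_iff₀ h1a]; linarith
  have key : ∀ X : Finset (Bool × β), (Real.exp (t * (npair X : ℝ)) *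
        𝔼 s : β → Bool, G (side s false X) * G (side s true X)) ^ γ ≤
      a * Real.exp L ^ npair X +
        (1 - a) * 𝔼 s : β → Bool, G (side s false X) ^ γ' * G (side s true X) ^ γ' := by
    intro X
    set W := 𝔼 s : β → Bool, G (side s false X) * G (side s true X) with hW
    have hW0 : 0 ≤ W := expect_nonneg fun s _ => (mul_pos (hG _) (hG _)).le
    have e1 : Real.exp (t * (npair X : ℝ)) ^ γ = (Real.exp L ^ npair X) ^ a := by
      rw [← Real.exp_nat_mul, ← Real.exp_mul, ← Real.exp_mul]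
      congr 1
      rw [ha]; field_simp
    have e2 : W ^ γ = (W ^ γ') ^ (1 - a) := by
      rw [← Real.rpow_mul hW0, hγ', div_mul_cancel₀ _ h1a.ne']
    rw [Real.mul_rpow (Real.exp_pos _).le hW0, e1, e2]
    refine (Real.geom_mean_le_arith_mean2_weighted ha0 h1a.le (by positivity) (by positivity)
      (by ring)).trans ?_
    refine add_le_add le_rfl (mul_le_mul_of_nonneg_left ?_ h1a.le)
    refine (jensen _ (fun s => (mul_pos (hG _) (hG _)).le) hγ'1).trans (le_of_eq ?_)
    exact expect_congr rfl fun s _ => Real.mul_rpow (hG _).le (hG _).le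
  calc _ ≤ ∑ X : Finset (Bool × β), z ^ X.card * (a * Real.exp L ^ npair X +
        (1 - a) * 𝔼 s : β → Bool, G (side s false X) ^ γ' * G (side s true X) ^ γ') :=
        sum_le_sum fun X _ => mul_le_mul_of_nonneg_left (key X) (by positivity)
    _ = a * (∑ X : Finset (Bool × β), z ^ X.card * Real.exp L ^ npair X) +
        (1 - a) * 𝔼 s : β → Bool, ∑ X : Finset (Bool × β),
          z ^ X.card * (G (side s false X) ^ γ' * G (side s true X) ^ γ') := by
        rw [expect_sum_comm, mul_sum, mul_sum, ← sum_add_distrib]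
        refine sum_congr rfl fun X _ => ?_
        rw [← mul_expect]
        ring
    _ = a * (1 + 2 * z + Real.exp L * z ^ 2) ^ Fintype.card β +
        (1 - a) * (∑ A : Finset β, z ^ A.card * G A ^ γ') ^ 2 := by
        rw [sum_npair]
        simp only [sum_side_mul _ z (fun A => G A ^ γ')]
        rw [expect_const univ_nonempty]
    _ ≤ a * (1 + 2 * z + Real.exp L * z ^ 2) ^ Fintype.card β +
        (1 - a) * (1 + 2 * z + Real.exp L * z ^ 2) ^ Fintype.card β :=
        add_le_add le_rfl (mul_le_mul_of_nonneg_left ih h1a.le)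
    _ = _ := by ring

theorem step' (c θ L z : ℝ) (hc : 0 ≤ c) (hθ : 0 ≤ θ) (hz : 0 ≤ z) (j : ℕ)
    (ih : ∀ γ : ℝ, 1 ≤ γ → γ * c * ∑ i ∈ range j, θ ^ i < L →
      (∑ X : Finset (Pos j), z ^ X.card * Gf c θ j X ^ γ) ^ 2 ≤
        (1 + 2 * z + Real.exp L * z ^ 2) ^ (2 ^ j))
    (γ : ℝ) (hγ : 1 ≤ γ) (hL : γ * c * ∑ i ∈ range (j + 1), θ ^ i < L) :
    ∑ X : Finset (Pos (j + 1)), z ^ X.card * Gf c θ (j + 1) X ^ γ ≤
      (1 + 2 * z + Real.exp L * z ^ 2) ^ (2 ^ j) := by
  rw [sum_range_succ, mul_add] at hL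
  have hS : 0 ≤ γ * c * ∑ i ∈ range j, θ ^ i := by positivity
  have ht : 0 ≤ θ ^ j * c := by positivity
  have hL' : γ * (θ ^ j * c) < L := by linarith
  have hL0 : 0 < L := lt_of_le_of_lt (by positivity) hL'
  have ha1 : γ * (θ ^ j * c) / L < 1 := (div_lt_one hL0).2 hL'
  have ha0 : 0 ≤ γ * (θ ^ j * c) / L := by positivity
  have h1a : 0 < 1 - γ * (θ ^ j * c) / L := by linarith
  have h := step (β := Pos j) (Gf c θ j) (Gf_pos c θ j) (θ ^ j * c) γ L z ht hγ hz hL' (by
    rw [card_Pos]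
    refine ih _ ?_ ?_
    · rw [le_div_iff₀ h1a]; linarith
    · rw [div_mul_eq_mul_div, div_mul_eq_mul_div, div_lt_iff₀ h1a, mul_sub, mul_div_cancel₀ _ hL0.ne']
      linarith)
  rw [card_Pos] at h
  exact h

theorem gsum_sq (c θ L z : ℝ) (hc : 0 ≤ c) (hθ : 0 ≤ θ) (hz : 0 ≤ z) (j : ℕ) :
    ∀ γ : ℝ, 1 ≤ γ → γ * c * ∑ i ∈ range j, θ ^ i < L →
      (∑ X : Finset (Pos j), z ^ X.card * Gf c θ j X ^ γ) ^ 2 ≤
        (1 + 2 * z + Real.exp L * z ^ 2) ^ (2 ^ j) := by
  induction j with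
  | zero =>
    intro γ _ hL
    have hL0 : 0 < L := by simpa using hL
    have h1 : ∑ X : Finset (Pos 0), z ^ X.card * Gf c θ 0 X ^ γ = z + 1 := by
      have h := Fintype.sum_pow_mul_eq_add_pow (Pos 0) z (1 : ℝ)
      rw [card_Pos] at h
      simpa [Gf] using h
    rw [h1]
    have hQ : 1 ≤ Real.exp L := Real.one_le_exp hL0.le
    have : 0 ≤ (Real.exp L - 1) * z ^ 2 := mul_nonneg (by linarith) (sq_nonneg z)
    simp only [pow_zero, pow_one]
    nlinarith
  | succ j ih =>
    intro γ hγ hL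
    have h := step' c θ L z hc hθ hz j ih γ hγ hL
    rw [pow_succ 2 j, pow_mul]
    refine pow_le_pow_left₀ (sum_nonneg fun X _ => ?_) h 2
    exact mul_nonneg (by positivity) (Real.rpow_nonneg (Gf_pos c θ _ X).le _)

end GSum

/-- Generating function bound for `Gf`. Put `Q = exp L ≥ 1`, `P = 1 + 2 z + Q z²`.
Prove by induction on `j`, for all `γ ≥ 1` with `γ c ∑ i < j, θ^i < L`:
`(∑ X : Finset (Pos j), z^|X| Gf j X ^ γ)² ≤ P ^ (2^j)`. Base: `(1+z)² ≤ P`.
Step: let `a = γ c θ^j / L ∈ [0,1)`, `γ' = γ / (1 - a) ≥ 1`; then `γ' c ∑ i < j, θ^i < L`.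
Weighted AM-GM: `exp (γ θ^j c N) * W^γ = (Q^N)^a * (W^γ')^(1-a) ≤ a Q^N + (1-a) W^γ'` where
`N = npair X`, `W = 𝔼 s, Gf (side s false X) * Gf (side s true X)`; Jensen:
`W^γ' ≤ 𝔼 s, Gf (..)^γ' * Gf (..)^γ'`. For fixed `s`, `X ↦ (side s false X, side s true X)` is a
bijection `Finset (Bool × β) ≃ Finset β × Finset β` adding cardinalities, so
`∑ X, z^|X| Gf(..)^γ' Gf(..)^γ' = (∑ Y, z^|Y| Gf j Y^γ')² ≤ P^(2^j)`, and (same bijection,
`s = fun _ => false`, then `Finset.prod_one_add` / `prod_add` twice)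
`∑ X, z^|X| Q^(npair X) = ∏ p, (z (1 + z Q) + (1 + z)) = P^(2^j)`. Hence the sum at level `j+1`
is at most `P^(2^j)`. -/
theorem gsum (c θ γ L z : ℝ) (hc : 0 ≤ c) (hθ : 0 ≤ θ) (hγ : 1 ≤ γ) (hz : 0 ≤ z) (j : ℕ)
    (hL : γ * c * ∑ i ∈ range (j + 1), θ ^ i < L) :
    ∑ X : Finset (Pos (j + 1)), z ^ X.card * Gf c θ (j + 1) X ^ γ ≤
      (1 + 2 * z + Real.exp L * z ^ 2) ^ (2 ^ j) := by
  exact GSum.step' c θ L z hc hθ hz j (GSum.gsum_sq c θ L z hc hθ hz j) γ hγ hL

end Crest.Agent.R155
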