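import Crest.Agent.R155.Defs

set_option autoImplicit false

namespace Crest.Agent.R155

open Finset

namespace YoungAux

variable {n : Type*} [Fintype n] [DecidableEq n]

/-- Product of `m` matrices, all equal to `P` except the `k`-th one, which is `D`. -/
def Pm (P D : Matrix n n ℝ) (k : ℕ) : ℕ → Matrix n n ℝ
  | 0 => 1
  | m + 1 => Pm P D k m * (if m = k then D else P)

theorem Pm_le (P D : Matrix n n ℝ) (k : ℕ) : ∀ m, m ≤ k → Pm P D k m = P ^ m
  | 0, _ => by simp [Pm]
  | m + 1, h => by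
    rw [Pm, Pm_le P D k m (by omega), if_neg (by omega), pow_succ]

theorem Pm_gt (P D : Matrix n n ℝ) (k : ℕ) : ∀ j, Pm P D k (k + 1 + j) = P ^ k * D * P ^ j
  | 0 => by
    rw [add_zero, Pm, Pm_le P D k k le_rfl, if_pos rfl, pow_zero, mul_one]
  | j + 1 => by
    rw [← add_assoc, Pm, Pm_gt P D k j, if_neg (by omega), pow_succ, mul_assoc]

theorem amgm (s : ℕ) (hs : 0 < s) (c : ℕ → ℝ) (hc : ∀ k, 0 ≤ c k) (g : ℝ) (hg : 0 ≤ g)
    (h : g ^ s ≤ ∏ k ∈ range s, c k) : g ≤ (∑ k ∈ range s, c k) / s := by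
  have hsR : (0 : ℝ) < s := by exact_mod_cast hs
  have h1 := Real.geom_mean_le_arith_mean_weighted (range s) (fun _ => (s : ℝ)⁻¹) c
    (fun _ _ => by positivity) (by simp; field_simp) (fun k _ => hc k)
  rw [Real.finsetProd_rpow _ _ (fun k _ => hc k), ← mul_sum] at h1
  calc g = (g ^ s) ^ (s : ℝ)⁻¹ := (Real.pow_rpow_inv_natCast hg hs.ne').symm
    _ ≤ (∏ k ∈ range s, c k) ^ (s : ℝ)⁻¹ :=
        Real.rpow_le_rpow (by positivity) h (by positivity)
    _ ≤ _ := by rw [div_eq_inv_mul]; exact h1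

theorem key (B P D : Matrix n n ℝ) (hB : ∀ x y, 0 ≤ B x y) (hP : ∀ x y, 0 ≤ P x y)
    (hD : ∀ x y, 0 ≤ D x y) (e : n → ℝ) (he : ∀ x, 0 < e x) (p : ℕ)
    (hBe : ∀ z y, (B z y * e y / e z) ^ (p + 1) ≤ D z y * P z y ^ p) (x : n) :
    ∀ m, m ≤ p + 1 → ∀ (y : n) (c : ℕ → ℝ), (∀ k, 0 ≤ c k) → ∀ g : ℝ, 0 ≤ g →
      g ^ (p + 1) ≤ ∏ k ∈ range (p + 1), c k →
      g * (B ^ m) x y * e y ≤
        e x * ((∑ k ∈ range (p + 1), c k * Pm P D k m x y) / ((p + 1 : ℕ) : ℝ)) := by
  intro m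
  induction m with
  | zero =>
    intro _ y c hc g hg h
    have h1 := amgm (p + 1) (Nat.succ_pos p) c hc g hg h
    simp only [pow_zero, Pm, Matrix.one_apply]
    split_ifs with hxy
    · subst hxy
      simp only [mul_one]
      rw [mul_comm]
      exact mul_le_mul_of_nonneg_left h1 (he x).le
    · simp
  | succ m ih =>
    intro hm y c hc g hg h
    have hM : ∀ k z, 0 ≤ (if m = k then D else P) z y := by
      intro k z
      split_ifs
      exacts [hD z y, hP z y]
    have h1 : ∀ z, g * ((B ^ m) x z * B z y) * e y ≤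
        e x * ((∑ k ∈ range (p + 1), c k * (Pm P D k m x z * (if m = k then D else P) z y)) /
          ((p + 1 : ℕ) : ℝ)) := by
      intro z
      have hez := he z
      have h2 := ih (by omega) z (fun k => c k * (if m = k then D else P) z y)
        (fun k => mul_nonneg (hc k) (hM k z)) (g * (B z y * e y / e z))
        (mul_nonneg hg (div_nonneg (mul_nonneg (hB z y) (he y).le) hez.le)) (by
          rw [mul_pow, prod_mul_distrib]
          refine mul_le_mul h ((hBe z y).trans (le_of_eq ?_))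
            (pow_nonneg (div_nonneg (mul_nonneg (hB z y) (he y).le) hez.le) _)
            (prod_nonneg fun k _ => hc k)
          have hmem : m ∈ range (p + 1) := mem_range.2 (by omega)
          rw [← mul_prod_erase _ _ hmem, if_pos rfl]
          congr 1
          rw [prod_congr rfl (g := fun _ => P z y)]
          · rw [prod_const, card_erase_of_mem hmem, card_range, Nat.add_sub_cancel]
          · intro k hk
            rw [if_neg (ne_of_mem_erase hk).symm])
      calc g * ((B ^ m) x z * B z y) * e y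
          = g * (B z y * e y / e z) * (B ^ m) x z * e z := by field_simp
        _ ≤ _ := h2
        _ = _ := by
          congr 2
          refine sum_congr rfl fun k _ => ?_
          ring
    calc g * (B ^ (m + 1)) x y * e y = ∑ z, g * ((B ^ m) x z * B z y) * e y := by
          rw [pow_succ, Matrix.mul_apply, mul_sum, sum_mul]
      _ ≤ ∑ z, e x * ((∑ k ∈ range (p + 1),
            c k * (Pm P D k m x z * (if m = k then D else P) z y)) / ((p + 1 : ℕ) : ℝ)) :=
          sum_le_sum fun z _ => h1 z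
      _ = _ := by
          rw [← mul_sum, ← sum_div, sum_comm]
          congr 2
          refine sum_congr rfl fun k _ => ?_
          rw [Pm, Matrix.mul_apply, mul_sum]

theorem row_pow_le (P : Matrix n n ℝ) (hP : ∀ x y, 0 ≤ P x y) (hrow : ∀ x, ∑ y, P x y ≤ 1) :
    ∀ (m : ℕ) (x : n), ∑ y, (P ^ m) x y ≤ 1
  | 0, x => by simp [Matrix.one_apply]
  | m + 1, x => by
    simp only [pow_succ', Matrix.mul_apply]
    rw [sum_comm]
    calc ∑ z, ∑ y, P x z * (P ^ m) z y = ∑ z, P x z * ∑ y, (P ^ m) z y := by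
          simp only [mul_sum]
      _ ≤ ∑ z, P x z * 1 :=
          sum_le_sum fun z _ => mul_le_mul_of_nonneg_left (row_pow_le P hP hrow m z) (hP x z)
      _ ≤ 1 := by simpa using hrow x

end YoungAux

/-- Young / Russo inequality for a nonnegative kernel.

Proof. Put `s = p + 1`, `P x y = B x y ^ (s / p) / d x` (rows of `P` sum to at most `1`), so
`B x y = (P x y * d x) ^ (p / s)`.
(1) `tr (B ^ s) = ∑ γ : Fin s → n, ∏ i, B (γ i) (γ (i + 1))` (cyclic successor on `Fin (p+1)`);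
prove first `(B ^ (m+1)) x y = ∑ γ : Fin m → n, ...` by induction, or the version for
`Fin.cons`/`Fin.snoc` paths.
(2) For each `γ` and `j : Fin s` let `t j = d (γ (j+1)) ^ p * ∏ i ≠ j, P (γ i) (γ (i+1))`. Then
`∏ j, t j = (∏ i, d (γ i) * P (γ i) (γ (i+1))) ^ p = (∏ i, B (γ i) (γ (i+1))) ^ s`, hence by AM-GM
(`Real.inner_le_nnorm_mul_nnorm`-free: `inner_le`... use `Real.geom_mean_le_arith_mean_weighted`
or `pow_sum_div_card_le..`/`Real.pow_arith_mean_le_arith_mean_pow`)
`∏ i, B (γ i) (γ (i+1)) ≤ (∑ j, t j) / s`.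
(3) By rotating `γ` (`γ ↦ γ ∘ (· + (j+1))`), `∑ γ, t j γ = ∑ γ, d (γ 0) ^ p * ∏ i : Fin p,
P (γ i.castSucc) (γ i.succ) ≤ ∑ x, d x ^ p` (sum out the last point, induction on the length;
general lemma: `∑ γ : Fin (m+1) → n, f (γ 0) * ∏ i : Fin m, P (γ i.castSucc) (γ i.succ) ≤ ∑ x, f x`
for `f ≥ 0`). -/
theorem young {n : Type*} [Fintype n] [DecidableEq n] (B : Matrix n n ℝ) (hB : ∀ x y, 0 ≤ B x y)
    (p : ℕ) (hp : 1 ≤ p) (d : n → ℝ) (hd : ∀ x, 0 < d x)
    (h : ∀ x, ∑ y, B x y ^ (((p : ℝ) + 1) / p) ≤ d x) :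
    (B ^ (p + 1)).trace ≤ ∑ x, d x ^ p := by
  have hpR : (0 : ℝ) < p := by exact_mod_cast hp
  let P : Matrix n n ℝ := Matrix.of fun x y => B x y ^ (((p : ℝ) + 1) / p) / d x
  let D : Matrix n n ℝ := Matrix.of fun _ y => d y ^ p
  let e : n → ℝ := fun x => d x ^ ((p : ℝ) / (p + 1))
  have hP : ∀ x y, 0 ≤ P x y := fun x y =>
    div_nonneg (Real.rpow_nonneg (hB x y) _) (hd x).le
  have hD : ∀ x y, 0 ≤ D x y := fun _ y => pow_nonneg (hd y).le _
  have he : ∀ x, 0 < e x := fun x => Real.rpow_pos_of_pos (hd x) _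
  have hrow : ∀ x, ∑ y, P x y ≤ 1 := by
    intro x
    simp only [P, Matrix.of_apply]
    rw [← sum_div, div_le_one (hd x)]
    exact h x
  have hes : ∀ x, e x ^ (p + 1) = d x ^ p := by
    intro x
    simp only [e]
    rw [← Real.rpow_natCast, ← Real.rpow_mul (hd x).le, ← Real.rpow_natCast]
    congr 1
    push_cast
    field_simp
  have hBe : ∀ z y, (B z y * e y / e z) ^ (p + 1) ≤ D z y * P z y ^ p := by
    intro z y
    have h1 : (B z y ^ (((p : ℝ) + 1) / p)) ^ p = B z y ^ (p + 1) := by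
      rw [← Real.rpow_natCast, ← Real.rpow_mul (hB z y), ← Real.rpow_natCast]
      congr 1
      push_cast
      field_simp
    simp only [P, D, Matrix.of_apply]
    rw [div_pow, mul_pow, hes, hes, div_pow, h1]
    exact le_of_eq (by ring)
  have hk : ∀ x, (B ^ (p + 1)) x x ≤
      (∑ k ∈ range (p + 1), YoungAux.Pm P D k (p + 1) x x) / ((p + 1 : ℕ) : ℝ) := by
    intro x
    have h1 := YoungAux.key B P D hB hP hD e he p hBe x (p + 1) le_rfl x (fun _ => 1)
      (fun _ => zero_le_one) 1 zero_le_one (by simp)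
    simp only [one_mul] at h1
    rw [mul_comm] at h1
    exact le_of_mul_le_mul_left h1 (he x)
  have ht : ∀ k ∈ range (p + 1), (YoungAux.Pm P D k (p + 1)).trace ≤ ∑ x, d x ^ p := by
    intro k hk
    obtain ⟨j, hj⟩ : ∃ j, p = j + k := ⟨p - k, by have := mem_range.1 hk; omega⟩
    have h1 : p + 1 = k + 1 + j := by omega
    rw [h1, YoungAux.Pm_gt, mul_assoc, Matrix.trace_mul_comm, mul_assoc, ← pow_add, ← hj]
    simp only [Matrix.trace, Matrix.diag, Matrix.mul_apply, D, Matrix.of_apply]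
    rw [sum_comm]
    refine sum_le_sum fun y _ => ?_
    rw [← mul_sum]
    calc d y ^ p * ∑ x, (P ^ p) y x ≤ d y ^ p * 1 :=
          mul_le_mul_of_nonneg_left (YoungAux.row_pow_le P hP hrow p y) (pow_nonneg (hd y).le _)
      _ = _ := mul_one _
  calc (B ^ (p + 1)).trace = ∑ x, (B ^ (p + 1)) x x := rfl
    _ ≤ ∑ x, (∑ k ∈ range (p + 1), YoungAux.Pm P D k (p + 1) x x) / ((p + 1 : ℕ) : ℝ) :=
        sum_le_sum fun x _ => hk x
    _ = (∑ k ∈ range (p + 1), (YoungAux.Pm P D k (p + 1)).trace) / ((p + 1 : ℕ) : ℝ) := by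
        rw [← sum_div, sum_comm]; rfl
    _ ≤ (∑ _k ∈ range (p + 1), ∑ x, d x ^ p) / ((p + 1 : ℕ) : ℝ) :=
        div_le_div_of_nonneg_right (sum_le_sum ht) (by positivity)
    _ = ∑ x, d x ^ p := by
        rw [sum_const, card_range, nsmul_eq_mul]
        field_simp

end Crest.Agent.R155
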