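import Crest.Agent.R155.Spec
import Crest.Agent.R155.Young

set_option autoImplicit false
set_option linter.unusedSectionVars false

namespace Crest.Agent.R155

open Finset Module Matrix BigOperators

section General

variable {α Ω : Type*} [Fintype α] [DecidableEq α] [Fintype Ω] [Nonempty Ω]

/-- The law of `π` is invariant under inversion. -/
def SymmLaw (π : Ω → Equiv.Perm α) : Prop :=
  ∀ F : Equiv.Perm α → ℝ, 𝔼 ω, F (π ω)⁻¹ = 𝔼 ω, F (π ω)

/-- The operator `f ↦ (g ↦ 𝔼 ω, f (π ω * g))`. -/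
noncomputable abbrev lawLin (π : Ω → Equiv.Perm α) :
    EuclideanSpace ℝ (Equiv.Perm α) →ₗ[ℝ] EuclideanSpace ℝ (Equiv.Perm α) :=
  Matrix.toEuclideanLin (lawMat π)

namespace KernelAux

omit [Nonempty Ω] in
theorem sum_lawMat (π : Ω → Equiv.Perm α) (g : Equiv.Perm α) (f : Equiv.Perm α → ℝ) :
    ∑ h, lawMat π g h * f h = 𝔼 ω, f (π ω * g) := by
  simp only [lawMat, Matrix.of_apply, Finset.expect_mul]
  rw [← Finset.expect_sum_comm]
  refine Finset.expect_congr rfl (fun ω _ => ?_)
  simp

omit [Nonempty Ω] in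
theorem lawLin_apply (π : Ω → Equiv.Perm α) (v : EuclideanSpace ℝ (Equiv.Perm α))
    (g : Equiv.Perm α) : lawLin π v g = 𝔼 ω, v (π ω * g) :=
  sum_lawMat π g (fun h => v h)

theorem trace_toEuc_pow {n : Type*} [Fintype n] [DecidableEq n] (A : Matrix n n ℝ) (r : ℕ) :
    LinearMap.trace ℝ _ (Matrix.toEuclideanLin A ^ r) = (A ^ r).trace := by
  rw [← Matrix.toLpLin_pow]
  exact Matrix.trace_toLin_eq (A ^ r) (PiLp.basisFun 2 ℝ n)

theorem card_agree (J : Finset α) (k : Equiv.Perm α) :
    (univ.filter fun h : Equiv.Perm α => ∀ a, a ∉ J → k a = h a).card = J.card.factorial := by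
  have h1 : Fintype.card {f : Equiv.Perm α // ∀ a, ¬ a ∈ J → f a = a} = J.card.factorial := by
    rw [← Fintype.card_congr (Equiv.Perm.subtypeEquivSubtypePerm (fun a => a ∈ J)),
      Fintype.card_perm, Fintype.card_coe]
  rw [← h1, Fintype.card_subtype]
  refine Finset.card_bij' (fun h _ => k⁻¹ * h) (fun f _ => k * f) ?_ ?_ ?_ ?_
  · intro h hh
    simp only [Finset.mem_filter, Finset.mem_univ, true_and] at hh ⊢
    intro a ha
    rw [Equiv.Perm.mul_apply, ← hh a ha]
    simp
  · intro f hf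
    simp only [Finset.mem_filter, Finset.mem_univ, true_and] at hf ⊢
    intro a ha
    rw [Equiv.Perm.mul_apply, hf a ha]
  · intro h _
    simp
  · intro f _
    simp

omit [Nonempty Ω] in
theorem sum_Ahat (π : Ω → Equiv.Perm α) (J : Finset α) (g : Equiv.Perm α)
    (F : Equiv.Perm α → ℝ) (hF : ∀ k h : Equiv.Perm α, (∀ a, a ∉ J → k a = h a) → F h = F k) :
    ∑ h, Ahat π J g h * F h = 𝔼 ω, F (π ω * g) := by
  have hJ : (J.card.factorial : ℝ) ≠ 0 := by positivity
  simp only [Ahat, Matrix.of_apply, Finset.expect_div, Finset.expect_mul]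
  rw [← Finset.expect_sum_comm]
  refine Finset.expect_congr rfl (fun ω _ => ?_)
  have h1 : ∀ h : Equiv.Perm α,
      (if ∀ a, a ∉ J → π ω (g a) = h a then (1 : ℝ) else 0) / (J.card.factorial : ℝ) * F h =
      if ∀ a, a ∉ J → (π ω * g) a = h a then F (π ω * g) / (J.card.factorial : ℝ) else 0 := by
    intro h
    by_cases hh : ∀ a, a ∉ J → π ω (g a) = h a
    · have hh' : ∀ a, a ∉ J → (π ω * g) a = h a := hh
      rw [if_pos hh, if_pos hh', hF _ _ hh']
      ring
    · have hh' : ¬ ∀ a, a ∉ J → (π ω * g) a = h a := hh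
      rw [if_neg hh, if_neg hh']
      ring
  simp only [h1]
  rw [← Finset.sum_filter, Finset.sum_const, card_agree, nsmul_eq_mul]
  field_simp

theorem inv_const {J : Finset α} {v : EuclideanSpace ℝ (Equiv.Perm α)}
    (hv : v ∈ InvJ (rightReg α) J) (k h : Equiv.Perm α) (hkh : ∀ a, a ∉ J → k a = h a) :
    v h = v k := by
  have key : ∀ (τ : Equiv.Perm {a // a ∈ J}) (g : Equiv.Perm α),
      v (g * Equiv.Perm.ofSubtype τ) = v g := by
    intro τ
    induction τ using Equiv.Perm.swap_induction_on with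
    | one => intro g; simp
    | swap_mul τ x y _ ih =>
      intro g
      rw [map_mul, ← mul_assoc, ih, Equiv.Perm.ofSubtype_swap_eq]
      have := congrArg (fun w : EuclideanSpace ℝ (Equiv.Perm α) => w g) (hv x.1 x.2 y.1 y.2)
      simpa using this
  obtain ⟨τ, hτ⟩ := (Equiv.Perm.subtypeEquivSubtypePerm (fun a => a ∈ J)).surjective
    ⟨k⁻¹ * h, fun a ha => by rw [Equiv.Perm.mul_apply, ← hkh a ha]; simp⟩
  have h1 : Equiv.Perm.ofSubtype τ = k⁻¹ * h := congrArg Subtype.val hτ
  have h2 := key τ k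
  rw [h1] at h2
  simpa using h2

omit [Nonempty Ω] in
theorem Ahat_herm (π : Ω → Equiv.Perm α) (h : SymmLaw π) (J : Finset α) :
    (Ahat π J).IsHermitian := by
  ext g k
  simp only [Matrix.conjTranspose_apply, Ahat, Matrix.of_apply, star_trivial]
  congr 1
  rw [← h (fun σ => if ∀ a, a ∉ J → σ (g a) = k a then (1 : ℝ) else 0)]
  refine Finset.expect_congr rfl (fun ω _ => ?_)
  refine if_congr (forall_congr' fun a => imp_congr_right fun _ => ?_) rfl rfl
  rw [Equiv.Perm.inv_eq_iff_eq, eq_comm]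

theorem card_image_le (J X : Finset α) :
    (univ.filter fun g : Equiv.Perm α => Jᶜ.image g = X).card ≤
      (Fintype.card α - J.card).factorial * J.card.factorial := by
  rcases (univ.filter fun g : Equiv.Perm α => Jᶜ.image g = X).eq_empty_or_nonempty with h | ⟨g0, h0⟩
  · simp [h]
  have hmem : ∀ g : Equiv.Perm α, Jᶜ.image g = X → ∀ a, g a ∈ X ↔ a ∉ J := by
    rintro g rfl a
    simp [g.injective.eq_iff]
  have h1 := DomMulAct.stabilizer_card (fun a : α => decide (a ∈ J))
  rw [Fintype.prod_bool, Fintype.card_subtype] at h1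
  have h2 : Fintype.card {a // decide (a ∈ J) = true} = J.card := by
    simp
  have h3 : Fintype.card {a // decide (a ∈ J) = false} = Fintype.card α - J.card := by
    simp
  rw [h2, h3, mul_comm] at h1
  rw [← h1]
  refine Finset.card_le_card_of_injOn (fun g => g0⁻¹ * g) ?_ ?_
  · intro g hg
    have hg' := hmem g (by simpa using hg)
    have h0' := hmem g0 (by simpa using h0)
    simp only [Finset.coe_filter, Finset.mem_univ, true_and, Set.mem_ofPred_eq]
    funext a
    have h4 := h0' (g0⁻¹ (g a))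
    rw [show g0 (g0⁻¹ (g a)) = g a by simp, hg'] at h4
    exact decide_eq_decide.mpr (not_iff_not.mp h4).symm
  · intro g _ g' _ hgg
    exact mul_left_cancel hgg

theorem sw_mul_swap {β : Type*} [DecidableEq β] (s : β → Bool) (b : Bool) (p : β) :
    sw s * Equiv.swap (b, p) (!b, p) = sw (Function.update s p (!s p)) := by
  ext1 ⟨c, q⟩
  rw [Equiv.Perm.mul_apply]
  by_cases hq : q = p
  · subst hq
    by_cases hc : c = b
    · subst hc
      rw [Equiv.swap_apply_left]
      cases c <;> simp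
    · obtain rfl : c = !b := by cases b <;> cases c <;> simp_all
      rw [Equiv.swap_apply_right]
      cases b <;> simp
  · rw [Equiv.swap_apply_of_ne_of_ne (by simp [hq]) (by simp [hq])]
    simp [Function.update_of_ne hq]

end KernelAux

open KernelAux

theorem lawMat_mul_transpose (π : Ω → Equiv.Perm α) :
    lawMat π * (lawMat π)ᵀ = lawMat (pairLaw π) := by
  ext g h
  rw [Matrix.mul_apply]
  simp only [Matrix.transpose_apply]
  rw [sum_lawMat π g (fun k => lawMat π h k)]
  simp only [lawMat, Matrix.of_apply, pairLaw]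
  rw [← Finset.univ_product_univ, Finset.expect_product]
  refine Finset.expect_congr rfl (fun ω _ => Finset.expect_congr rfl (fun ω' _ => ?_))
  refine if_congr ?_ rfl rfl
  rw [mul_assoc, inv_mul_eq_iff_eq_mul, eq_comm]

theorem symmLaw_pairLaw (π : Ω → Equiv.Perm α) : SymmLaw (pairLaw π) := by
  intro F
  refine Fintype.expect_equiv (Equiv.prodComm Ω Ω) _ _ (fun ω => ?_)
  simp [pairLaw]

theorem isOrth_rightReg : IsOrth (rightReg α) := by
  intro g x y
  simp only [PiLp.inner_apply, rightReg_apply]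
  exact Fintype.sum_equiv (Equiv.mulRight g) _ _ (fun k => rfl)

theorem lawLin_isSymmetric (π : Ω → Equiv.Perm α) (h : SymmLaw π) : (lawLin π).IsSymmetric := by
  rw [Matrix.isSymmetric_toEuclideanLin_iff]
  ext g k
  simp only [Matrix.conjTranspose_apply, lawMat, Matrix.of_apply, star_trivial]
  rw [← h (fun σ => if σ * g = k then (1 : ℝ) else 0)]
  refine Finset.expect_congr rfl (fun ω _ => if_congr ?_ rfl rfl)
  rw [inv_mul_eq_iff_eq_mul, eq_comm]

theorem lawLin_comm (π : Ω → Equiv.Perm α) (g : Equiv.Perm α)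
    (v : EuclideanSpace ℝ (Equiv.Perm α)) :
    lawLin π (rightReg α g v) = rightReg α g (lawLin π v) := by
  ext k
  simp only [lawLin_apply, rightReg_apply, mul_assoc]

theorem trace_lawLin_pow (π : Ω → Equiv.Perm α) (r : ℕ) :
    LinearMap.trace ℝ _ (lawLin π ^ r) = (lawMat π ^ r).trace := by
  exact trace_toEuc_pow _ r

/-- `Ahat π J` is a symmetric matrix (`π g = h` off `J` iff `π⁻¹ h = g` off `J`), and it acts as
`lawMat π` on `InvJ (rightReg α) J`: such an `f` takes the same value at `g, h` agreeing off `J`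
(`g⁻¹ h` is supported in `J`, hence a product of transpositions of `J`; or induct on the number of
points where `g, h` differ), and there are `|J|!` permutations agreeing off `J` with a given one.
Then apply `sum_le_trace_pow` to `toEuclideanLin (Ahat π J)`. -/
theorem sum_le_trace_Ahat (π : Ω → Equiv.Perm α) (h : SymmLaw π) (s : ℕ) (hs : Even s)
    (J : Finset α) (B : Finset ℝ) :
    ∑ β ∈ B, β ^ s * (finrank ℝ (End.eigenspace (lawLin π) β ⊓ InvJ (rightReg α) J :
      Submodule ℝ (EuclideanSpace ℝ (Equiv.Perm α))) : ℝ) ≤ (Ahat π J ^ s).trace := by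
  rw [← trace_toEuc_pow]
  refine sum_le_trace_pow _ (Matrix.isSymmetric_toEuclideanLin_iff.mpr (Ahat_herm π h J)) s hs B
    _ (fun β _ v hv => ?_)
  obtain ⟨h1, h2⟩ := Submodule.mem_inf.mp hv
  rw [End.mem_eigenspace_iff] at h1 ⊢
  rw [← h1]
  ext g
  rw [lawLin_apply]
  exact sum_Ahat π J g (fun k => v k) (inv_const h2)

/-- Apply `young` with `d g = G (X g) / n ^ (k/p) / (|J|!) ^ (1/p)`, `X g = g '' Jᶜ`, `k = n - |J|`:
`∑ h, Ahat g h ^ ((p+1)/p) = ∑ h, Ahat g h * Ahat g h ^ (1/p)
= 𝔼 ω, (kap π (X g) (π ω) / |J|!) ^ (1/p)` (again `|J|!` permutations `h` agree with `π ω * g` off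
`J`, and for them `Ahat g h = kap π (X g) (π ω) / |J|!`). Finally each `X` of size `k` is `X g` for
at most (exactly) `k! |J|!` permutations `g`. -/
theorem trace_Ahat_le (π : Ω → Equiv.Perm α) (p : ℕ) (hp : 1 ≤ p) (G : Finset α → ℝ)
    (hG : ∀ X, 0 < G X)
    (hR : ∀ X : Finset α, 𝔼 ω, kap π X (π ω) ^ ((1 : ℝ) / p) ≤
      G X / (Fintype.card α : ℝ) ^ ((1 : ℝ) / p * X.card))
    (J : Finset α) :
    (Ahat π J ^ (p + 1)).trace ≤
      ((Fintype.card α - J.card).factorial : ℝ) /
          (Fintype.card α : ℝ) ^ (Fintype.card α - J.card) *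
        ∑ X ∈ powersetCard (Fintype.card α - J.card) univ, G X ^ p := by
  set k := Fintype.card α - J.card with hk
  have hJ : (0 : ℝ) < J.card.factorial := by positivity
  have hp' : (0 : ℝ) < p := by exact_mod_cast hp
  have hX : ∀ g : Equiv.Perm α, (Jᶜ.image g).card = k := fun g => by
    rw [Finset.card_image_of_injective _ g.injective, Finset.card_compl]
  have hn : (0 : ℝ) < (Fintype.card α : ℝ) ^ ((1 : ℝ) / p * k) := by
    rcases Nat.eq_zero_or_pos k with h0 | h0
    · simp [h0]
    · exact Real.rpow_pos_of_pos (by exact_mod_cast (by omega : 0 < Fintype.card α)) _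
  have hA : ∀ g h, 0 ≤ Ahat π J g h := fun g h =>
    div_nonneg (Finset.expect_nonneg fun ω _ => by split_ifs <;> norm_num) hJ.le
  have hy := young (Ahat π J) hA p hp
    (fun g => G (Jᶜ.image g) / (Fintype.card α : ℝ) ^ ((1 : ℝ) / p * k) /
      (J.card.factorial : ℝ) ^ ((1 : ℝ) / p))
    (fun g => div_pos (div_pos (hG _) hn) (Real.rpow_pos_of_pos hJ _)) ?_
  · refine hy.trans ?_
    have h1 : ∀ g : Equiv.Perm α, (G (Jᶜ.image g) / (Fintype.card α : ℝ) ^ ((1 : ℝ) / p * k) /
        (J.card.factorial : ℝ) ^ ((1 : ℝ) / p)) ^ p =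
        G (Jᶜ.image g) ^ p / ((Fintype.card α : ℝ) ^ k * (J.card.factorial : ℝ)) := by
      intro g
      rw [div_pow, div_pow, ← Real.rpow_natCast (_ ^ ((1 : ℝ) / p * k)),
        ← Real.rpow_mul (Nat.cast_nonneg _), ← Real.rpow_natCast (_ ^ ((1 : ℝ) / p)),
        ← Real.rpow_mul hJ.le, show (1 : ℝ) / p * k * p = (k : ℕ) by field_simp,
        show (1 : ℝ) / p * p = 1 by field_simp, Real.rpow_one, Real.rpow_natCast, div_div]
    simp only [h1]
    rw [← Finset.sum_div, ← Finset.sum_fiberwise_of_maps_to (t := powersetCard k univ)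
      (g := fun g : Equiv.Perm α => Jᶜ.image g) (fun g _ => by simp [hX g])]
    have h2 : ∑ X ∈ powersetCard k univ,
        ∑ g ∈ univ.filter (fun g : Equiv.Perm α => Jᶜ.image g = X), G (Jᶜ.image g) ^ p ≤
        ∑ X ∈ powersetCard k univ, ((k.factorial : ℝ) * J.card.factorial) * G X ^ p := by
      refine Finset.sum_le_sum (fun X _ => ?_)
      rw [Finset.sum_congr rfl (g := fun _ => G X ^ p)
        (fun g hg => by rw [(Finset.mem_filter.mp hg).2]), Finset.sum_const, nsmul_eq_mul]
      refine mul_le_mul_of_nonneg_right ?_ (pow_pos (hG X) p).le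
      exact_mod_cast card_image_le J X
    rw [← Finset.mul_sum] at h2
    have hn' : (0 : ℝ) < (Fintype.card α : ℝ) ^ k := by
      rcases Nat.eq_zero_or_pos k with h0 | h0
      · simp [h0]
      · exact pow_pos (by exact_mod_cast (by omega : 0 < Fintype.card α)) _
    refine (div_le_div_of_nonneg_right h2 (by positivity)).trans (le_of_eq ?_)
    field_simp
  · intro g
    have h1 : ∀ h, Ahat π J g h ^ (((p : ℝ) + 1) / p) =
        Ahat π J g h * Ahat π J g h ^ ((1 : ℝ) / p) := by
      intro h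
      rw [show ((p : ℝ) + 1) / p = 1 / p + 1 by field_simp; ring,
        Real.rpow_add_one' (hA g h) (by positivity), mul_comm]
    simp only [h1]
    rw [sum_Ahat π J g (fun h => Ahat π J g h ^ ((1 : ℝ) / p))]
    · have h2 : ∀ ω, Ahat π J g (π ω * g) ^ ((1 : ℝ) / p) =
          kap π (Jᶜ.image g) (π ω) ^ ((1 : ℝ) / p) / (J.card.factorial : ℝ) ^ ((1 : ℝ) / p) := by
        intro ω
        have hk0 : 0 ≤ kap π (Jᶜ.image g) (π ω) :=
          Finset.expect_nonneg fun ω _ => by split_ifs <;> norm_num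
        rw [← Real.div_rpow hk0 hJ.le]
        simp only [Ahat, Matrix.of_apply, kap]
        congr 2
        refine Finset.expect_congr rfl (fun ω' _ => ?_)
        have h3 : (∀ a, a ∉ J → π ω' (g a) = (π ω * g) a) ↔
            ∀ v ∈ Jᶜ.image g, π ω' v = π ω v := by simp
        by_cases h4 : ∀ v ∈ Jᶜ.image g, π ω' v = π ω v
        · rw [if_pos h4, if_pos (h3.mpr h4)]
        · rw [if_neg h4, if_neg (fun h5 => h4 (h3.mp h5))]
      simp only [h2]
      rw [← Finset.expect_div]
      refine div_le_div_of_nonneg_right ?_ (Real.rpow_pos_of_pos hJ _).le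
      have := hR (Jᶜ.image g)
      rwa [hX g] at this
    · intro k' h hkh
      simp only [Ahat, Matrix.of_apply]
      congr 2
      refine Finset.expect_congr rfl (fun ω' _ => if_congr ?_ rfl rfl)
      exact forall_congr' fun a => imp_congr_right fun ha => by rw [hkh a ha]

/-- An eigenvector `f` with `β ≠ 0` satisfies `f (swap x (φ x) * g) = f g`. If `f` is alternating
under right multiplication by transpositions of `C`, `|C| > n/2`, then for each `g` the set
`g '' C` contains a pair `x, φ x` (pigeonhole: `g '' C` and its image under `φ` intersect), and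
`swap x (φ x) * g = g * swap a b` with `a = g⁻¹ x ≠ b = g⁻¹ (φ x)` in `C`, so `f g = - f g`. -/
theorem noInv_tw (π : Ω → Equiv.Perm α) (φ : α → α) (hφ : Function.Involutive φ)
    (hne : ∀ x, φ x ≠ x)
    (hlaw : ∀ (x : α) (F : Equiv.Perm α → ℝ),
      𝔼 ω, F (π ω * Equiv.swap x (φ x)) = 𝔼 ω, F (π ω))
    (β : ℝ) (hβ : β ≠ 0) :
    NoInv (tw (rightReg α)) (End.eigenspace (lawLin π) β) univ (Fintype.card α / 2 + 1) := by
  intro C _ hC
  rw [eq_bot_iff]
  intro v hv
  obtain ⟨h1, h2⟩ := Submodule.mem_inf.mp hv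
  rw [End.mem_eigenspace_iff] at h1
  have h3 : ∀ g, β * v g = 𝔼 ω, v (π ω * g) := fun g => by
    rw [← lawLin_apply, h1]; rfl
  have h4 : ∀ x g, v (Equiv.swap x (φ x) * g) = v g := by
    intro x g
    refine mul_left_cancel₀ hβ ?_
    rw [h3, h3, ← hlaw x (fun σ => v (σ * g))]
    simp only [mul_assoc]
  rw [Submodule.mem_bot]
  ext g
  obtain ⟨x, hx, hx'⟩ : ∃ x ∈ C.image g, φ x ∈ C.image g := by
    by_contra hcon
    push Not at hcon
    have hd : Disjoint (C.image g) ((C.image g).image φ) := by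
      rw [Finset.disjoint_right]
      intro y hy hy'
      obtain ⟨x, hx, rfl⟩ := Finset.mem_image.mp hy
      exact hcon x hx hy'
    have h5 := Finset.card_le_univ ((C.image g) ∪ (C.image g).image φ)
    rw [Finset.card_union_of_disjoint hd, Finset.card_image_of_injective _ hφ.injective,
      Finset.card_image_of_injective _ g.injective, hC] at h5
    omega
  obtain ⟨a, ha, rfl⟩ := Finset.mem_image.mp hx
  obtain ⟨b, hb, hb'⟩ := Finset.mem_image.mp hx'
  have hab : a ≠ b := by
    rintro rfl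
    exact hne _ hb'.symm
  have h6 := congrArg (fun w : EuclideanSpace ℝ (Equiv.Perm α) => w g) (h2 a ha b hb)
  have h7 : (tw (rightReg α) (Equiv.swap a b) v) g = - v (g * Equiv.swap a b) := by
    simp [tw, Equiv.Perm.sign_swap hab]
  simp only [h7] at h6
  rw [Equiv.mul_swap_eq_swap_mul, hb', h4] at h6
  have h8 : v g = 0 := by linarith
  simpa using h8

end General

/-- Flip of the first coordinate. -/
def flipPos (j : ℕ) (v : Pos (j + 1)) : Pos (j + 1) := ((!v.1, v.2) : Bool × Pos j)

theorem flipPos_involutive (j : ℕ) : Function.Involutive (flipPos j) := by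
  rintro ⟨b, p⟩
  cases b <;> rfl

theorem flipPos_ne (j : ℕ) (v : Pos (j + 1)) : flipPos j v ≠ v := by
  obtain ⟨b, p⟩ := v
  intro h
  have := congrArg Prod.fst h
  cases b <;> simp [flipPos] at this

/-- `sw s * swap (b,p) (!b,p) = sw (s with the coin at p toggled)`, and toggling a coin is an
involution of `Theta (j+1) × Theta (j+1)`. -/
theorem pairLaw_bfly_flip (j : ℕ) (x : Pos (j + 1)) (F : Equiv.Perm (Pos (j + 1)) → ℝ) :
    𝔼 ω, F (pairLaw (bfly (j + 1)) ω * Equiv.swap x (flipPos j x)) =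
      𝔼 ω, F (pairLaw (bfly (j + 1)) ω) := by
  obtain ⟨b, p⟩ := x
  let T : Theta (j + 1) × Theta (j + 1) → Theta (j + 1) × Theta (j + 1) := fun ω =>
    (((Function.update ω.1.1 p (!ω.1.1 p), ω.1.2) : (Pos j → Bool) × Theta j × Theta j), ω.2)
  have hT : Function.Involutive T := by
    rintro ⟨⟨s, θ⟩, θ'⟩
    simp [T]
  refine Fintype.expect_bijective T hT.bijective _ _ (fun ω => ?_)
  congr 1
  have h1 := KernelAux.sw_mul_swap (β := Pos j) ω.1.1 b p
  have h2 : bfly (j + 1) ω.1 * Equiv.swap (α := Pos (j + 1)) (b, p) (flipPos j (b, p)) =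
      bfly (j + 1) (T ω).1 := by
    change (blk (bfly j ω.1.2.1) (bfly j ω.1.2.2) * sw ω.1.1 : Equiv.Perm (Bool × Pos j)) *
      Equiv.swap ((b, p) : Bool × Pos j) (!b, p) = blk (bfly j ω.1.2.1) (bfly j ω.1.2.2) *
      sw (Function.update ω.1.1 p (!ω.1.1 p))
    rw [mul_assoc, h1]
  unfold pairLaw
  rw [mul_assoc]
  exact congrArg (fun σ => (bfly (j + 1) ω.2)⁻¹ * σ) h2

end Crest.Agent.R155
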