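import Crest.Agent.R155.Link_Basic

/-!
# One pass of `log₂ n` shuffles is the butterfly network
-/

set_option autoImplicit false

namespace Crest.Agent.R155.LinkAux

open Finset Matrix BigOperators Crest.ProbabilityR Crest.Agent.R155

/-- binary value of a position -/
def enc : (j : ℕ) → Pos j → ℕ
  | 0, _ => 0
  | j + 1, a => (if a.1 then 2 ^ j else 0) + enc j a.2

theorem enc_lt : (j : ℕ) → (a : Pos j) → enc j a < 2 ^ j
  | 0, _ => by simp [enc]
  | j + 1, a => by
    have := enc_lt j a.2
    simp only [enc, pow_succ]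
    split_ifs <;> omega

theorem enc_surj : (j : ℕ) → (x : ℕ) → x < 2 ^ j → ∃ a : Pos j, enc j a = x
  | 0, x, hx => ⟨(), by simp only [enc]; omega⟩
  | j + 1, x, hx => by
    rw [pow_succ] at hx
    by_cases h : x < 2 ^ j
    · obtain ⟨a, ha⟩ := enc_surj j x h
      exact ⟨(false, a), by simp [enc, ha]⟩
    · obtain ⟨a, ha⟩ := enc_surj j (x - 2 ^ j) (by omega)
      exact ⟨(true, a), by simp only [enc, ha, if_true]; omega⟩

/-- positions as elements of `Fin (2 * 2 ^ d)` -/
noncomputable def encE (d : ℕ) : Pos (d + 1) ≃ Fin (2 * 2 ^ d) :=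
  Equiv.ofBijective (fun a => ⟨enc (d + 1) a, by have := enc_lt (d + 1) a; rw [pow_succ] at this; omega⟩)
    ((Fintype.bijective_iff_surjective_and_card _).mpr ⟨fun x => by
      obtain ⟨a, ha⟩ := enc_surj (d + 1) x.val (by have := x.isLt; rw [pow_succ]; omega)
      exact ⟨a, Fin.ext ha⟩, by rw [card_Pos, Fintype.card_fin, pow_succ, mul_comm]⟩)

theorem encE_val (d : ℕ) (a : Pos (d + 1)) : (encE d a).val = enc (d + 1) a := rfl

/-- one shuffle on natural numbers -/
def stepN (m : ℕ) (c : ℕ → Bool) (x : ℕ) : ℕ :=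
  2 * (x % m) + (if xor (decide (m ≤ x)) (c (x % m)) then 1 else 0)

/-- several shuffles on natural numbers -/
def iterN (m : ℕ) : ℕ → (ℕ → ℕ → Bool) → ℕ → ℕ
  | 0, _, x => x
  | t + 1, cs, x => stepN m (cs t) (iterN m t cs x)

theorem iterN_succ' (m : ℕ) : (t : ℕ) → (cs : ℕ → ℕ → Bool) → (x : ℕ) →
    iterN m (t + 1) cs x = iterN m t (fun i => cs (i + 1)) (stepN m (cs 0) x)
  | 0, _, _ => rfl
  | t + 1, cs, x => by
    rw [iterN, iterN_succ' m t cs x]
    rfl

theorem iterPos_val (m : ℕ) : (t : ℕ) → (cs : Fin t → Fin m → Bool) → (cs' : ℕ → ℕ → Bool) →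
    (∀ i u, cs i u = cs' i.val u.val) → ∀ x : Fin (2 * m),
      (Shuffle.iterPos m t cs x).val = iterN m t cs' x.val
  | 0, _, _, _, _ => rfl
  | t + 1, cs, cs', h, x => by
    rw [Shuffle.iterPos, iterN, ← iterPos_val m t (fun i => cs i.castSucc) cs'
      (fun i u => h _ _) x]
    simp only [Shuffle.stepPos, stepN, h, Fin.val_last]

/-- the coins of the butterfly read off a coin table -/
def ext : (j : ℕ) → (M y : ℕ) → (ℕ → ℕ → Bool) → Theta j
  | 0, _, _, _ => ()
  | j + 1, M, y, cs => (fun p => cs 0 (enc j p * M + y), ext j (2 * M) (2 * y) (fun i => cs (i + 1)),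
      ext j (2 * M) (2 * y + 1) (fun i => cs (i + 1)))

theorem iterN_enc (m : ℕ) : (j : ℕ) → (M y : ℕ) → 2 * m = 2 ^ j * M → y < M →
    (cs : ℕ → ℕ → Bool) → (a : Pos j) →
      iterN m j cs (enc j a * M + y) = y * 2 ^ j + enc j (bfly j (ext j M y cs) a)
  | 0, M, y, _, _, cs, a => by simp [iterN, enc]
  | j + 1, M, y, hm, hy, cs, a => by
    obtain ⟨b, p⟩ := a
    have hm' : m = 2 ^ j * M := by rw [pow_succ] at hm; nlinarith
    have hp := enc_lt j p
    have hu : enc j p * M + y < m := by
      rw [hm']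
      calc enc j p * M + y < enc j p * M + M := by omega
        _ = (enc j p + 1) * M := by ring
        _ ≤ 2 ^ j * M := Nat.mul_le_mul_right _ hp
    have hstep : stepN m (cs 0) (enc (j + 1) (b, p) * M + y) =
        enc j p * (2 * M) + (2 * y + if xor b (cs 0 (enc j p * M + y)) then 1 else 0) := by
      have hx : enc (j + 1) (b, p) * M + y = (if b then m else 0) + (enc j p * M + y) := by
        simp only [enc]
        cases b
        · simp
        · simp only [if_true]; rw [hm']; ring
      rw [hx]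
      unfold stepN
      cases b
      · simp only [Bool.false_eq_true, if_false, zero_add, Nat.mod_eq_of_lt hu,
          decide_eq_false (not_le.mpr hu)]
        ring
      · simp only [if_true, Nat.add_mod_left, Nat.mod_eq_of_lt hu,
          decide_eq_true (Nat.le_add_right m _)]
        ring
    rw [iterN_succ', hstep, iterN_enc m j (2 * M) _ (by rw [hm']; ring)
      (by split_ifs <;> omega)]
    have hb : bfly (j + 1) (ext (j + 1) M y cs) (b, p) =
        ((xor b (cs 0 (enc j p * M + y)),
          (bif xor b (cs 0 (enc j p * M + y)) then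
            bfly j (ext j (2 * M) (2 * y + 1) (fun i => cs (i + 1))) else
            bfly j (ext j (2 * M) (2 * y) (fun i => cs (i + 1)))) p) : Bool × Pos j) := rfl
    rw [hb]
    generalize xor b (cs 0 (enc j p * M + y)) = b'
    cases b'
    · simp only [enc, Bool.false_eq_true, if_false, cond_false, add_zero, zero_add]
      ring
    · simp only [enc, if_true, cond_true]
      ring

theorem ext_inj (m : ℕ) : (j : ℕ) → (M : ℕ) → 2 * m = 2 ^ j * M → (cs cs' : ℕ → ℕ → Bool) →
    (∀ y < M, ext j M y cs = ext j M y cs') → ∀ i < j, ∀ u < m, cs i u = cs' i u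
  | 0, _, _, _, _, _, i, hi => absurd hi (Nat.not_lt_zero i)
  | j + 1, M, hm, cs, cs', h, i, hi => by
    have hm' : m = 2 ^ j * M := by rw [pow_succ] at hm; nlinarith
    rcases i with _ | i
    · intro u hu
      have hM : 0 < M := by
        rcases Nat.eq_zero_or_pos M with h0 | h0
        · rw [h0] at hm'; omega
        · exact h0
      obtain ⟨p, hp⟩ := enc_surj j (u / M) (by
        rw [Nat.div_lt_iff_lt_mul hM, ← hm']; exact hu)
      have h1 := congrFun (congrArg Prod.fst (h (u % M) (Nat.mod_lt _ hM))) p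
      simp only [ext, hp, Nat.div_add_mod'] at h1
      exact h1
    · refine ext_inj m j (2 * M) (by rw [hm']; ring) (fun i => cs (i + 1)) (fun i => cs' (i + 1))
        (fun y hy => ?_) i (by omega)
      have h1 := congrArg Prod.snd (h (y / 2) (by omega))
      simp only [ext, Prod.mk.injEq] at h1
      rcases Nat.mod_two_eq_zero_or_one y with h2 | h2
      · have : y = 2 * (y / 2) := by omega
        rw [this]; exact h1.1
      · have : y = 2 * (y / 2) + 1 := by omega
        rw [this]; exact h1.2

theorem card_Theta_sq : (j : ℕ) →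
    Fintype.card (Theta j) * Fintype.card (Theta j) = 2 ^ (j * 2 ^ j)
  | 0 => by
    show Fintype.card Unit * Fintype.card Unit = _
    simp
  | j + 1 => by
    have h : Fintype.card (Theta (j + 1)) = 2 ^ ((j + 1) * 2 ^ j) := by
      show Fintype.card ((Pos j → Bool) × Theta j × Theta j) = _
      rw [Fintype.card_prod, Fintype.card_prod, card_Theta_sq j, Fintype.card_fun, card_Pos,
        Fintype.card_bool, ← pow_add]
      congr 1; ring
    rw [h, ← pow_add]
    congr 1; ring

theorem card_Theta_succ (j : ℕ) : Fintype.card (Theta (j + 1)) = 2 ^ ((j + 1) * 2 ^ j) := by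
  show Fintype.card ((Pos j → Bool) × Theta j × Theta j) = _
  rw [Fintype.card_prod, Fintype.card_prod, card_Theta_sq j, Fintype.card_fun, card_Pos,
    Fintype.card_bool, ← pow_add]
  congr 1; ring

/-- extend a coin table by `false` -/
def lift {t m : ℕ} (cs : Fin t → Fin m → Bool) (i u : ℕ) : Bool :=
  if h : i < t ∧ u < m then cs ⟨i, h.1⟩ ⟨u, h.2⟩ else false

theorem lift_val {t m : ℕ} (cs : Fin t → Fin m → Bool) (i : Fin t) (u : Fin m) :
    cs i u = lift cs i.val u.val := by
  simp [lift]

theorem ext_bij (d : ℕ) : Function.Bijective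
    (fun cs : Fin (d + 1) → Fin (2 ^ d) → Bool => ext (d + 1) 1 0 (lift cs)) := by
  refine (Fintype.bijective_iff_injective_and_card _).mpr ⟨fun cs cs' h => ?_, ?_⟩
  · funext i u
    rw [lift_val cs, lift_val cs']
    refine ext_inj (2 ^ d) (d + 1) 1 (by ring) _ _ (fun y hy => ?_) _ i.isLt _ u.isLt
    obtain rfl : y = 0 := by omega
    exact h
  · rw [card_Theta_succ]
    simp [← pow_mul, mul_comm]

theorem iterPerm_eq (d : ℕ) (cs : Fin (d + 1) → Fin (2 ^ d) → Bool) :
    iterPerm (2 ^ d) (d + 1) cs =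
      (encE d).permCongr (bfly (d + 1) (ext (d + 1) 1 0 (lift cs))) := by
  ext x
  obtain ⟨a, rfl⟩ := (encE d).surjective x
  rw [coe_iterPerm, iterPos_val _ _ cs (lift cs) (lift_val cs), Equiv.permCongr_apply,
    Equiv.symm_apply_apply, encE_val, encE_val]
  have := iterN_enc (2 ^ d) (d + 1) 1 0 (by ring) one_pos (lift cs) a
  simpa using this

theorem lawMat_pass (d : ℕ) : lawMat (iterPerm (2 ^ d) (d + 1)) =
    Matrix.reindex (encE d).permCongr (encE d).permCongr (lawMat (bfly (d + 1))) := by
  rw [← lawMat_permCongr]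
  exact lawMat_congr _ (ext_bij d) _ _ (iterPerm_eq d)

end Crest.Agent.R155.LinkAux
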