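import Crest.Agent.R155.Defs
import Crest.Prelude.Def_Shuffle
import Crest.Agent.R155.Link_Bfly

set_option autoImplicit false

namespace Crest.Agent.R155

open Finset Matrix Crest.ProbabilityR

/-- From the shuffle of the statement to the butterfly matrix.

Proof. Let `m = 2^d`, `D = d+1`, `n = 2m`, `G = Perm (Fin (2*m))`.
(1) `stepPos m c` is a bijection (`stepPerm c : G`), `iterPos m t cs` is the product
`iterPerm t cs = stepPerm (cs last) * iterPerm (t-1) (init cs)`. Let `μ t g = P (iterPerm t cs = g)`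
and `S t = lawMat (iterPerm t)`; then `S (t+1) = S t * S 1`, so `S t = (S 1)^t` and
`S (1024 D) = (S D)^1024`. Rows: `S t g h = μ t (h g⁻¹)`, so
`tr (S t * (S t)ᵀ) = n! * ∑ h, μ t h ^ 2`.
(2) `∑ h, μ (t+1) h ^ 2 ≤ ∑ h, μ t h ^ 2` (Jensen / Cauchy-Schwarz: `μ (t+1) h` is the average
over `c` of `μ t ((stepPerm c)⁻¹ h)`), and `1024 D ≤ 1600 D`.
(3) Cauchy-Schwarz: `(∑ |μ g - 1/n!|)^2 ≤ n! ∑ (μ g - 1/n!)^2 = n! ∑ μ g ^2 - 1`.
(4) `S D` is `lawMat (bfly D)` up to reindexing by the equivalence `Fin (2*2^d) ≃ Pos D`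
(binary expansion `enc (b,p) = b 2^j + enc p` for `p : Pos j`) and a bijection of the coin spaces
`(Fin D → Fin m → Bool) ≃ Theta D`. For this define, for `2 m = 2^j M`, `y < M` and a coin table
`cs` (rows `0 .. j-1`), `ext j M y cs : Theta j` by
`ext (j+1) M y cs = (fun p => cs 0 (enc p * M + y), ext j (2M) (2y) (tail cs),
ext j (2M) (2y+1) (tail cs))`; by induction on `j` (peel off the FIRST shuffle)
the card at position `enc a * M + y` ends at `y * 2^j + enc (bfly j (ext j M y cs) a)`;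
`cs ↦ (y ↦ ext j M y cs)` is injective (induction), and `card (Theta (j+1)) = 2^((j+1) 2^j)`,
so `ext D 1 0` is bijective. Traces of `M^r * (M^r)ᵀ` are invariant under `Matrix.reindex`. -/
theorem link (d : ℕ) :
    4 * (Shuffle.tvFromUniform (2 ^ d) (1600 * (d + 1))) ^ 2 ≤
      (lawMat (bfly (d + 1)) ^ 1024 * (lawMat (bfly (d + 1)) ^ 1024)ᵀ).trace - 1 := by
  have h1 := LinkAux.sq_sum_abs_le (LinkAux.iterPerm (2 ^ d) (1600 * (d + 1)))
  have h2 := LinkAux.sum_sq_iter_le (2 ^ d) (show (d + 1) * 1024 ≤ 1600 * (d + 1) by omega)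
  have h3 := LinkAux.trace_lawMat (LinkAux.iterPerm (2 ^ d) ((d + 1) * 1024))
  rw [LinkAux.lawMat_iter, pow_mul, ← LinkAux.lawMat_iter, LinkAux.lawMat_pass,
    LinkAux.trace_reindex_pow] at h3
  rw [LinkAux.tv_eq, h3]
  have h4 : (0 : ℝ) ≤ ((Fintype.card (Fin (2 * 2 ^ d))).factorial : ℝ) := Nat.cast_nonneg _
  have h5 := mul_le_mul_of_nonneg_left h2 h4
  nlinarith

end Crest.Agent.R155
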