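import Crest.Agent.R155.Defs
import Crest.Prelude.Def_Shuffle

/-!
# The shuffle as a random permutation; laws and transition matrices
-/

set_option autoImplicit false

namespace Crest.Agent.R155.LinkAux

open Finset Matrix BigOperators Crest.ProbabilityR Crest.Agent.R155

section law

variable {α β Ω Ω' : Type*} [Fintype α] [DecidableEq α] [Fintype β] [DecidableEq β]
  [Fintype Ω] [Fintype Ω']

/-- the law of a random permutation -/
noncomputable def law (π : Ω → Equiv.Perm α) (g : Equiv.Perm α) : ℝ :=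
  𝔼 ω, if π ω = g then (1 : ℝ) else 0

theorem lawMat_apply (π : Ω → Equiv.Perm α) (g h : Equiv.Perm α) :
    lawMat π g h = law π (h * g⁻¹) := by
  simp only [lawMat, law, Matrix.of_apply, eq_mul_inv_iff_mul_eq]

theorem sum_law [Nonempty Ω] (π : Ω → Equiv.Perm α) : ∑ g, law π g = 1 := by
  unfold law
  rw [← expect_sum_comm]
  simp

theorem law_eq_zero (π : Ω → Equiv.Perm α) (g : Equiv.Perm α) (h : ∀ ω, π ω ≠ g) :
    law π g = 0 := by
  unfold law
  exact expect_eq_zero (fun ω _ => if_neg (h ω))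

theorem lawMat_congr (e : Ω → Ω') (he : Function.Bijective e) (π : Ω → Equiv.Perm α)
    (π' : Ω' → Equiv.Perm α) (h : ∀ ω, π ω = π' (e ω)) : lawMat π = lawMat π' := by
  ext g k
  simp only [lawMat, Matrix.of_apply]
  exact Fintype.expect_bijective e he _ _ (fun ω => by rw [h ω])

theorem lawMat_prod (π : Ω → Equiv.Perm α) (π' : Ω' → Equiv.Perm α) :
    lawMat (fun ω : Ω' × Ω => π' ω.1 * π ω.2) = lawMat π * lawMat π' := by
  ext g h
  simp only [lawMat, Matrix.of_apply, Matrix.mul_apply]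
  rw [← univ_product_univ, expect_product, expect_comm]
  simp only [expect_mul]
  rw [← expect_sum_comm]
  refine expect_congr rfl (fun ω _ => ?_)
  simp only [ite_mul, one_mul, zero_mul, sum_ite_eq, mem_univ, if_true, mul_assoc]

theorem trace_mul_transpose {n : Type*} [Fintype n] (M : Matrix n n ℝ) :
    (M * Mᵀ).trace = ∑ g, ∑ h, M g h ^ 2 := by
  simp only [Matrix.trace, Matrix.diag, Matrix.mul_apply, Matrix.transpose_apply, sq]

theorem trace_lawMat (π : Ω → Equiv.Perm α) :
    (lawMat π * (lawMat π)ᵀ).trace = (Fintype.card α).factorial * ∑ h, law π h ^ 2 := by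
  rw [trace_mul_transpose]
  have : ∀ g : Equiv.Perm α, ∑ h, lawMat π g h ^ 2 = ∑ h, law π h ^ 2 := fun g => by
    simp only [lawMat_apply]
    exact Equiv.sum_comp (Equiv.mulRight g⁻¹) (fun h => law π h ^ 2)
  simp only [this, sum_const, card_univ, Fintype.card_perm, nsmul_eq_mul]

theorem law_prod (π : Ω → Equiv.Perm α) (π' : Ω' → Equiv.Perm α) (h : Equiv.Perm α) :
    law (fun ω : Ω' × Ω => π' ω.1 * π ω.2) h = 𝔼 c, law π ((π' c)⁻¹ * h) := by
  unfold law
  rw [← univ_product_univ, expect_product]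
  simp only [eq_inv_mul_iff_mul_eq]

theorem sum_sq_law_prod [Nonempty Ω'] (π : Ω → Equiv.Perm α) (π' : Ω' → Equiv.Perm α) :
    ∑ h, law (fun ω : Ω' × Ω => π' ω.1 * π ω.2) h ^ 2 ≤ ∑ h, law π h ^ 2 := by
  calc ∑ h, law (fun ω : Ω' × Ω => π' ω.1 * π ω.2) h ^ 2
      ≤ ∑ h, 𝔼 c, law π ((π' c)⁻¹ * h) ^ 2 := by
        refine sum_le_sum (fun h _ => ?_)
        rw [law_prod]
        have := expect_mul_sq_le_sq_mul_sq univ (fun c => law π ((π' c)⁻¹ * h)) (fun _ => (1 : ℝ))
        simpa using this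
    _ = 𝔼 c, ∑ h, law π ((π' c)⁻¹ * h) ^ 2 := (expect_sum_comm _ _ _).symm
    _ = 𝔼 _c : Ω', ∑ h, law π h ^ 2 := by
        refine expect_congr rfl (fun c _ => ?_)
        exact Equiv.sum_comp (Equiv.mulLeft (π' c)⁻¹) (fun h => law π h ^ 2)
    _ = _ := Fintype.expect_const _

theorem law_congr (e : Ω → Ω') (he : Function.Bijective e) (π : Ω → Equiv.Perm α)
    (π' : Ω' → Equiv.Perm α) (h : ∀ ω, π ω = π' (e ω)) : law π = law π' := by
  ext g
  exact Fintype.expect_bijective e he _ _ (fun ω => by rw [h ω])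

theorem lawMat_permCongr (e : α ≃ β) (π : Ω → Equiv.Perm α) :
    lawMat (fun ω => e.permCongr (π ω)) =
      Matrix.reindex e.permCongr e.permCongr (lawMat π) := by
  ext g h
  simp only [lawMat, Matrix.reindex_apply, Matrix.submatrix_apply, Matrix.of_apply]
  refine expect_congr rfl (fun ω _ => ?_)
  congr 1
  apply propext
  constructor
  · intro hh
    rw [← hh]
    ext x
    simp
  · intro hh
    apply e.permCongr.symm.injective
    rw [← hh]
    ext x
    simp

theorem trace_reindex_pow {n n' : Type*} [Fintype n] [DecidableEq n] [Fintype n'] [DecidableEq n']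
    (e : n ≃ n') (M : Matrix n n ℝ) (r : ℕ) :
    ((Matrix.reindex e e M) ^ r * ((Matrix.reindex e e M) ^ r)ᵀ).trace =
      (M ^ r * (M ^ r)ᵀ).trace := by
  have : (Matrix.reindex e e M) ^ r = Matrix.reindex e e (M ^ r) :=
    (map_pow (Matrix.reindexAlgEquiv ℝ ℝ e) M r).symm
  rw [this, trace_mul_transpose, trace_mul_transpose]
  simp only [Matrix.reindex_apply, Matrix.submatrix_apply]
  rw [Equiv.sum_comp e.symm (fun g => ∑ h, (M ^ r) g (e.symm h) ^ 2)]
  exact sum_congr rfl (fun g _ => Equiv.sum_comp e.symm (fun h => (M ^ r) g h ^ 2))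

/-- Cauchy-Schwarz: total variation versus chi-square -/
theorem sq_sum_abs_le [Nonempty Ω] (π : Ω → Equiv.Perm α) :
    (∑ g, |law π g - 1 / ((Fintype.card α).factorial : ℝ)|) ^ 2 ≤
      (Fintype.card α).factorial * ∑ h, law π h ^ 2 - 1 := by
  set N : ℝ := ((Fintype.card α).factorial : ℝ) with hN
  have hN0 : 0 < N := by rw [hN]; exact_mod_cast Nat.factorial_pos _
  have hc : ((univ : Finset (Equiv.Perm α)).card : ℝ) = N := by
    rw [card_univ, Fintype.card_perm]
  refine sq_sum_le_card_mul_sum_sq.trans (le_of_eq ?_)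
  rw [hc]
  have : ∑ g, |law π g - 1 / N| ^ 2 =
      ∑ g, law π g ^ 2 - 2 / N * ∑ g, law π g + N * (1 / N) ^ 2 := by
    rw [mul_sum, ← sum_sub_distrib, ← hc, ← nsmul_eq_mul, ← sum_const, ← sum_add_distrib, hc]
    refine sum_congr rfl (fun g _ => ?_)
    rw [sq_abs]; ring
  rw [this, sum_law]
  field_simp
  ring

/-- support counting -/
theorem le_sum_abs [Nonempty Ω] (π : Ω → Equiv.Perm α) :
    2 * (1 - (Fintype.card Ω : ℝ) / ((Fintype.card α).factorial : ℝ)) ≤
      ∑ g, |law π g - 1 / ((Fintype.card α).factorial : ℝ)| := by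
  set N : ℝ := ((Fintype.card α).factorial : ℝ) with hN
  have hN0 : 0 < N := by rw [hN]; exact_mod_cast Nat.factorial_pos _
  have hc : ((univ : Finset (Equiv.Perm α)).card : ℝ) = N := by
    rw [card_univ, Fintype.card_perm]
  set A : Finset (Equiv.Perm α) := univ.image π with hA
  have hAc : (A.card : ℝ) ≤ Fintype.card Ω := by
    exact_mod_cast (card_image_le.trans_eq card_univ)
  have h1 : ∀ g, (1 / N - law π g) + (if g ∈ A then 2 * (law π g - 1 / N) else 0) ≤
      |law π g - 1 / N| := by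
    intro g
    split_ifs
    · linarith [le_abs_self (law π g - 1 / N)]
    · linarith [neg_abs_le (law π g - 1 / N)]
  refine le_trans ?_ (sum_le_sum (fun g _ => h1 g))
  rw [sum_add_distrib, sum_sub_distrib, sum_law, sum_const, nsmul_eq_mul, hc, sum_ite_mem,
    univ_inter, ← mul_sum, sum_sub_distrib, sum_const, nsmul_eq_mul]
  have h2 : ∑ g ∈ A, law π g = 1 := by
    rw [← sum_law π]
    refine sum_subset (subset_univ _) (fun g _ hg => law_eq_zero π g (fun ω h => hg ?_))
    exact mem_image.mpr ⟨ω, mem_univ _, h⟩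
  rw [h2]
  have h3 : N * (1 / N) = 1 := by field_simp
  have h4 : (A.card : ℝ) * (1 / N) ≤ (Fintype.card Ω : ℝ) / N := by
    rw [mul_one_div]; exact div_le_div_of_nonneg_right hAc hN0.le
  linarith

end law

theorem stepPos_injective (m : ℕ) (c : Fin m → Bool) : Function.Injective (Shuffle.stepPos m c) := by
  intro x y h
  have hx := x.isLt
  have hy := y.isLt
  have h0 := congrArg Fin.val h
  simp only [Shuffle.stepPos] at h0
  have hu : x.val % m = y.val % m := by
    split_ifs at h0 <;> omega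
  have hc : c ⟨x.val % m, Nat.mod_lt _ (by omega)⟩ = c ⟨y.val % m, Nat.mod_lt _ (by omega)⟩ := by
    congr 1; exact Fin.ext hu
  rw [hc] at h0
  have hb : decide (m ≤ x.val) = decide (m ≤ y.val) := by
    revert h0
    generalize c ⟨y.val % m, _⟩ = b
    generalize decide (m ≤ x.val) = b1
    generalize decide (m ≤ y.val) = b2
    cases b <;> cases b1 <;> cases b2 <;> simp <;> omega
  have hb' : m ≤ x.val ↔ m ≤ y.val := by simpa using hb
  apply Fin.ext
  by_cases hm : m ≤ x.val
  · have hm' := hb'.mp hm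
    rw [Nat.mod_eq_sub_mod hm, Nat.mod_eq_sub_mod hm', Nat.mod_eq_of_lt (by omega),
      Nat.mod_eq_of_lt (by omega)] at hu
    omega
  · have hm' : ¬ m ≤ y.val := fun h => hm (hb'.mpr h)
    rwa [Nat.mod_eq_of_lt (by omega), Nat.mod_eq_of_lt (by omega)] at hu

/-- one shuffle -/
noncomputable def stepPerm (m : ℕ) (c : Fin m → Bool) : Equiv.Perm (Fin (2 * m)) :=
  Equiv.ofBijective (Shuffle.stepPos m c) (Finite.injective_iff_bijective.mp (stepPos_injective m c))

/-- `t` shuffles -/
noncomputable def iterPerm (m : ℕ) : (t : ℕ) → (Fin t → Fin m → Bool) → Equiv.Perm (Fin (2 * m))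
  | 0, _ => 1
  | t + 1, cs => stepPerm m (cs (Fin.last t)) * iterPerm m t (fun i => cs i.castSucc)

theorem coe_iterPerm (m : ℕ) : (t : ℕ) → (cs : Fin t → Fin m → Bool) →
    ⇑(iterPerm m t cs) = Shuffle.iterPos m t cs
  | 0, _ => rfl
  | t + 1, cs => by
    funext x
    simp only [iterPerm, Shuffle.iterPos, Equiv.Perm.mul_apply, coe_iterPerm m t]
    rfl

theorem tv_eq (m t : ℕ) : Shuffle.tvFromUniform m t =
    (1 / 2) * ∑ g, |law (iterPerm m t) g - 1 / ((Fintype.card (Fin (2 * m))).factorial : ℝ)| := by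
  unfold Shuffle.tvFromUniform
  rw [Fintype.card_fin]
  congr 1
  refine sum_congr rfl (fun g _ => ?_)
  congr 2
  unfold Crest.FinProb.uniformProb law
  rw [expect_eq_sum_div_card, sum_boole, card_univ]
  congr 3
  ext cs
  simp only [Set.mem_ofPred_eq, ← coe_iterPerm, DFunLike.coe_fn_eq]

theorem snoc_bij (m t : ℕ) : Function.Bijective
    (fun cs : Fin (t + 1) → Fin m → Bool =>
      ((cs (Fin.last t), fun i : Fin t => cs i.castSucc) : (Fin m → Bool) × (Fin t → Fin m → Bool))) :=
  (Fin.snocEquiv (fun _ : Fin (t + 1) => Fin m → Bool)).symm.bijective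

theorem lawMat_iter (m : ℕ) : (t : ℕ) → lawMat (iterPerm m t) = lawMat (stepPerm m) ^ t
  | 0 => by
    ext g h
    simp [lawMat, iterPerm, Matrix.one_apply]
  | t + 1 => by
    rw [pow_succ, ← lawMat_iter m t, ← lawMat_prod]
    exact lawMat_congr _ (snoc_bij m t) _ _ (fun _ => rfl)

theorem sum_sq_iter_succ (m t : ℕ) :
    ∑ h, law (iterPerm m (t + 1)) h ^ 2 ≤ ∑ h, law (iterPerm m t) h ^ 2 := by
  rw [law_congr _ (snoc_bij m t) (iterPerm m (t + 1))
    (fun ω => stepPerm m ω.1 * iterPerm m t ω.2) (fun _ => rfl)]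
  exact sum_sq_law_prod _ _

theorem sum_sq_iter_le (m : ℕ) {t t' : ℕ} (h : t ≤ t') :
    ∑ h, law (iterPerm m t') h ^ 2 ≤ ∑ h, law (iterPerm m t) h ^ 2 := by
  induction h with
  | refl => exact le_rfl
  | step _ ih => exact (sum_sq_iter_succ m _).trans ih

theorem tv_ge (m t : ℕ) :
    1 - (2 : ℝ) ^ (m * t) / ((2 * m).factorial : ℝ) ≤ Shuffle.tvFromUniform m t := by
  have h := le_sum_abs (iterPerm m t)
  rw [tv_eq]
  have hc : (Fintype.card (Fin t → Fin m → Bool) : ℝ) = (2 : ℝ) ^ (m * t) := by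
    simp [pow_mul]
  rw [hc] at h
  rw [Fintype.card_fin] at h ⊢
  linarith

end Crest.Agent.R155.LinkAux
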