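import Crest.Agent.R155.Mult1

set_option autoImplicit false

namespace Crest.Agent.R155

open Finset Module

namespace Mult2

variable {α V : Type*} [Fintype α] [DecidableEq α] [NormedAddCommGroup V] [InnerProductSpace ℝ V]

theorem tw_apply (ρ : Representation ℝ (Equiv.Perm α) V) (g : Equiv.Perm α) (v : V) :
    tw ρ g v = ((Equiv.Perm.sign g : ℤ) : ℝ) • ρ g v := rfl

theorem sign_sq (g : Equiv.Perm α) :
    ((Equiv.Perm.sign g : ℤ) : ℝ) * ((Equiv.Perm.sign g : ℤ) : ℝ) = 1 := by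
  rcases Int.units_eq_one_or (Equiv.Perm.sign g) with h | h <;> simp [h]

theorem tw_swap (ρ : Representation ℝ (Equiv.Perm α) V) {a b : α} (h : a ≠ b) (v : V) :
    tw ρ (Equiv.swap a b) v = -ρ (Equiv.swap a b) v := by
  rw [tw_apply, Equiv.Perm.sign_swap h]
  simp

theorem tw_tw (ρ : Representation ℝ (Equiv.Perm α) V) : tw (tw ρ) = ρ := by
  ext g v
  rw [tw_apply, tw_apply, smul_smul, sign_sq, one_smul]

theorem tw_orth {ρ : Representation ℝ (Equiv.Perm α) V} (h : IsOrth ρ) : IsOrth (tw ρ) := by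
  intro g x y
  rw [tw_apply, tw_apply, real_inner_smul_left, real_inner_smul_right, ← mul_assoc, sign_sq,
    one_mul, h]

theorem tw_stab {ρ : Representation ℝ (Equiv.Perm α) V} {U : Submodule ℝ V} {N : Finset α}
    (h : Stab ρ U N) : Stab (tw ρ) U N := by
  intro a ha b hb v hv
  rw [tw_apply]
  exact U.smul_mem _ (h a ha b hb v hv)

omit [Fintype α] in
theorem invJ_anti (ρ : Representation ℝ (Equiv.Perm α) V) {J J' : Finset α} (h : J ⊆ J') :
    InvJ ρ J' ≤ InvJ ρ J := fun _ hv a ha b hb => hv a (h ha) b (h hb)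

omit [Fintype α] in
theorem noInv_mono {ρ : Representation ℝ (Equiv.Perm α) V} {U : Submodule ℝ V} {N : Finset α}
    {m m' : ℕ} (h : NoInv ρ U N m) (hm : m ≤ m') : NoInv ρ U N m' := by
  intro J hJ hc
  obtain ⟨J₀, hJ₀, hc₀⟩ := Finset.exists_subset_card_eq (s := J) (n := m) (by omega)
  have := h J₀ (hJ₀.trans hJ) hc₀
  exact le_bot_iff.mp (this ▸ inf_le_inf_left U (invJ_anti ρ hJ₀))

omit [Fintype α] in
theorem noInv_sub {ρ : Representation ℝ (Equiv.Perm α) V} {U U' : Submodule ℝ V}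
    {N N' : Finset α} {m : ℕ} (h : NoInv ρ U N m) (hU : U' ≤ U) (hN : N' ⊆ N) :
    NoInv ρ U' N' m := by
  intro J hJ hc
  have := h J (hJ.trans hN) hc
  exact le_bot_iff.mp (this ▸ inf_le_inf_right _ hU)

omit [Fintype α] in
theorem card_le_of_noInv {ρ : Representation ℝ (Equiv.Perm α) V} {U : Submodule ℝ V}
    {N J : Finset α} {m : ℕ} (h : NoInv ρ U N (m + 1)) (hJ : J ⊆ N)
    (hne : U ⊓ InvJ ρ J ≠ ⊥) : J.card ≤ m := by
  by_contra hlt
  exact hne (noInv_mono h (m' := J.card) (by omega) J hJ rfl)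

omit [Fintype α] in
theorem invJ_empty (ρ : Representation ℝ (Equiv.Perm α) V) : InvJ ρ ∅ = ⊤ := by
  rw [eq_top_iff]
  intro v _ a ha
  simp at ha

omit [Fintype α] in
theorem invJ_singleton (ρ : Representation ℝ (Equiv.Perm α) V) (x : α) : InvJ ρ {x} = ⊤ := by
  rw [eq_top_iff]
  intro v _ a ha b hb
  rw [mem_singleton] at ha hb
  subst ha hb
  rw [Equiv.swap_self]
  change ρ 1 v = v
  simp

omit [Fintype α] in
/-- A longest row. -/
theorem exists_row (ρ : Representation ℝ (Equiv.Perm α) V) {U : Submodule ℝ V} (hU : U ≠ ⊥)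
    (N : Finset α) : ∃ J ⊆ N, U ⊓ InvJ ρ J ≠ ⊥ ∧ NoInv ρ U N (J.card + 1) := by
  classical
  obtain ⟨J, hJ, hmax⟩ := Finset.exists_max_image
    (N.powerset.filter fun J => U ⊓ InvJ ρ J ≠ ⊥) Finset.card
    ⟨∅, by simpa [invJ_empty] using hU⟩
  rw [mem_filter, mem_powerset] at hJ
  refine ⟨J, hJ.1, hJ.2, fun J' hJ' hc => ?_⟩
  by_contra hne
  have := hmax J' (by rw [mem_filter, mem_powerset]; exact ⟨hJ', hne⟩)
  omega

omit [Fintype α] in
theorem swap_comm_of_not_mem {J : Finset α} {a b p q : α} (ha : a ∉ J) (hb : b ∉ J) (hp : p ∈ J)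
    (hq : q ∈ J) : Equiv.swap p q * Equiv.swap a b = Equiv.swap a b * Equiv.swap p q := by
  have h1 : Equiv.swap p q a = a :=
    Equiv.swap_apply_of_ne_of_ne (fun h => ha (h ▸ hp)) (fun h => ha (h ▸ hq))
  have h2 : Equiv.swap p q b = b :=
    Equiv.swap_apply_of_ne_of_ne (fun h => hb (h ▸ hp)) (fun h => hb (h ▸ hq))
  rw [Equiv.mul_swap_eq_swap_mul, h1, h2]

omit [Fintype α] in
theorem rep_mul_apply (ρ : Representation ℝ (Equiv.Perm α) V) (g h : Equiv.Perm α) (v : V) :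
    ρ g (ρ h v) = ρ (g * h) v := by
  rw [map_mul]; rfl

omit [Fintype α] in
theorem stab_inf {ρ : Representation ℝ (Equiv.Perm α) V} {U : Submodule ℝ V} {N : Finset α}
    (h : Stab ρ U N) (J : Finset α) : Stab ρ (U ⊓ InvJ ρ J) (N \ J) := by
  intro a ha b hb v hv
  rw [mem_sdiff] at ha hb
  refine ⟨h a ha.1 b hb.1 v hv.1, fun p hp q hq => ?_⟩
  rw [rep_mul_apply, swap_comm_of_not_mem ha.2 hb.2 hp hq, ← rep_mul_apply, hv.2 p hp q hq]

omit [Fintype α] in
/-- Symmetrisation over one more point. -/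
theorem sum_mem_invJ (σ : Representation ℝ (Equiv.Perm α) V) {C : Finset α} {a : α} (ha : a ∉ C)
    {w : V} (hw : w ∈ InvJ σ C) :
    ∑ c ∈ insert a C, σ (Equiv.swap a c) w ∈ InvJ σ (insert a C) := by
  have key : ∀ p ∈ C, ∀ c ∈ insert a C,
      σ (Equiv.swap a p * Equiv.swap a c) w = σ (Equiv.swap a (Equiv.swap a p c)) w := by
    intro p hp c hc
    have hap : a ≠ p := fun h => ha (h ▸ hp)
    by_cases hca : c = a
    · subst hca
      rw [Equiv.swap_self, Equiv.swap_apply_left]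
      rfl
    by_cases hcp : c = p
    · subst hcp
      simp only [Equiv.swap_mul_self, Equiv.swap_apply_right, Equiv.swap_self]
      rfl
    have hcC : c ∈ C := (mem_insert.mp hc).resolve_left hca
    rw [Equiv.swap_apply_of_ne_of_ne hca hcp]
    have : Equiv.swap a p * Equiv.swap a c = Equiv.swap a c * Equiv.swap c p := by
      rw [Equiv.mul_swap_eq_swap_mul (Equiv.swap a c) c p, Equiv.swap_apply_right,
        Equiv.swap_apply_of_ne_of_ne (Ne.symm hap) (Ne.symm hcp)]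
    rw [this, ← rep_mul_apply, hw c hcC p hp]
  have main : ∀ p ∈ insert a C, ∀ p' ∈ insert a C, ∀ c ∈ insert a C,
      σ (Equiv.swap p p' * Equiv.swap a c) w = σ (Equiv.swap a (Equiv.swap p p' c)) w := by
    intro p hp p' hp' c hc
    rcases mem_insert.mp hp with rfl | hpC
    · rcases mem_insert.mp hp' with rfl | hpC'
      · simp only [Equiv.swap_self, Equiv.refl_apply]
        rfl
      · exact key p' hpC' c hc
    · rcases mem_insert.mp hp' with rfl | hpC'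
      · rw [Equiv.swap_comm p p']
        exact key p hpC c hc
      · have h1 : Equiv.swap p p' a = a :=
          Equiv.swap_apply_of_ne_of_ne (fun h => ha (h ▸ hpC)) (fun h => ha (h ▸ hpC'))
        rw [Equiv.mul_swap_eq_swap_mul, h1, ← rep_mul_apply, hw p hpC p' hpC']
  intro p hp p' hp'
  rw [map_sum]
  refine Finset.sum_equiv (Equiv.swap p p') (fun c => ?_) (fun c hc => ?_)
  · constructor
    · intro hc
      rw [Equiv.swap_apply_def]
      split_ifs
      exacts [hp', hp, hc]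
    · intro hc
      by_cases h1 : c = p
      · exact h1 ▸ hp
      by_cases h2 : c = p'
      · exact h2 ▸ hp'
      rwa [Equiv.swap_apply_of_ne_of_ne h1 h2] at hc
  · rw [rep_mul_apply, main p hp p' hp' c hc]

omit [Fintype α] in
theorem inner_swap_left {ρ : Representation ℝ (Equiv.Perm α) V} (hρ : IsOrth ρ) (p q : α)
    (x y : V) : inner ℝ x (ρ (Equiv.swap p q) y) = inner ℝ (ρ (Equiv.swap p q) x) y := by
  rw [← hρ (Equiv.swap p q) x, rep_mul_apply, Equiv.swap_mul_self, map_one]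
  rfl

variable [FiniteDimensional ℝ V]

theorem inner_swap_nonpos {ρ : Representation ℝ (Equiv.Perm α) V} (hρ : IsOrth ρ)
    {U : Submodule ℝ V} {N J : Finset α} (hU : Stab ρ U N) (hJ : J ⊆ N)
    (hno : NoInv ρ U N (J.card + 1)) {a c : α} (ha : a ∈ J) (hcN : c ∈ N) (hcJ : c ∉ J) {w : V}
    (hw : w ∈ U ⊓ InvJ ρ J) : inner ℝ w (ρ (Equiv.swap a c) w) ≤ 0 := by
  have hsum := sum_swap_eq_neg ρ U N hU J hJ hno c hcN hcJ w hw
  have heq : ∀ q ∈ J, inner ℝ w (ρ (Equiv.swap c q) w) = inner ℝ w (ρ (Equiv.swap a c) w) := by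
    intro q hq
    have h1 : Equiv.swap a q c = c :=
      Equiv.swap_apply_of_ne_of_ne (fun h => hcJ (h ▸ ha)) (fun h => hcJ (h ▸ hq))
    have h2 : Equiv.swap a q * Equiv.swap a c = Equiv.swap c q * Equiv.swap a q := by
      rw [Equiv.mul_swap_eq_swap_mul, h1, Equiv.swap_apply_left, Equiv.swap_comm q c]
    calc inner ℝ w (ρ (Equiv.swap c q) w)
        = inner ℝ w (ρ (Equiv.swap c q) (ρ (Equiv.swap a q) w)) := by rw [hw.2 a ha q hq]
      _ = inner ℝ w (ρ (Equiv.swap a q) (ρ (Equiv.swap a c) w)) := by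
          rw [rep_mul_apply, rep_mul_apply, h2]
      _ = inner ℝ w (ρ (Equiv.swap a c) w) := by
          rw [inner_swap_left hρ, hw.2 a ha q hq]
  have h3 : inner ℝ w (∑ q ∈ J, ρ (Equiv.swap c q) w) =
      (J.card : ℝ) * inner ℝ w (ρ (Equiv.swap a c) w) := by
    rw [inner_sum, Finset.sum_congr rfl heq, Finset.sum_const, nsmul_eq_mul]
  rw [hsum, inner_neg_right] at h3
  have hpos : (0 : ℝ) < J.card := by exact_mod_cast Finset.card_pos.mpr ⟨a, ha⟩
  have h4 : (0 : ℝ) ≤ inner ℝ w w := real_inner_self_nonneg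
  by_contra hlt
  have := mul_pos hpos (lt_of_not_ge hlt)
  linarith

/-- (M5) The column lemma. -/
theorem column {ρ : Representation ℝ (Equiv.Perm α) V} (hρ : IsOrth ρ) (j : ℕ) :
    ∀ (n : ℕ) (N : Finset α) (U : Submodule ℝ V), N.card = n → U ≠ ⊥ → Stab ρ U N →
      NoInv ρ U N (j + 1) → ∃ C ⊆ N, N.card ≤ j * C.card ∧ U ⊓ InvJ (tw ρ) C ≠ ⊥ := by
  intro n
  induction n using Nat.strong_induction_on with
  | _ n ih =>
  intro N U hn hU hS hno
  rcases N.eq_empty_or_nonempty with rfl | ⟨x, hx⟩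
  · exact ⟨∅, Subset.rfl, by simp, by simpa [invJ_empty] using hU⟩
  obtain ⟨J, hJ, hne, hnoJ⟩ := exists_row ρ hU N
  have hJj : J.card ≤ j := card_le_of_noInv hno hJ hne
  have hJpos : 0 < J.card := by
    have := card_le_of_noInv hnoJ (J := {x}) (by simpa using hx)
      (by simpa [invJ_singleton] using hU)
    simpa using this
  have hcard : (N \ J).card + J.card = N.card := card_sdiff_add_card_eq_card hJ
  obtain ⟨C', hC', hle, hne'⟩ := ih (N \ J).card (by omega) (N \ J) (U ⊓ InvJ ρ J) rfl hne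
    (stab_inf hS J) (noInv_sub hno inf_le_left sdiff_subset)
  obtain ⟨a, ha⟩ := Finset.card_pos.mp hJpos
  obtain ⟨w, hw, hw0⟩ := Submodule.exists_mem_ne_zero_of_ne_bot hne'
  have haC : a ∉ C' := fun h => (mem_sdiff.mp (hC' h)).2 ha
  have hsub : insert a C' ⊆ N := by
    intro c hc
    rcases mem_insert.mp hc with rfl | hc
    · exact hJ ha
    · exact (mem_sdiff.mp (hC' hc)).1
  refine ⟨insert a C', hsub, ?_, ?_⟩
  · rw [card_insert_of_notMem haC, mul_add]
    omega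
  · rw [Submodule.ne_bot_iff]
    refine ⟨∑ c ∈ insert a C', tw ρ (Equiv.swap a c) w, ⟨?_, sum_mem_invJ (tw ρ) haC hw.2⟩, ?_⟩
    · exact U.sum_mem fun c hc => tw_stab hS a (hJ ha) c (hsub hc) w hw.1.1
    · intro h0
      have h1 : inner ℝ w (∑ c ∈ insert a C', tw ρ (Equiv.swap a c) w) = 0 := by
        rw [h0, inner_zero_right]
      rw [sum_insert haC, inner_add_right, inner_sum] at h1
      have h2 : tw ρ (Equiv.swap a a) w = w := by
        rw [Equiv.swap_self]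
        change tw ρ 1 w = w
        simp
      have h3 : 0 ≤ ∑ c ∈ C', inner ℝ w (tw ρ (Equiv.swap a c) w) := by
        refine sum_nonneg fun c hc => ?_
        have hc' := mem_sdiff.mp (hC' hc)
        rw [tw_swap ρ (a := a) (b := c) (fun h => haC (h ▸ hc)), inner_neg_right]
        exact neg_nonneg.mpr (inner_swap_nonpos hρ hS hJ hnoJ ha hc'.1 hc'.2 hw.1)
      rw [h2] at h1
      have h4 : (0 : ℝ) < inner ℝ w w := real_inner_self_pos.mpr hw0
      linarith

/-- The data produced by removing a longest row or column. -/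
def Strip (ρ : Representation ℝ (Equiv.Perm α) V) (U : Submodule ℝ V) (N : Finset α) : Prop :=
  ∃ (J : Finset α) (U' : Submodule ℝ V), J ⊆ N ∧ U' ≤ U ∧ U' ≠ ⊥ ∧ Stab ρ U' (N \ J) ∧
    NoInv ρ U N (J.card + 1) ∧ NoInv (tw ρ) U N (J.card + 1) ∧
    (∀ M, NoInv ρ U N (M + 1) → NoInv (tw ρ) U N (M + 1) → J.card ≤ M) ∧
    N.card ≤ J.card * J.card ∧
    (2 * J.card ≤ N.card →
      Nat.centralBinom J.card * finrank ℝ U' ≤ (J.card + 1) * finrank ℝ U)

theorem strip_aux {ρ : Representation ℝ (Equiv.Perm α) V} (hρ : IsOrth ρ) {U : Submodule ℝ V}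
    (hU : U ≠ ⊥) {N : Finset α} (hS : Stab ρ U N) {J : Finset α} (hJ : J ⊆ N)
    (hne : U ⊓ InvJ ρ J ≠ ⊥) (h1 : NoInv ρ U N (J.card + 1))
    (h2 : NoInv (tw ρ) U N (J.card + 1)) : Strip ρ U N := by
  refine ⟨J, U ⊓ InvJ ρ J, hJ, inf_le_left, hne, stab_inf hS J, h1, h2,
    fun M hM _ => card_le_of_noInv hM hJ hne, ?_, fun h => ?_⟩
  · obtain ⟨C, hC, hle, hne'⟩ := column hρ J.card N.card N U rfl hU hS h1
    exact hle.trans (Nat.mul_le_mul_left _ (card_le_of_noInv h2 hC hne'))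
  · have := ballot_mult ρ hρ U N hS J hJ h1 J.card le_rfl (by omega)
    rwa [Nat.centralBinom_eq_two_mul_choose, two_mul]

theorem strip {ρ : Representation ℝ (Equiv.Perm α) V} (hρ : IsOrth ρ) {U : Submodule ℝ V}
    (hU : U ≠ ⊥) {N : Finset α} (hS : Stab ρ U N) : Strip ρ U N := by
  obtain ⟨J₁, hJ₁, hne₁, hno₁⟩ := exists_row ρ hU N
  obtain ⟨J₂, hJ₂, hne₂, hno₂⟩ := exists_row (tw ρ) hU N
  rcases le_total J₂.card J₁.card with h | h
  · exact strip_aux hρ hU hS hJ₁ hne₁ hno₁ (noInv_mono hno₂ (by omega))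
  · obtain ⟨J, U', a1, a2, a3, a4, a5, a6, a7, a8, a9⟩ := strip_aux (tw_orth hρ) hU (tw_stab hS)
      hJ₂ hne₂ hno₂ (by rw [tw_tw]; exact noInv_mono hno₁ (by omega))
    rw [tw_tw] at a6 a7
    have a4' := tw_stab a4
    rw [tw_tw] at a4'
    exact ⟨J, U', a1, a2, a3, a4', a6, a5, fun M b1 b2 => a7 M b2 b1, a8, a9⟩

omit [Fintype α] [DecidableEq α] in
theorem one_le_finrank {U : Submodule ℝ V} (hU : U ≠ ⊥) : (1 : ℝ) ≤ finrank ℝ U := by
  have : finrank ℝ U ≠ 0 := fun h => hU (Submodule.finrank_eq_zero.mp h)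
  exact_mod_cast Nat.one_le_iff_ne_zero.mpr this

theorem exists_j0 : ∃ j₀ : ℕ, ∀ j, j₀ ≤ j →
    (399 / 100 : ℝ) ^ j * ((j : ℝ) + 1) ≤ Nat.centralBinom j := by
  have ht := tendsto_pow_const_div_const_pow_of_one_lt 2 (r := (400 / 399 : ℝ)) (by norm_num)
  have hev := ht.eventually (gt_mem_nhds (show (0 : ℝ) < 1 / 2 by norm_num))
  obtain ⟨j₁, hj₁⟩ := Filter.eventually_atTop.mp hev
  refine ⟨max j₁ 4, fun j hj => ?_⟩
  have h1 := hj₁ j (le_of_max_le_left hj)
  have h4 : 4 ≤ j := le_of_max_le_right hj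
  have h2 : (4 : ℝ) ^ j < j * Nat.centralBinom j := by
    exact_mod_cast Nat.four_pow_lt_mul_centralBinom j h4
  have hj' : (4 : ℝ) ≤ j := by exact_mod_cast h4
  have hr : (0 : ℝ) < (400 / 399) ^ j := by positivity
  rw [div_lt_iff₀ hr] at h1
  have h3 : (399 / 100 : ℝ) ^ j * (400 / 399) ^ j = 4 ^ j := by
    rw [← mul_pow]; norm_num
  have hp : (0 : ℝ) < (399 / 100) ^ j := by positivity
  have h5 : (j : ℝ) * ((j : ℝ) + 1) ≤ (400 / 399) ^ j := by nlinarith
  have h6 : (j : ℝ) * ((399 / 100 : ℝ) ^ j * ((j : ℝ) + 1)) ≤ j * Nat.centralBinom j := by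
    calc (j : ℝ) * ((399 / 100 : ℝ) ^ j * ((j : ℝ) + 1))
        = (399 / 100 : ℝ) ^ j * ((j : ℝ) * ((j : ℝ) + 1)) := by ring
      _ ≤ (399 / 100 : ℝ) ^ j * (400 / 399) ^ j := by gcongr
      _ ≤ j * Nat.centralBinom j := by rw [h3]; exact h2.le
  exact le_of_mul_le_mul_left h6 (by linarith)

omit [Fintype α] [DecidableEq α] [FiniteDimensional ℝ V] in
theorem gain {j₀ : ℕ} (hj₀ : ∀ j, j₀ ≤ j →
      (399 / 100 : ℝ) ^ j * ((j : ℝ) + 1) ≤ Nat.centralBinom j) {j : ℕ} (hj : j₀ ≤ j)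
    {U U' : Submodule ℝ V} (h : Nat.centralBinom j * finrank ℝ U' ≤ (j + 1) * finrank ℝ U) :
    (399 / 100 : ℝ) ^ j * finrank ℝ U' ≤ finrank ℝ U := by
  have h1 : (Nat.centralBinom j : ℝ) * finrank ℝ U' ≤ ((j : ℝ) + 1) * finrank ℝ U := by
    exact_mod_cast h
  have h2 := hj₀ j hj
  have h3 : ((j : ℝ) + 1) * ((399 / 100 : ℝ) ^ j * finrank ℝ U') ≤
      ((j : ℝ) + 1) * finrank ℝ U := by
    calc ((j : ℝ) + 1) * ((399 / 100 : ℝ) ^ j * finrank ℝ U')
        = ((399 / 100 : ℝ) ^ j * ((j : ℝ) + 1)) * finrank ℝ U' := by ring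
      _ ≤ (Nat.centralBinom j : ℝ) * finrank ℝ U' := by gcongr
      _ ≤ _ := h1
  exact le_of_mul_le_mul_left h3 (by positivity)

/-- Repeated stripping. -/
theorem claim {ρ : Representation ℝ (Equiv.Perm α) V} (hρ : IsOrth ρ) {j₀ : ℕ}
    (hj₀ : ∀ j, j₀ ≤ j → (399 / 100 : ℝ) ^ j * ((j : ℝ) + 1) ≤ Nat.centralBinom j) (M : ℕ) :
    ∀ (a : ℕ) (N : Finset α) (U : Submodule ℝ V), U ≠ ⊥ → Stab ρ U N → NoInv ρ U N (M + 1) →
      NoInv (tw ρ) U N (M + 1) → max (2 * M) (j₀ * j₀) + a ≤ N.card →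
      (399 / 100 : ℝ) ^ a ≤ finrank ℝ U := by
  intro a
  induction a using Nat.strong_induction_on with
  | _ a ih =>
  intro N U hU hS h1 h2 hN
  rcases Nat.eq_zero_or_pos a with rfl | hapos
  · simpa using one_le_finrank hU
  obtain ⟨J, U', a1, a2, a3, a4, -, -, a7, a8, a9⟩ := strip hρ hU hS
  have hJM : J.card ≤ M := a7 M h1 h2
  have hm1 : 2 * M ≤ max (2 * M) (j₀ * j₀) := le_max_left _ _
  have hm2 : j₀ * j₀ ≤ max (2 * M) (j₀ * j₀) := le_max_right _ _
  have hlt : j₀ < J.card := by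
    by_contra hge
    have := Nat.mul_le_mul (not_lt.mp hge) (not_lt.mp hge)
    omega
  have hg := gain hj₀ hlt.le (a9 (by omega))
  have hcard : (N \ J).card + J.card = N.card := card_sdiff_add_card_eq_card a1
  rcases le_or_gt a J.card with hle | hgt
  · calc (399 / 100 : ℝ) ^ a ≤ (399 / 100 : ℝ) ^ J.card * 1 := by
          rw [mul_one]; exact pow_le_pow_right₀ (by norm_num) hle
      _ ≤ (399 / 100 : ℝ) ^ J.card * finrank ℝ U' := by
          gcongr; exact one_le_finrank a3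
      _ ≤ _ := hg
  · have := ih (a - J.card) (by omega) (N \ J) U' a3 a4 (noInv_sub h1 a2 sdiff_subset)
      (noInv_sub h2 a2 sdiff_subset) (by omega)
    calc (399 / 100 : ℝ) ^ a = (399 / 100 : ℝ) ^ J.card * (399 / 100 : ℝ) ^ (a - J.card) := by
          rw [← pow_add]; congr 1; omega
      _ ≤ (399 / 100 : ℝ) ^ J.card * finrank ℝ U' := by gcongr
      _ ≤ _ := hg

theorem choose_mono_half (n : ℕ) {a b : ℕ} (hab : a ≤ b) (hb : b ≤ n / 2) :
    n.choose a ≤ n.choose b := by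
  induction b, hab using Nat.le_induction with
  | base => exact le_rfl
  | succ b _ ih => exact (ih (by omega)).trans (Nat.choose_le_succ_of_lt_half_left (by omega))

end Mult2

open Mult2 in
/-- (High level multiplicity.) Use `sum_swap_eq_neg` and `ballot_mult` from `Mult1` as black
boxes. `tw ρ` is orthogonal if `ρ` is, `Stab (tw ρ) U N ↔ Stab ρ U N`, `tw (tw ρ) = ρ`.
For `U ≠ ⊥` stable under `N` let `row ρ U N` be the largest `j` such that `U ⊓ InvJ ρ J ≠ ⊥` for some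
`J ⊆ N`, `|J| = j` (`j = 0` works); then `NoInv ρ U N (j+1)`; and `NoInv .. m` implies
`NoInv .. m'` for `m ≤ m'` (`InvJ` is antitone).

(M5) Column lemma: if `U ≠ ⊥`, `Stab ρ U N`, `NoInv ρ U N (j+1)` then there is `C ⊆ N` with
`|N| ≤ j * |C|` and `U ⊓ InvJ (tw ρ) C ≠ ⊥`. Strong induction on `|N|`; if `N = ∅` take `C = ∅`.
Otherwise take `J` maximal (`1 ≤ |J| ≤ j` since singletons are trivial), `U' = U ⊓ InvJ ρ J` is
stable under `N \ J` (disjoint transpositions commute), get `C' ⊆ N \ J` and `w ≠ 0` in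
`U' ⊓ InvJ (tw ρ) C'`. Pick `a ∈ J`; `w' = w + ∑ c ∈ C', (tw ρ) (swap a c) w` is `tw ρ`-invariant
under `insert a C'` (same computation as in `sum_swap_eq_neg`) and
`⟪w, w'⟫ = ‖w‖² - ∑ c, ⟪w, τ a c w⟫ ≥ ‖w‖² > 0`, because `∑ q ∈ J, ⟪w, τ c q w⟫ = -‖w‖²`
(`sum_swap_eq_neg`) and all the terms are equal (conjugate by `τ q q'`).

(M6) Fix `j₀` with `(399/100)^j (j+1) ≤ centralBinom j` for `j ≥ j₀`
(`Nat.four_pow_lt_mul_centralBinom`). Strip: if `M₁ = max (row ρ) (row (tw ρ))`, attained for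
`σ ∈ {ρ, tw ρ}` and `J`, then `|N| ≤ M₁²` by (M5), and if `2 M₁ ≤ |N|`, `j₀ ≤ M₁`, then `ballot_mult`
(for `σ`, `b = M₁`) gives `finrank U ≥ (399/100)^M₁ * finrank (U ⊓ InvJ σ J)`, where
`U ⊓ InvJ σ J ≠ ⊥` is stable under `N \ J` and inherits both `NoInv` properties.
Claim (strong induction on `a`): if `NoInv ρ U N (M+1)`, `NoInv (tw ρ) U N (M+1)`, `U ≠ ⊥`,
`max (2M) (j₀²) + a ≤ |N|` then `(399/100)^a ≤ finrank U`.

Main: let `n = card α`, `j = row ρ U univ ≤ n - k₀`. If `n ≤ 2 j`: `ballot_mult` with `b = n - j`,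
`k₀ ≤ b ≤ n/2`, gives the first alternative (monotonicity of `choose` below the middle).
Otherwise `M₁ ≤ n/2`; if `n ≤ 3 M₁` one strip gives `finrank U ≥ (399/100)^M₁`; else the claim with
`M = M₁`, `a = n - max (2 M₁) (j₀²)`, `3 a ≥ n - 3 j₀²`. Small `n` are absorbed in
`C = (399/100)^(3 j₀² + ..)` (`finrank U ≥ 1`). -/
theorem high_mult : ∃ C : ℝ, 0 < C ∧ ∀ (α V : Type) [Fintype α] [DecidableEq α]
    [NormedAddCommGroup V] [InnerProductSpace ℝ V] [FiniteDimensional ℝ V]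
    (ρ : Representation ℝ (Equiv.Perm α) V), IsOrth ρ → ∀ U : Submodule ℝ V, Stab ρ U univ →
    U ≠ ⊥ → ∀ k₀ : ℕ, 2 * k₀ ≤ Fintype.card α →
    NoInv ρ U univ (Fintype.card α - k₀ + 1) →
    NoInv (tw ρ) U univ (Fintype.card α / 2 + 1) →
    ((Fintype.card α).choose k₀ : ℝ) ≤ (Fintype.card α + 1) * (finrank ℝ U : ℝ) ∨
      (399 / 100 : ℝ) ^ Fintype.card α ≤ C * (finrank ℝ U : ℝ) ^ 3 := by
  obtain ⟨j₀, hj₀⟩ := exists_j0
  refine ⟨(399 / 100 : ℝ) ^ (3 * (j₀ * j₀)), by positivity, ?_⟩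
  intro α V _ _ _ _ _ ρ hρ U hS hU k₀ hk₀ hno hno'
  set n := Fintype.card α with hn
  have huniv : (univ : Finset α).card = n := card_univ
  have hd : (1 : ℝ) ≤ finrank ℝ U := one_le_finrank hU
  obtain ⟨J, hJ, hne, hnoJ⟩ := exists_row ρ hU univ
  have hJk : J.card ≤ n - k₀ := card_le_of_noInv hno hJ hne
  rcases le_or_gt n (2 * J.card) with hbig | hsmall
  · left
    have h1 := ballot_mult ρ hρ U univ hS J hJ hnoJ (n - J.card) (by omega) (by omega)
    have h2 : J.card + (n - J.card) = n := by omega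
    rw [h2] at h1
    have h3 : n.choose k₀ ≤ n.choose (n - J.card) := choose_mono_half n (by omega) (by omega)
    have h4 : 1 ≤ finrank ℝ (U ⊓ InvJ ρ J : Submodule ℝ V) := by
      exact_mod_cast one_le_finrank hne
    have h5 : n.choose k₀ ≤ (n + 1) * finrank ℝ U := by
      calc n.choose k₀ ≤ n.choose (n - J.card) * 1 := by omega
        _ ≤ n.choose (n - J.card) * finrank ℝ (U ⊓ InvJ ρ J : Submodule ℝ V) :=
          Nat.mul_le_mul_left _ h4
        _ ≤ (J.card + 1) * finrank ℝ U := h1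
        _ ≤ (n + 1) * finrank ℝ U := Nat.mul_le_mul_right _ (by omega)
    exact_mod_cast h5
  · right
    suffices h : ∃ a : ℕ, n ≤ 3 * (j₀ * j₀) + a * 3 ∧ (399 / 100 : ℝ) ^ a ≤ finrank ℝ U by
      obtain ⟨a, ha, hle⟩ := h
      calc (399 / 100 : ℝ) ^ n ≤ (399 / 100 : ℝ) ^ (3 * (j₀ * j₀) + a * 3) :=
            pow_le_pow_right₀ (by norm_num) ha
        _ = (399 / 100 : ℝ) ^ (3 * (j₀ * j₀)) * ((399 / 100 : ℝ) ^ a) ^ 3 := by
            rw [pow_add, pow_mul _ a 3]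
        _ ≤ _ := by gcongr
    rcases le_or_gt n (j₀ * j₀) with hn0 | hn0
    · exact ⟨0, by omega, by simpa using hd⟩
    obtain ⟨J', U', a1, a2, a3, a4, a5, a6, a7, a8, a9⟩ := strip hρ hU hS
    have hM : J'.card ≤ n / 2 := a7 (n / 2) (noInv_mono hnoJ (by omega)) hno'
    have hlt : j₀ < J'.card := by
      by_contra hge
      have := Nat.mul_le_mul (not_lt.mp hge) (not_lt.mp hge)
      omega
    rcases le_or_gt n (3 * J'.card) with h3 | h3
    · refine ⟨J'.card, by omega, ?_⟩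
      have hg := gain hj₀ hlt.le (a9 (by omega))
      calc (399 / 100 : ℝ) ^ J'.card = (399 / 100 : ℝ) ^ J'.card * 1 := (mul_one _).symm
        _ ≤ (399 / 100 : ℝ) ^ J'.card * finrank ℝ U' := by
            gcongr; exact one_le_finrank a3
        _ ≤ _ := hg
    · refine ⟨n - max (2 * J'.card) (j₀ * j₀), by omega, ?_⟩
      exact claim hρ hj₀ J'.card _ univ U hU hS a5 a6 (by omega)

end Crest.Agent.R155
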