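import Crest.Agent.R155.Numerics_A

set_option autoImplicit false

namespace Crest.Agent.R155

open Finset Filter Topology

namespace Num

lemma mid_bound (a b : ℕ) (ha : 1 ≤ a) (hb : 1 ≤ b) {N k l d : ℕ} (hN : 1 ≤ N) (Q z ρ : ℝ)
    (hQ : 0 ≤ Q) (hz : 0 < z) (hk : k = a * N + d) (hl : b * N = l + d) (hal : a * N ≤ l)
    (hρ : ((a : ℝ) * (500 / 1359)) ^ a * ((b : ℝ) * (500 / 1359)) ^ b / (64 * z) ^ (a + b)
      * (1 + 2 * z + Q * z ^ 2) ^ 32 ≤ ρ) :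
    zb Q (32 * N) (k + l) z / ((k + l).choose k : ℝ) ≤ 9 * a * b * (N : ℝ) ^ 2 * ρ ^ N := by
  have hN0 : (0:ℝ) < N := by exact_mod_cast hN
  rw [zb_div_choose]
  have h1 : (k.factorial : ℝ) * l.factorial ≤ (a * N).factorial * (b * N).factorial := by
    rw [hk, hl]; exact_mod_cast fact_mul_le (a * N) l d hal
  have h2 : k + l = (a + b) * N := by rw [hk, add_mul, hl]; ring
  have h3 : (2 * ((32 * N : ℕ) : ℝ)) * z = 64 * z * N := by push_cast; ring
  rw [h2, h3]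
  calc _ ≤ (3 * a * N * (((a : ℝ) * (500 / 1359)) ^ a) ^ N * (N : ℝ) ^ (a * N))
        * (3 * b * N * (((b : ℝ) * (500 / 1359)) ^ b) ^ N * (N : ℝ) ^ (b * N))
        / (64 * z * N) ^ ((a + b) * N) * (1 + 2 * z + Q * z ^ 2) ^ (32 * N) := by
        have h4 := h1.trans (mul_le_mul (stirling_mul a ha hN) (stirling_mul b hb hN)
          (by positivity) (by positivity))
        gcongr
    _ = 9 * a * b * (N : ℝ) ^ 2 * (((a : ℝ) * (500 / 1359)) ^ a * ((b : ℝ) * (500 / 1359)) ^ b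
        / (64 * z) ^ (a + b) * (1 + 2 * z + Q * z ^ 2) ^ 32) ^ N := by
        rw [mul_pow (64 * z), add_mul a b N, pow_add (N : ℝ), ← add_mul, pow_mul (64 * z),
          pow_mul _ 32 N, mul_pow _ _ N, div_pow, mul_pow _ _ N]
        field_simp
        norm_num
    _ ≤ _ := by gcongr

lemma top_bound {N : ℕ} (hN : 1 ≤ N) (Q σ : ℝ) (hQ : 0 ≤ Q)
    (hσ : ((64 : ℝ) * (500 / 1359)) ^ 64 / (64 * 1000) ^ 64
      * (1 + 2 * 1000 + Q * 1000 ^ 2) ^ 32 ≤ σ) :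
    zb Q (32 * N) (64 * N) 1000 ≤ 192 * N * σ ^ N := by
  have hN0 : (0:ℝ) < N := by exact_mod_cast hN
  have h3 : (2 * ((32 * N : ℕ) : ℝ)) * 1000 = 64 * 1000 * N := by push_cast; ring
  unfold zb
  rw [h3]
  have h1 := stirling_mul 64 (by norm_num) hN
  push_cast at h1
  calc _ ≤ (3 * 64 * N * (((64 : ℝ) * (500 / 1359)) ^ 64) ^ N * (N : ℝ) ^ (64 * N))
        / (64 * 1000 * N) ^ (64 * N) * (1 + 2 * 1000 + Q * 1000 ^ 2) ^ (32 * N) := by gcongr
    _ = 192 * N * (((64 : ℝ) * (500 / 1359)) ^ 64 / (64 * 1000) ^ 64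
      * (1 + 2 * 1000 + Q * 1000 ^ 2) ^ 32) ^ N := by
        rw [mul_pow (64 * 1000 : ℝ), pow_mul (64 * 1000 : ℝ), pow_mul _ 32 N, mul_pow _ _ N, div_pow]
        generalize ((64 : ℝ) * (500 / 1359)) ^ 64 = A
        generalize (1 + 2 * 1000 + Q * 1000 ^ 2) ^ 32 = B
        have : ((64 * 1000 : ℝ) ^ 64) ^ N ≠ 0 := by positivity
        generalize ((64 * 1000 : ℝ) ^ 64) ^ N = D at *
        field_simp
        ring
    _ ≤ _ := by gcongr

lemma ev_small (K : ℝ) (d : ℕ) {δ : ℝ} (hδ : 0 < δ) :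
    ∀ᶠ N : ℕ in atTop, K * ((N : ℝ) ^ d * (1 / 2) ^ N) ≤ δ := by
  have h := (tendsto_pow_const_mul_const_pow_of_abs_lt_one d
    (r := (1 / 2 : ℝ)) (by rw [abs_of_pos] <;> norm_num)).const_mul K
  rw [mul_zero] at h
  exact h.eventually (ge_mem_nhds hδ)

end Num

open Crest.Agent.R155.Num

/-- The final estimate; `n = 64 N` positions, `zb Q h k z = k! / (2 h z)^k * (1 + 2z + Q z²)^h`
with `h = 32 N`. Only the upper Stirling bound `m! ≤ e √m (m/e)^m` (`m ≥ 1`, from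
`Stirling.stirlingSeq'_antitone` / `stirlingSeq_one`) is needed, since `k'!` cancels:
`Z k' / C(k', k) ≤ k! l! (n z)^(-k') P(z)^h` with `l = k' - k`, `P(z) = 1 + 2z + 19 z²`,
and `P(z)^h ≤ exp (n z + 19 n z² / 2)`.

* `k = 0`: `κ 0 = 0`, term `Z 0 ^ 32 ≤ exp (32 (n z + 19 n z²/2))` with `z = 1/n²`, tends to `1`.
* `1 ≤ k < 4N`, `y = k/n ≤ 1/16`: `κ k = k + l`, `l = ⌈√(k n) / 4⌉₊` (so `l ≤ √(kn)/4 + 1`,
  `2k + l ≤ n`). With `z = y`: `C(n,k) Z k ≤ y^(-k) exp (k + 19 y k / 2)` (`C(n,k) k! ≤ n^k`).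
  With `z = l/n`: `Z (κ k)/C(κ k, k) ≤ k! l^(-k) (l!/l^l) exp (l + 19 l²/(2n))
  ≤ const * √(l k) * (√y * exp (19/32) * 4 / e)^k`, and `exp (19/32) * 4/e ≤ exp (0.9801)`,
  `l ≤ √(kn) = k / √y`. So the term is at most
  `const * k^31 * y^(-31/4) * (exp 33 * y^(29/2))^k * exp (-k)`; since `exp 33 * y^(29/2) ≤ 1`
  and `k ≥ 1` this is `≤ const * k^31 * y^(27/4) * exp (-k) ≤ const * k^32 exp (-k) / n`.
  The sum over `k` is `O(1/n)`.
* `4N ≤ k < 12N`: `κ k = 13 N` for `k ≤ 9N` (`C(13N,k) ≥ C(13N,4N)`), `κ k = 21 N` for `k ≥ 9N`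
  (`C(21N,k) ≥ C(21N,9N)`); with `z = 1/10` resp. `z = 3/20`:
  `Z(aN)/C(aN,bN) ≤ e² a N * [b^b (a-b)^(a-b) / (64 e z)^a * P(z)^32]^N`, and
  `Z n ≤ e √n * [(19.01)^32 / e^64]^N` (`z = 1000`). In logarithms per position:
  `log(19.01)/2 - 1 = 0.4725`, the two brackets are at most `exp (-64 * 0.0199)` resp.
  `exp (-64 * 0.0220)`, and `31 * 0.0199 > 0.4725`. Take `m` = max of the two bounds.
* high part: `Y ≤ n! n^(-n) (17.41)^h` (`z = 1000`), `log (17.41)/2 - 1 = 0.42853`.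
  Case 1: `Y / mh ≤ (n+1) (12N)! (52N)! n^(-n) 17.41^h`, exponent per position
  `0.4286 - H(3/16) = 0.4286 - 0.4825`, and `15 * 0.0539 > 0.4286`.
  Case 2: `(Y (Y/mh)^15)^3 ≤ C^15 Y^48 / (399/100)^(15 n)`, `48 * 0.42853 < 15 * log 3.99 = 20.756`.
All exponentially small terms are `poly(N) * r^N` with `r < 1`. -/
theorem numerics (C : ℝ) (hC : 0 < C) (ε : ℝ) (hε : 0 < ε) :
    ∃ N₀ : ℕ, ∀ N ≥ N₀, ∀ (Z : ℕ → ℝ) (Y mh : ℝ), (∀ k, 0 ≤ Z k) →
      (∀ k ≤ 64 * N, ∀ z : ℝ, 0 < z → Z k ≤ zb 19 (32 * N) k z) → 0 ≤ Y →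
      (∀ z : ℝ, 0 < z → Y ≤ zb (87 / 5) (32 * N) (64 * N) z) → 0 < mh →
      ((((64 * N).choose (12 * N) : ℕ) : ℝ) ≤ ((64 * N : ℕ) + 1) * mh ∨
        (399 / 100 : ℝ) ^ (64 * N) ≤ C * mh ^ 3) →
      ∃ (κ : ℕ → ℕ) (m : ℝ), 0 ≤ m ∧ (∀ k < 12 * N, k ≤ κ k ∧ k + κ k ≤ 64 * N) ∧
        (∀ k, 4 * N ≤ k → k < 12 * N → Z (κ k) / ((κ k).choose k : ℝ) ≤ m) ∧
        ∑ k ∈ range (4 * N), ((64 * N).choose k : ℝ) * Z k *
            (Z (κ k) / ((κ k).choose k : ℝ)) ^ 31 +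
          Z (64 * N) * m ^ 31 + Y * (Y / mh) ^ 15 ≤ 1 + ε := by
  have hδ : 0 < ε / 3 := by positivity
  have e1 : ∀ᶠ N : ℕ in atTop, 4 * Klow / (N : ℝ) ≤ ε / 3 :=
    (tendsto_const_div_atTop_nhds_zero_nat (4 * Klow)).eventually (ge_mem_nhds hδ)
  have e2 := ev_small (192 * 972 ^ 31) 63 hδ
  have e3 := ev_small (192 * (65 * 5616) ^ 15) 46 hδ
  have e4 := ev_small (C ^ 15 * 192 ^ 48) 48 (pow_pos hδ 3)
  obtain ⟨N₀, hN₀⟩ := eventually_atTop.1 (e1.and (e2.and (e3.and (e4.and (eventually_ge_atTop 1)))))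
  refine ⟨N₀, fun N hN Z Y mh hZ0 hZ hY0 hY hmh hcase => ?_⟩
  obtain ⟨e1, e2, e3, e4, hN1⟩ := hN₀ N hN
  have hN0 : (0:ℝ) < N := by exact_mod_cast hN1
  have hN1' : (1:ℝ) ≤ N := by exact_mod_cast hN1
  let κ : ℕ → ℕ := fun k => if k = 0 then 0 else if k < 4 * N then k + ell N k
    else if k ≤ 9 * N then 13 * N else 21 * N
  refine ⟨κ, 972 * (N : ℝ) ^ 2 * (3 / 10) ^ N, by positivity, fun k hk => ?_,
    fun k hk1 hk2 => ?_, ?_⟩
  · simp only [κ]
    split_ifs with h1 h2 h3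
    · omega
    · have := ell_le h2; omega
    · omega
    · omega
  · have hk0 : k ≠ 0 := by omega
    simp only [κ, if_neg hk0, if_neg (not_lt.2 hk1)]
    split_ifs with h3
    · obtain ⟨l, hl⟩ : ∃ l, 13 * N = k + l := ⟨13 * N - k, by omega⟩
      have h4 := mid_bound 4 9 (by norm_num) (by norm_num) (k := k) (l := l) (d := k - 4 * N) hN1
        19 (1 / 10) (3 / 10) (by norm_num) (by norm_num) (by omega) (by omega) (by omega)
        (by norm_num)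
      rw [hl]
      calc _ ≤ zb 19 (32 * N) (k + l) (1 / 10) / ((k + l).choose k : ℝ) := by
            gcongr; exact hZ _ (by omega) _ (by norm_num)
        _ ≤ _ := h4
        _ ≤ _ := by gcongr; norm_num
    · obtain ⟨l, hl⟩ : ∃ l, 21 * N = k + l := ⟨21 * N - k, by omega⟩
      have h4 := mid_bound 9 12 (by norm_num) (by norm_num) (k := k) (l := l) (d := k - 9 * N) hN1
        19 (3 / 20) (3 / 10) (by norm_num) (by norm_num) (by omega) (by omega) (by omega)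
        (by norm_num)
      rw [hl]
      calc _ ≤ zb 19 (32 * N) (k + l) (3 / 20) / ((k + l).choose k : ℝ) := by
            gcongr; exact hZ _ (by omega) _ (by norm_num)
        _ ≤ _ := h4
        _ ≤ _ := by gcongr; norm_num
  have hKl : 0 ≤ Klow := by unfold Klow; positivity
  have p1 : ∑ k ∈ range (4 * N), ((64 * N).choose k : ℝ) * Z k *
      (Z (κ k) / ((κ k).choose k : ℝ)) ^ 31 ≤ 1 + ε / 3 := by
    have h1 : ∀ k ∈ range (4 * N), ((64 * N).choose k : ℝ) * Z k *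
        (Z (κ k) / ((κ k).choose k : ℝ)) ^ 31 ≤ (if k = 0 then 1 else 0) + Klow / N ^ 2 := by
      intro k hk
      have hk := mem_range.1 hk
      by_cases h0 : k = 0
      · subst h0
        have h2 := Z_zero_le (hZ 0 (Nat.zero_le _))
        have h3 : Z 0 * Z 0 ^ 31 ≤ 1 := mul_le_one₀ h2 (pow_nonneg (hZ0 0) _)
          (pow_le_one₀ (hZ0 0) h2)
        have h4 : 0 ≤ Klow / (N : ℝ) ^ 2 := by positivity
        simp only [κ, if_true, Nat.choose_zero_right, Nat.cast_one, one_mul, div_one]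
        linarith
      · simp only [κ, if_neg h0, if_pos hk, zero_add]
        have := ell_le hk
        exact low (by omega) hk (hZ0 _) (hZ0 _) (hZ _ (by omega)) (hZ _ (by omega))
    refine (sum_le_sum h1).trans ?_
    rw [sum_add_distrib, sum_ite_eq', if_pos (mem_range.2 (by omega)), sum_const, card_range,
      nsmul_eq_mul]
    have : ((4 * N : ℕ) : ℝ) * (Klow / N ^ 2) = 4 * Klow / N := by push_cast; field_simp
    rw [this]; linarith
  have p2 : Z (64 * N) * (972 * (N : ℝ) ^ 2 * (3 / 10) ^ N) ^ 31 ≤ ε / 3 := by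
    have h1 := (hZ (64 * N) le_rfl 1000 (by norm_num)).trans
      (top_bound hN1 19 (2 * 10 ^ 13) (by norm_num) (by norm_num))
    refine le_trans ?_ e2
    calc _ ≤ 192 * N * (2 * 10 ^ 13) ^ N * (972 * (N : ℝ) ^ 2 * (3 / 10) ^ N) ^ 31 := by gcongr
      _ = 192 * 972 ^ 31 * ((N : ℝ) ^ 63 * (2 * 10 ^ 13 * (3 / 10) ^ 31) ^ N) := by
          rw [mul_pow _ ((3 / 10 : ℝ) ^ 31), ← pow_mul (3 / 10 : ℝ) 31 N, mul_comm 31 N,
            pow_mul (3 / 10 : ℝ) N 31]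
          generalize (3 / 10 : ℝ) ^ N = A
          generalize (2 * 10 ^ 13 : ℝ) ^ N = B
          ring
      _ ≤ _ := by gcongr; norm_num
  have hY1 := (hY 1000 (by norm_num)).trans
      (top_bound hN1 (87 / 5) (81 * 10 ^ 10) (by norm_num) (by norm_num))
  have p3 : Y * (Y / mh) ^ 15 ≤ ε / 3 := by
    rcases hcase with hc | hc
    · have h1 := mid_bound 12 52 (by norm_num) (by norm_num) (k := 12 * N) (l := 52 * N) (d := 0)
        hN1 (87 / 5) 1000 (1 / 30) (by norm_num) (by norm_num) (by omega) (by omega) (by omega)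
        (by norm_num)
      rw [show 12 * N + 52 * N = 64 * N by ring] at h1
      have hch : (0:ℝ) < ((64 * N).choose (12 * N) : ℕ) := by
        exact_mod_cast Nat.choose_pos (by omega)
      have h2 : Y / mh ≤ 65 * N * (5616 * (N : ℝ) ^ 2 * (1 / 30) ^ N) := by
        have h3 : Y / ((64 * N).choose (12 * N) : ℝ) ≤ 5616 * (N : ℝ) ^ 2 * (1 / 30) ^ N := by
          refine le_trans (by gcongr; exact hY 1000 (by norm_num)) (h1.trans ?_)
          norm_num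
        rw [div_le_iff₀ hch] at h3
        rw [div_le_iff₀ hmh]
        have h4 : (((64 * N).choose (12 * N) : ℕ) : ℝ) ≤ 65 * N * mh := by
          refine hc.trans ?_
          push_cast
          gcongr; linarith
        calc Y ≤ _ := h3
          _ ≤ 5616 * (N : ℝ) ^ 2 * (1 / 30) ^ N * (65 * N * mh) := by gcongr
          _ = _ := by ring
      refine le_trans ?_ e3
      calc _ ≤ 192 * N * (81 * 10 ^ 10) ^ N
            * (65 * N * (5616 * (N : ℝ) ^ 2 * (1 / 30) ^ N)) ^ 15 := by gcongr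
        _ = 192 * (65 * 5616) ^ 15 * ((N : ℝ) ^ 46 * (81 * 10 ^ 10 * (1 / 30) ^ 15) ^ N) := by
            rw [mul_pow _ ((1 / 30 : ℝ) ^ 15), ← pow_mul (1 / 30 : ℝ) 15 N, mul_comm 15 N,
              pow_mul (1 / 30 : ℝ) N 15]
            generalize (1 / 30 : ℝ) ^ N = A
            generalize (81 * 10 ^ 10 : ℝ) ^ N = B
            ring
        _ ≤ _ := by gcongr; norm_num
    · refine (pow_le_pow_iff_left₀ (by positivity) hδ.le three_ne_zero).1 (le_trans ?_ e4)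
      have h1 : (mh ^ 3)⁻¹ ≤ C / ((399 / 100 : ℝ) ^ 64) ^ N := by
        rw [← pow_mul, le_div_iff₀ (by positivity), inv_mul_le_iff₀ (by positivity)]
        linarith
      calc (Y * (Y / mh) ^ 15) ^ 3 = Y ^ 48 * ((mh ^ 3)⁻¹) ^ 15 := by field_simp
        _ ≤ (192 * N * (81 * 10 ^ 10) ^ N) ^ 48 * (C / ((399 / 100 : ℝ) ^ 64) ^ N) ^ 15 := by
            gcongr
        _ = C ^ 15 * 192 ^ 48 * ((N : ℝ) ^ 48
            * ((81 * 10 ^ 10) ^ 48 / ((399 / 100 : ℝ) ^ 64) ^ 15) ^ N) := by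
            rw [div_pow _ _ N, ← pow_mul _ 48 N, ← pow_mul _ 15 N, mul_comm 15 N, mul_comm 48 N,
              pow_mul _ N 15, pow_mul _ N 48]
            generalize ((399 / 100 : ℝ) ^ 64) ^ N = A
            generalize (81 * 10 ^ 10 : ℝ) ^ N = B
            ring
        _ ≤ _ := by
            have h2 : ((81 * 10 ^ 10) ^ 48 / ((399 / 100 : ℝ) ^ 64) ^ 15 : ℝ) ≤ 1 / 2 := by
              have h3 : (81 * 10 ^ 10 : ℝ) ^ 16 / ((399 / 100 : ℝ) ^ 64) ^ 5 ≤ 1 / 2 := by norm_num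
              calc _ = ((81 * 10 ^ 10 : ℝ) ^ 16 / ((399 / 100 : ℝ) ^ 64) ^ 5) ^ 3 := by
                    rw [div_pow _ _ 3, ← pow_mul _ 16 3, ← pow_mul _ 5 3]
                _ ≤ (1 / 2) ^ 3 := by gcongr
                _ ≤ _ := by norm_num
            gcongr
  linarith

end Crest.Agent.R155
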