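import Crest.Agent.R155.Renyi_Ind

set_option autoImplicit false

namespace Crest.Agent.R155

open Finset BigOperators

theorem Ren.rb_benes (τ x : ℝ) (hτ : 0 < τ) (hx : (2 : ℝ) ^ τ ≤ x) (j : ℕ) :
    Ren.RB (pairLaw (bfly j)) τ ((((2 : ℝ) ^ τ)⁻¹) ^ j) ((x / 2 + 1 / 4) ^ j)
      (Gf (x - 1) (x / 2 + 1 / 4) j) := by
  induction j with
  | zero =>
    intro ι _ g u hu X
    simp only [pow_zero, one_pow, one_mul, Gf, mul_one]
    refine expect_le univ_nonempty fun ω _ => ?_
    have h1 : kap (pairLaw (bfly 0)) X (pairLaw (bfly 0) ω) = 1 := by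
      unfold kap
      refine (expect_congr rfl (g := fun _ => (1 : ℝ)) fun ω' _ => if_pos fun _ _ => rfl).trans ?_
      exact Fintype.expect_const _
    rw [h1, Real.one_rpow, one_mul]
    refine (Ren.W_le u fun i => Ren.hit_self (g i) _ X).trans ?_
    rw [Ren.pay, Real.exp_sum]
    refine prod_le_prod (fun v _ => add_nonneg zero_le_one (sum_nonneg fun i _ => ?_))
      fun v hv => ?_
    · split_ifs
      exact hu i v
    · rw [add_comm, sum_congr rfl fun i _ => if_pos hv]
      exact Real.add_one_le_exp _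
  | succ j ih =>
    have h := Ren.step (pairLaw (bfly j)) τ x _ _ hτ hx (by positivity) _
      (fun X => (Gf_pos _ _ j X).le) ih
    rw [← pow_succ, ← pow_succ] at h
    exact Ren.RB.of_law (Ren.law_pair (bfly j)) h

/-- The Rényi recursion for the Beneš network. -/
theorem renyi (τ x : ℝ) (hτ : 0 < τ) (hx : (2 : ℝ) ^ τ ≤ x) (j : ℕ) (X : Finset (Pos j)) :
    𝔼 ω, kap (pairLaw (bfly j)) X (pairLaw (bfly j) ω) ^ τ ≤
      Gf (x - 1) (x / 2 + 1 / 4) j X / ((2 : ℝ) ^ j) ^ (τ * X.card) := by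
  have h := Ren.rb_benes τ x hτ hx j Empty (fun i => i.elim) (fun i => i.elim)
    (fun i => i.elim) X
  have hW : ∀ σ, Ren.W (ι := Empty) (fun i => i.elim) (fun i => i.elim) X σ = 1 := by
    intro σ
    obtain ⟨R, -, h⟩ := Ren.exists_W (ι := Empty) (fun i => i.elim) (fun i => i.elim) X σ
    rw [← h]
    simp [Ren.pay]
  simp only [hW, mul_one, univ_eq_empty, sum_empty, sum_const_zero, mul_zero, Real.exp_zero] at h
  refine h.trans_eq ?_
  rw [Real.rpow_mul (by positivity), Real.rpow_natCast, ← Real.rpow_pow_comm (by norm_num),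
    div_eq_inv_mul (Gf _ _ _ _), inv_pow, inv_pow]

end Crest.Agent.R155
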