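import Crest.Agent.R155.Dyson
import Crest.Agent.R155.Link
import Crest.Agent.R155.Mult2
import Crest.Agent.R155.Assembly
import Crest.Agent.R155.Kernel
import Crest.Agent.R155.GSum
import Crest.Agent.R155.Renyi
import Crest.Agent.R155.Numerics

set_option autoImplicit false

namespace Crest.Agent.R155

open Finset Module Matrix BigOperators Crest.ProbabilityR

theorem geom_lt (θ : ℝ) (h0 : 0 ≤ θ) (h1 : θ < 1) (j : ℕ) :
    ∑ i ∈ range j, θ ^ i ≤ 1 / (1 - θ) := by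
  have h : 0 < 1 - θ := by linarith
  rw [le_div_iff₀ h]
  have := mul_neg_geom_sum θ j
  have hp : 0 ≤ θ ^ j := pow_nonneg h0 j
  nlinarith

/-- The bound on the traces of powers of `Ahat`. -/
theorem trace_Ahat_le_zb (d p : ℕ) (hp : 1 ≤ p) (x Q : ℝ) (hx2 : (2 : ℝ) ≤ x ^ p) (hx1 : 1 ≤ x)
    (hx3 : x < 3 / 2) (hQ : Real.exp (p * (x - 1) * (1 / (1 - (x / 2 + 1 / 4)))) < Q)
    (J : Finset (Pos (d + 1))) (z : ℝ) (hz : 0 < z) :
    (Ahat (pairLaw (bfly (d + 1))) J ^ (p + 1)).trace ≤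
      zb Q (2 ^ d) (Fintype.card (Pos (d + 1)) - J.card) z := by
  have hp' : (0 : ℝ) < p := by exact_mod_cast hp
  have hτ : (0 : ℝ) < 1 / p := by positivity
  have hx : (2 : ℝ) ^ ((1 : ℝ) / p) ≤ x := by
    have h1 : (2 : ℝ) ^ ((1 : ℝ) / p) ≤ (x ^ p) ^ ((1 : ℝ) / p) :=
      Real.rpow_le_rpow (by norm_num) hx2 hτ.le
    refine h1.trans_eq ?_
    rw [one_div, Real.pow_rpow_inv_natCast (by linarith) (by omega)]
  have hQ0 : 0 < Q := lt_trans (Real.exp_pos _) hQ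
  have h1 := trace_Ahat_le (pairLaw (bfly (d + 1))) p hp (Gf (x - 1) (x / 2 + 1 / 4) (d + 1))
    (Gf_pos _ _ _) (fun X => by
      have := renyi (1 / p) x hτ hx (d + 1) X
      rw [card_Pos]
      exact_mod_cast this) J
  have hL : (p : ℝ) * (x - 1) * ∑ i ∈ range (d + 1), (x / 2 + 1 / 4) ^ i < Real.log Q := by
    rw [Real.lt_log_iff_exp_lt hQ0]
    refine lt_of_le_of_lt (Real.exp_le_exp.2 ?_) hQ
    exact mul_le_mul_of_nonneg_left (geom_lt _ (by linarith) (by linarith) _)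
      (mul_nonneg hp'.le (by linarith))
  have h2 := gsum (x - 1) (x / 2 + 1 / 4) p (Real.log Q) z (by linarith) (by linarith)
    (by exact_mod_cast hp) hz.le d hL
  rw [Real.exp_log hQ0] at h2
  set k := Fintype.card (Pos (d + 1)) - J.card with hk
  have h3 : z ^ k * ∑ X ∈ powersetCard k (univ : Finset (Pos (d + 1))),
      Gf (x - 1) (x / 2 + 1 / 4) (d + 1) X ^ p ≤ (1 + 2 * z + Q * z ^ 2) ^ (2 ^ d) := by
    refine le_trans ?_ h2
    rw [mul_sum]
    calc ∑ X ∈ powersetCard k (univ : Finset (Pos (d + 1))),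
          z ^ k * Gf (x - 1) (x / 2 + 1 / 4) (d + 1) X ^ p
        = ∑ X ∈ powersetCard k (univ : Finset (Pos (d + 1))),
          z ^ X.card * Gf (x - 1) (x / 2 + 1 / 4) (d + 1) X ^ (p : ℝ) := by
          refine sum_congr rfl fun X hX => ?_
          rw [(mem_powersetCard.1 hX).2, Real.rpow_natCast]
      _ ≤ _ := by
          refine sum_le_sum_of_subset_of_nonneg (subset_univ _) fun X _ _ => ?_
          exact mul_nonneg (pow_nonneg hz.le _) (Real.rpow_nonneg (Gf_pos _ _ _ _).le _)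
  refine h1.trans ?_
  unfold zb
  have hn : (Fintype.card (Pos (d + 1)) : ℝ) = 2 * ((2 ^ d : ℕ) : ℝ) := by
    rw [card_Pos]; push_cast; ring
  rw [hn, mul_pow _ z]
  have hzk : 0 < z ^ k := pow_pos hz k
  have hnk : (0 : ℝ) < (2 * ((2 ^ d : ℕ) : ℝ)) ^ k := by positivity
  calc (k.factorial : ℝ) / (2 * ((2 ^ d : ℕ) : ℝ)) ^ k *
        ∑ X ∈ powersetCard k (univ : Finset (Pos (d + 1))),
          Gf (x - 1) (x / 2 + 1 / 4) (d + 1) X ^ p
      = (k.factorial : ℝ) / ((2 * ((2 ^ d : ℕ) : ℝ)) ^ k * z ^ k) *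
        (z ^ k * ∑ X ∈ powersetCard k (univ : Finset (Pos (d + 1))),
          Gf (x - 1) (x / 2 + 1 / 4) (d + 1) X ^ p) := by
        field_simp
    _ ≤ _ := mul_le_mul_of_nonneg_left h3 (by positivity)

theorem exp_lt_19 : Real.exp (((31 : ℕ) : ℝ) * ((102262 / 100000 : ℝ) - 1) *
    (1 / (1 - ((102262 / 100000 : ℝ) / 2 + 1 / 4)))) < 19 := by
  have h1 : (((31 : ℕ) : ℝ) * ((102262 / 100000 : ℝ) - 1) *
    (1 / (1 - ((102262 / 100000 : ℝ) / 2 + 1 / 4)))) ≤ 3 - 6 / 100 := by norm_num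
  refine lt_of_le_of_lt (Real.exp_le_exp.2 h1) ?_
  rw [Real.exp_sub, div_lt_iff₀ (Real.exp_pos _)]
  have h2 : Real.exp 3 = Real.exp 1 ^ 3 := by rw [← Real.exp_nat_mul]; norm_num
  have h3 := Real.exp_one_lt_d9
  have h4 : (1 : ℝ) + 6 / 100 ≤ Real.exp (6 / 100) := by
    have := Real.add_one_le_exp (6 / 100 : ℝ); linarith
  have h5 : Real.exp 1 ^ 3 < 2.7182818286 ^ 3 := by
    exact pow_lt_pow_left₀ h3 (Real.exp_pos _).le (by norm_num)
  rw [h2]
  nlinarith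

theorem exp_lt_17 : Real.exp (((63 : ℕ) : ℝ) * ((101107 / 100000 : ℝ) - 1) *
    (1 / (1 - ((101107 / 100000 : ℝ) / 2 + 1 / 4)))) < 87 / 5 := by
  have h1 : (((63 : ℕ) : ℝ) * ((101107 / 100000 : ℝ) - 1) *
    (1 / (1 - ((101107 / 100000 : ℝ) / 2 + 1 / 4)))) ≤ 3 - 147 / 1000 := by norm_num
  refine lt_of_le_of_lt (Real.exp_le_exp.2 h1) ?_
  rw [Real.exp_sub, div_lt_iff₀ (Real.exp_pos _)]
  have h2 : Real.exp 3 = Real.exp 1 ^ 3 := by rw [← Real.exp_nat_mul]; norm_num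
  have h3 := Real.exp_one_lt_d9
  have h4 : (1 : ℝ) + 147 / 1000 + (147 / 1000) ^ 2 / 2 ≤ Real.exp (147 / 1000) :=
    Real.quadratic_le_exp_of_nonneg (by norm_num)
  have h5 : Real.exp 1 ^ 3 < 2.7182818286 ^ 3 := by
    exact pow_lt_pow_left₀ h3 (Real.exp_pos _).le (by norm_num)
  rw [h2]
  nlinarith

theorem zb_nonneg (Q : ℝ) (hQ : 0 ≤ Q) (h k : ℕ) (z : ℝ) (hz : 0 < z) : 0 ≤ zb Q h k z := by
  unfold zb
  positivity

theorem trace_le (ε : ℝ) (hε : 0 < ε) : ∃ d₀ : ℕ, ∀ d ≥ d₀,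
    (lawMat (pairLaw (bfly (d + 1))) ^ 1024).trace ≤ 1 + ε := by
  obtain ⟨C, hC, hhigh⟩ := high_mult
  obtain ⟨N₀, hN₀⟩ := numerics C hC ε hε
  refine ⟨N₀ + 5, fun d hd => ?_⟩
  obtain ⟨e, rfl⟩ : ∃ e, d = e + 5 := ⟨d - 5, by omega⟩
  set N : ℕ := 2 ^ e with hN
  have hNge : N ≥ N₀ := le_trans (by omega : N₀ ≤ e) (Nat.lt_two_pow_self).le
  have hNpos : 0 < N := by positivity
  have hcard : Fintype.card (Pos (e + 5 + 1)) = 64 * N := by rw [card_Pos, hN]; ring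
  have hh : 2 ^ (e + 5) = 32 * N := by rw [hN]; ring
  set π := pairLaw (bfly (e + 5 + 1)) with hπ
  have hsymm : SymmLaw π := symmLaw_pairLaw _
  have : Nonempty {z : ℝ // 0 < z} := ⟨⟨1, one_pos⟩⟩
  set Z : ℕ → ℝ := fun k => ⨅ z : {z : ℝ // 0 < z}, zb 19 (32 * N) k z with hZ
  set Y : ℝ := ⨅ z : {z : ℝ // 0 < z}, zb (87 / 5) (32 * N) (64 * N) z with hY
  set m₁ : ℝ := (((64 * N).choose (12 * N) : ℕ) : ℝ) / ((64 * N : ℕ) + 1) with hm₁
  set m₂ : ℝ := ((399 / 100 : ℝ) ^ (64 * N) / C) ^ ((3 : ℕ) : ℝ)⁻¹ with hm₂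
  have hm₁pos : 0 < m₁ := by
    have : 0 < (64 * N).choose (12 * N) := Nat.choose_pos (by omega)
    positivity
  have hm₂pos : 0 < m₂ := by positivity
  have hm₂cube : m₂ ^ 3 = (399 / 100 : ℝ) ^ (64 * N) / C :=
    Real.rpow_inv_natCast_pow (by positivity) (by norm_num)
  have hbdd : ∀ (Q : ℝ), 0 ≤ Q → ∀ h k : ℕ,
      BddBelow (Set.range fun z : {z : ℝ // 0 < z} => zb Q h k z) := fun Q hQ h k =>
    ⟨0, by rintro _ ⟨z, rfl⟩; exact zb_nonneg Q hQ h k z z.2⟩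
  obtain ⟨κ, m, hm0, hκ, hm, hfin⟩ := hN₀ N hNge Z Y (min m₁ m₂)
    (fun k => le_ciInf fun z => zb_nonneg _ (by norm_num) _ _ _ z.2)
    (fun k _ z hz => ciInf_le (hbdd 19 (by norm_num) _ _) ⟨z, hz⟩)
    (le_ciInf fun z => zb_nonneg _ (by norm_num) _ _ _ z.2)
    (fun z hz => ciInf_le (hbdd (87 / 5) (by norm_num) _ _) ⟨z, hz⟩)
    (lt_min hm₁pos hm₂pos)
    (by
      rcases min_choice m₁ m₂ with h | h
      · left
        rw [h, hm₁, mul_div_cancel₀ _ (by positivity)]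
      · right
        rw [h, hm₂cube, mul_div_cancel₀ _ hC.ne'])
  have key := assembly (rightReg (Pos (e + 5 + 1))) isOrth_rightReg (lawLin π)
    (lawLin_isSymmetric π hsymm) (lawLin_comm π) Z Y (min m₁ m₂) m (4 * N) (12 * N) κ
    (fun J B => (sum_le_trace_Ahat π hsymm 32 (by decide) J B).trans (le_ciInf fun z => by
      have := trace_Ahat_le_zb (e + 5) 31 (by norm_num) (102262 / 100000) 19 (by norm_num)
        (by norm_num) (by norm_num) exp_lt_19 J z z.2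
      rwa [hh] at this))
    (fun B => by
      have h1 := sum_le_trace_Ahat π hsymm 64 (by decide) ∅ B
      have h2 : InvJ (rightReg (Pos (e + 5 + 1))) ∅ = ⊤ := by
        ext v
        simp [mem_InvJ]
      have h3 : ∀ β : ℝ, (End.eigenspace (lawLin π) β ⊓ InvJ (rightReg (Pos (e + 5 + 1))) ∅ :
          Submodule ℝ (EuclideanSpace ℝ (Equiv.Perm (Pos (e + 5 + 1))))) =
          End.eigenspace (lawLin π) β := fun β => by rw [h2, inf_top_eq]
      refine le_trans (le_of_eq (sum_congr rfl fun β _ => by rw [h3])) (h1.trans ?_)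
      refine le_ciInf fun z => ?_
      have := trace_Ahat_le_zb (e + 5) 63 (by norm_num) (101107 / 100000) (87 / 5) (by norm_num)
        (by norm_num) (by norm_num) exp_lt_17 ∅ z z.2
      rwa [hh, card_empty, Nat.sub_zero, hcard] at this)
    (by omega) (by rw [hcard]; omega) (by rw [hcard]; exact hκ) hm0 hm (lt_min hm₁pos hm₂pos)
    (fun β hβ U hU hne hst hno => by
      have h2 : NoInv (tw (rightReg (Pos (e + 5 + 1)))) U univ
          (Fintype.card (Pos (e + 5 + 1)) / 2 + 1) := by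
        intro J hJ hc
        have := noInv_tw π (flipPos (e + 5)) (flipPos_involutive _) (flipPos_ne _)
          (pairLaw_bfly_flip (e + 5)) β hβ J hJ hc
        exact le_bot_iff.1 (this ▸ inf_le_inf_right _ hU)
      rcases hhigh _ _ (rightReg (Pos (e + 5 + 1))) isOrth_rightReg U hst hne (12 * N)
        (by rw [hcard]; omega) hno h2 with h | h
      · refine (min_le_left _ _).trans ?_
        rw [hm₁, div_le_iff₀ (by positivity)]
        rw [hcard] at h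
        exact h.trans_eq (mul_comm _ _)
      · refine (min_le_right _ _).trans ?_
        refine le_of_pow_le_pow_left₀ (n := 3) (by norm_num) (by positivity) ?_
        rw [hm₂cube, div_le_iff₀ hC]
        rw [hcard] at h
        exact h.trans_eq (mul_comm _ _))
  rw [trace_lawLin_pow, hcard] at key
  exact key.trans hfin

theorem tv_nonneg (m t : ℕ) : 0 ≤ Shuffle.tvFromUniform m t := by
  unfold Shuffle.tvFromUniform
  positivity

theorem main : Filter.Tendsto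
    (fun d : ℕ => Shuffle.tvFromUniform (2 ^ d) (1600 * (d + 1))) Filter.atTop (nhds 0) := by
  rw [Metric.tendsto_atTop]
  intro ε hε
  obtain ⟨d₀, hd₀⟩ := trace_le (ε ^ 2) (by positivity)
  refine ⟨d₀, fun d hd => ?_⟩
  have h1 := link d
  have h2 := dyson (lawMat (bfly (d + 1))) 10
  rw [lawMat_mul_transpose] at h2
  have h3 := hd₀ d hd
  have h4 := tv_nonneg (2 ^ d) (1600 * (d + 1))
  rw [Real.dist_eq, sub_zero, abs_of_nonneg h4]
  have h5 : 4 * (Shuffle.tvFromUniform (2 ^ d) (1600 * (d + 1))) ^ 2 ≤ ε ^ 2 := by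
    have : (2 : ℕ) ^ 10 = 1024 := by norm_num
    rw [this] at h2
    linarith
  nlinarith

end Crest.Agent.R155
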