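import Crest.Agent.R155.Defs

/-!
# Elementary facts on vectors invariant under transpositions (part A of `Mult1`)
-/

set_option autoImplicit false
set_option linter.unusedSectionVars false

namespace Crest.Agent.R155.M1

open Finset Module

variable {α V : Type*} [DecidableEq α] [NormedAddCommGroup V] [InnerProductSpace ℝ V]

theorem rho_mul (ρ : Representation ℝ (Equiv.Perm α) V) (g h : Equiv.Perm α) (v : V) :
    ρ (g * h) v = ρ g (ρ h v) := by
  rw [map_mul]; rfl

theorem swap_swap (ρ : Representation ℝ (Equiv.Perm α) V) (a b : α) (v : V) :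
    ρ (Equiv.swap a b) (ρ (Equiv.swap a b) v) = v := by
  rw [← rho_mul, Equiv.swap_mul_self, map_one]; rfl

theorem rho_inj (ρ : Representation ℝ (Equiv.Perm α) V) (g : Equiv.Perm α) :
    Function.Injective (ρ g) := by
  intro x y h
  have h2 := congrArg (ρ g⁻¹) h
  rwa [← rho_mul, ← rho_mul, inv_mul_cancel, map_one] at h2

/-- `g τ(x,y) = τ(g x, g y) g`. -/
theorem rho_swap_comm (ρ : Representation ℝ (Equiv.Perm α) V) (g : Equiv.Perm α) (x y : α)
    (v : V) : ρ g (ρ (Equiv.swap x y) v) = ρ (Equiv.swap (g x) (g y)) (ρ g v) := by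
  rw [← rho_mul, ← rho_mul, Equiv.mul_swap_eq_swap_mul]

/-- Symmetrising in one more point. -/
theorem symm_insert (ρ : Representation ℝ (Equiv.Perm α) V) (J : Finset α) (b : α) (hbJ : b ∉ J)
    (v : V) (hv : v ∈ InvJ ρ J) :
    v + ∑ q ∈ J, ρ (Equiv.swap b q) v ∈ InvJ ρ (insert b J) := by
  rw [mem_InvJ] at hv
  have h1 : ∀ p ∈ J, ρ (Equiv.swap b p) (v + ∑ q ∈ J, ρ (Equiv.swap b q) v) =
      v + ∑ q ∈ J, ρ (Equiv.swap b q) v := by
    intro p hp
    rw [map_add, map_sum, ← Finset.add_sum_erase J _ hp,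
      ← Finset.add_sum_erase J (fun q => ρ (Equiv.swap b q) v) hp, swap_swap]
    have : ∀ q ∈ J.erase p, ρ (Equiv.swap b p) (ρ (Equiv.swap b q) v) = ρ (Equiv.swap b q) v := by
      intro q hq
      have hqp : q ≠ p := Finset.ne_of_mem_erase hq
      have hqJ : q ∈ J := Finset.mem_of_mem_erase hq
      have hpb : p ≠ b := fun h => hbJ (h ▸ hp)
      have h := rho_swap_comm ρ (Equiv.swap b q) q p v
      rw [hv q hqJ p hp, Equiv.swap_apply_right, Equiv.swap_apply_of_ne_of_ne hpb hqp.symm] at h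
      exact h.symm
    rw [Finset.sum_congr rfl this]
    abel
  have h2 : ∀ p ∈ J, ∀ p' ∈ J, ρ (Equiv.swap p p') (v + ∑ q ∈ J, ρ (Equiv.swap b q) v) =
      v + ∑ q ∈ J, ρ (Equiv.swap b q) v := by
    intro p hp p' hp'
    rw [map_add, map_sum, hv p hp p' hp']
    congr 1
    have hb : Equiv.swap p p' b = b :=
      Equiv.swap_apply_of_ne_of_ne (fun h => hbJ (h ▸ hp)) (fun h => hbJ (h ▸ hp'))
    have hmem : ∀ q, q ∈ J ↔ Equiv.swap p p' q ∈ J := by
      intro q
      rw [Equiv.swap_apply_def]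
      split_ifs with h1 h2
      · subst h1; simp [hp, hp']
      · subst h2; simp [hp, hp']
      · rfl
    refine Finset.sum_equiv (Equiv.swap p p') hmem fun q _ => ?_
    rw [rho_swap_comm, hb, hv p hp p' hp']
  intro x hx y hy
  rcases Finset.mem_insert.1 hx with hx' | hx'
  · rcases Finset.mem_insert.1 hy with hy' | hy'
    · rw [hx', hy', Equiv.swap_self]; exact congrFun (congrArg _ (map_one ρ)) _
    · rw [hx']; exact h1 y hy'
  · rcases Finset.mem_insert.1 hy with hy' | hy'
    · rw [hy', Equiv.swap_comm]; exact h1 x hx'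
    · exact h2 x hx' y hy'

theorem sum_swap (ρ : Representation ℝ (Equiv.Perm α) V) (U : Submodule ℝ V)
    (N : Finset α) (hU : Stab ρ U N) (J : Finset α) (hJ : J ⊆ N)
    (hno : NoInv ρ U N (J.card + 1)) (b : α) (hbN : b ∈ N) (hbJ : b ∉ J) (v : V)
    (hv : v ∈ U ⊓ InvJ ρ J) : ∑ q ∈ J, ρ (Equiv.swap b q) v = -v := by
  have h0 := hno (insert b J) (Finset.insert_subset hbN hJ) (Finset.card_insert_of_notMem hbJ)
  have hmem : v + ∑ q ∈ J, ρ (Equiv.swap b q) v ∈ U ⊓ InvJ ρ (insert b J) :=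
    ⟨U.add_mem hv.1 (U.sum_mem fun q hq => hU b hbN q (hJ hq) v hv.1),
      symm_insert ρ J b hbJ v hv.2⟩
  rw [h0, Submodule.mem_bot] at hmem
  exact eq_neg_of_add_eq_zero_right hmem

theorem mem_InvJ_image (ρ : Representation ℝ (Equiv.Perm α) V) (J : Finset α) (g : Equiv.Perm α)
    (v : V) (hv : v ∈ InvJ ρ J) : ρ g v ∈ InvJ ρ (J.image g) := by
  intro x hx y hy
  obtain ⟨p, hp, rfl⟩ := Finset.mem_image.1 hx
  obtain ⟨q, hq, rfl⟩ := Finset.mem_image.1 hy
  rw [← rho_swap_comm, hv p hp q hq]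

theorem InvJ_mono (ρ : Representation ℝ (Equiv.Perm α) V) {J J' : Finset α} (h : J ⊆ J') :
    InvJ ρ J' ≤ InvJ ρ J := fun _ hv a ha b hb => hv a (h ha) b (h hb)

variable [FiniteDimensional ℝ V]

/-- Transport of the invariant subspaces. -/
theorem transport (ρ : Representation ℝ (Equiv.Perm α) V) (U : Submodule ℝ V)
    (N : Finset α) (hU : Stab ρ U N) (J' : Finset α) (hJ' : J' ⊆ N) :
    ∀ (k : ℕ) (J : Finset α), J ⊆ N → J.card = J'.card → (J \ J').card = k →
      finrank ℝ (U ⊓ InvJ ρ J : Submodule ℝ V) ≤ finrank ℝ (U ⊓ InvJ ρ J' : Submodule ℝ V) := by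
  intro k
  induction k with
  | zero =>
    intro J _ hc h0
    have : J = J' := Finset.eq_of_subset_of_card_le
      (Finset.sdiff_eq_empty_iff_subset.1 (Finset.card_eq_zero.1 h0)) hc.ge
    rw [this]
  | succ k ih =>
    intro J hJ hc hk
    obtain ⟨a, ha⟩ : (J \ J').Nonempty := Finset.card_pos.1 (by omega)
    obtain ⟨b, hb⟩ : (J' \ J).Nonempty := by
      rw [← Finset.card_pos, Finset.card_sdiff_comm hc.symm]; omega
    rw [Finset.mem_sdiff] at ha hb
    have him : J.image (Equiv.swap a b) = insert b (J.erase a) := by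
      ext x
      simp only [Finset.mem_image, Finset.mem_insert, Finset.mem_erase]
      constructor
      · rintro ⟨p, hp, rfl⟩
        by_cases hpa : p = a
        · left; rw [hpa, Equiv.swap_apply_left]
        · right
          have hpb : p ≠ b := fun h => hb.2 (h ▸ hp)
          rw [Equiv.swap_apply_of_ne_of_ne hpa hpb]
          exact ⟨hpa, hp⟩
      · rintro (rfl | ⟨hxa, hx⟩)
        · exact ⟨a, ha.1, Equiv.swap_apply_left _ _⟩
        · exact ⟨x, hx, Equiv.swap_apply_of_ne_of_ne hxa fun h => hb.2 (h ▸ hx)⟩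
    have hsub : insert b (J.erase a) ⊆ N :=
      Finset.insert_subset (hJ' hb.1) ((Finset.erase_subset _ _).trans hJ)
    have hcard : (insert b (J.erase a)).card = J'.card := by
      rw [← him, Finset.card_image_of_injective _ (Equiv.injective _), hc]
    have hk' : (insert b (J.erase a) \ J').card = k := by
      have : insert b (J.erase a) \ J' = (J \ J').erase a := by
        ext x
        simp only [Finset.mem_sdiff, Finset.mem_insert, Finset.mem_erase]
        constructor
        · rintro ⟨rfl | h, h2⟩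
          · exact absurd hb.1 h2
          · exact ⟨h.1, h.2, h2⟩
        · rintro ⟨h1, h2, h3⟩
          exact ⟨Or.inr ⟨h1, h2⟩, h3⟩
      rw [this, Finset.card_erase_of_mem (Finset.mem_sdiff.2 ha), hk]
      rfl
    refine le_trans ?_ (ih _ hsub hcard hk')
    have hmap : (U ⊓ InvJ ρ J : Submodule ℝ V).map (ρ (Equiv.swap a b)) ≤
        U ⊓ InvJ ρ (insert b (J.erase a)) := by
      rintro _ ⟨v, hv, rfl⟩
      refine ⟨hU a (hJ ha.1) b (hJ' hb.1) v hv.1, ?_⟩
      rw [← him]
      exact mem_InvJ_image ρ J _ v hv.2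
    refine le_trans (le_of_eq ?_) (Submodule.finrank_mono hmap)
    exact (Submodule.equivMapOfInjective _ (rho_inj ρ _) _).finrank_eq

end Crest.Agent.R155.M1
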