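import Crest.Agent.R155.Mult1_D

/-!
# Triangular independence and ballot counting (part C of `Mult1`)
-/

set_option autoImplicit false
set_option linter.unusedSectionVars false

namespace Crest.Agent.R155.M1

open Finset Module

variable {α V : Type*} [DecidableEq α] [NormedAddCommGroup V] [InnerProductSpace ℝ V]
  [FiniteDimensional ℝ V]

/-- Abstract triangular independence. -/
theorem tri_indep {κ : Type*} [DecidableEq κ] (E : κ → Submodule ℝ V) (D : κ → V →ₗ[ℝ] V)
    (wt : κ → ℕ) : ∀ (n : ℕ) (F : Finset κ), F.card = n →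
      (∀ i ∈ F, ∀ v ∈ E i, D i v = 0 → v = 0) →
      (∀ i ∈ F, ∀ i' ∈ F, i' ≠ i → wt i ≤ wt i' → ∀ v ∈ E i', D i v = 0) →
      ∀ W : Submodule ℝ V, (∀ i ∈ F, E i ≤ W) → ∑ i ∈ F, finrank ℝ (E i) ≤ finrank ℝ W := by
  intro n
  induction n with
  | zero =>
    intro F hF _ _ W _
    rw [Finset.card_eq_zero.1 hF]; simp
  | succ n ih =>
    intro F hF hinj hkill W hW
    obtain ⟨i, hi, hmin⟩ := F.exists_min_image wt (Finset.card_pos.1 (by omega))
    have h1 := ih (F.erase i) (by rw [Finset.card_erase_of_mem hi, hF]; rfl)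
      (fun k hk => hinj k (Finset.mem_of_mem_erase hk))
      (fun k hk k' hk' => hkill k (Finset.mem_of_mem_erase hk) k' (Finset.mem_of_mem_erase hk'))
      (W ⊓ LinearMap.ker (D i)) (fun k hk v hv =>
        ⟨hW k (Finset.mem_of_mem_erase hk) hv, hkill i hi k (Finset.mem_of_mem_erase hk)
          (Finset.ne_of_mem_erase hk) (hmin k (Finset.mem_of_mem_erase hk)) v hv⟩)
    rw [← Finset.add_sum_erase F _ hi]
    have h2 := Submodule.finrank_sup_add_finrank_inf_eq (E i) (W ⊓ LinearMap.ker (D i))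
    have h3 : E i ⊓ (W ⊓ LinearMap.ker (D i)) = ⊥ := by
      rw [eq_bot_iff]
      intro v hv
      exact hinj i hi v hv.1 hv.2.2
    have h4 : finrank ℝ (E i ⊔ (W ⊓ LinearMap.ker (D i)) : Submodule ℝ V) ≤ finrank ℝ W :=
      Submodule.finrank_mono (sup_le (hW i hi) inf_le_left)
    rw [h3, finrank_bot] at h2
    omega

/-- `I ⊆ M` can be matched downwards (for the rank `r`) into `M \ I`. -/
def Matched (M : Finset α) (r : α → ℕ) (I : Finset α) : Prop :=
  I ⊆ M ∧ ∃ m : α → α, Set.InjOn m I ∧ ∀ a ∈ I, m a ∈ M ∧ m a ∉ I ∧ r (m a) < r a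

theorem exists_pair {r : α → ℕ} {I I' : Finset α} {m : α → α} (hinj : Set.InjOn m I)
    (hm : ∀ a ∈ I, m a ∉ I ∧ r (m a) < r a) (hc : I'.card = I.card) (hne : I' ≠ I)
    (hwt : ∑ a ∈ I, r a ≤ ∑ a ∈ I', r a) : ∃ a ∈ I, a ∉ I' ∧ m a ∉ I' := by
  by_contra hcon
  push Not at hcon
  let φ : α → α := fun a => if a ∈ I' then a else m a
  have hφ : ∀ a ∈ I, φ a ∈ I' := by
    intro a ha
    by_cases h : a ∈ I'
    · simp [φ, h]
    · simp [φ, h, hcon a ha h]
  have hφinj : Set.InjOn φ I := by
    intro a ha c hc e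
    by_cases h : a ∈ I' <;> by_cases h' : c ∈ I' <;> simp only [φ, h, h', if_true, if_false] at e
    · exact e
    · exact absurd (e ▸ ha : m c ∈ I) (hm c hc).1
    · exact absurd (e ▸ hc : m a ∈ I) (hm a ha).1
    · exact hinj ha hc e
  have him : I.image φ = I' := by
    refine Finset.eq_of_subset_of_card_le (fun x hx => ?_) ?_
    · obtain ⟨a, ha, rfl⟩ := Finset.mem_image.1 hx
      exact hφ a ha
    · rw [Finset.card_image_of_injOn hφinj, hc]
  obtain ⟨a, ha, haI⟩ : ∃ a ∈ I, a ∉ I' := by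
    by_contra h
    push Not at h
    exact hne (Finset.eq_of_subset_of_card_le h hc.le).symm
  have hlt : ∑ a ∈ I, r (φ a) < ∑ a ∈ I, r a := by
    refine Finset.sum_lt_sum (fun c hc => ?_) ⟨a, ha, ?_⟩
    · by_cases h : c ∈ I'
      · simp [φ, h]
      · simp only [φ, h, if_false]; exact (hm c hc).2.le
    · simp only [φ, haI, if_false]; exact (hm a ha).2
  rw [← him, Finset.sum_image hφinj] at hwt
  omega

/-- Independence of the invariant subspaces. -/
theorem indep {ρ : Representation ℝ (Equiv.Perm α) V} (hρ : IsOrth ρ) {U : Submodule ℝ V}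
    {N : Finset α} (hU : Stab ρ U N) {j b : ℕ} (hno : NoInv ρ U N (j + 1)) {M : Finset α}
    (hM : M ⊆ N) (hMc : M.card = j + b) (r : α → ℕ) (F : Finset (Finset α))
    (hF : ∀ I ∈ F, I.card = b ∧ Matched M r I) (W : Submodule ℝ V)
    (hW : ∀ I ∈ F, U ⊓ InvJ ρ (M \ I) ≤ W) :
    ∑ I ∈ F, finrank ℝ (U ⊓ InvJ ρ (M \ I) : Submodule ℝ V) ≤ finrank ℝ W := by
  have hex : ∀ I : Finset α, ∃ m : α → α, I ∈ F →
      Set.InjOn m I ∧ ∀ a ∈ I, m a ∈ M ∧ m a ∉ I ∧ r (m a) < r a := by
    intro I
    by_cases hI : I ∈ F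
    · obtain ⟨m, hm⟩ := (hF I hI).2.2
      exact ⟨m, fun _ => hm⟩
    · exact ⟨id, fun h => absurd h hI⟩
  choose m hm using hex
  have hgood : ∀ I ∈ F, Good N (M \ I) (m I) I.toList := by
    intro I hI
    refine ⟨I.nodup_toList, fun a ha => ?_, fun a ha c hc e => ?_⟩
    · have ha' := Finset.mem_toList.1 ha
      exact ⟨hM ((hF I hI).2.1 ha'), fun h => (Finset.mem_sdiff.1 h).2 ha',
        Finset.mem_sdiff.2 ⟨((hm I hI).2 a ha').1, ((hm I hI).2 a ha').2.1⟩⟩
    · exact (hm I hI).1 (Finset.mem_toList.1 ha) (Finset.mem_toList.1 hc) e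
  refine tri_indep (fun I => U ⊓ InvJ ρ (M \ I)) (fun I => Dop ρ (m I) I.toList)
    (fun I => ∑ a ∈ I, r a) _ F rfl (fun I hI v hv h0 => ?_) (fun I hI I' hI' hne hwt v hv => ?_)
    W hW
  · have hc : (M \ I).card = j := by
      have := Finset.card_sdiff_add_card_eq_card (hF I hI).2.1
      rw [(hF I hI).1] at this
      omega
    exact D_inj hρ hU (Finset.sdiff_subset.trans hM) (hc ▸ hno) hv _ (hgood I hI) h0
  · obtain ⟨a, ha, h1, h2⟩ := exists_pair (hm I hI).1 (fun a ha => ((hm I hI).2 a ha).2)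
      ((hF I' hI').1.trans (hF I hI).1.symm) hne hwt
    refine D_kill _ (hgood I hI) (Finset.mem_toList.2 ha) v ?_
    exact hv.2 a (Finset.mem_sdiff.2 ⟨(hF I hI).2.1 ha, h1⟩) _
      (Finset.mem_sdiff.2 ⟨((hm I hI).2 a ha).1, h2⟩)

/-- `C(n, b - 1)`, with the value `0` for `b = 0`. -/
def prev (n : ℕ) : ℕ → ℕ
  | 0 => 0
  | b + 1 => n.choose b

theorem prev_succ (n b : ℕ) : (n + 1).choose b = n.choose b + prev n b := by
  cases b with
  | zero => simp [prev]
  | succ b => rw [Nat.choose_succ_succ', prev, add_comm]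

/-- Ballot families. -/
theorem ballot (M : Finset α) : ∃ r : α → ℕ, ∀ b : ℕ, 2 * b ≤ M.card →
    ∃ F : Finset (Finset α), (∀ I ∈ F, I.card = b ∧ Matched M r I) ∧
      M.card.choose b ≤ F.card + prev M.card b := by
  have hzero : ∀ (M : Finset α) (r : α → ℕ), ∃ F : Finset (Finset α),
      (∀ I ∈ F, I.card = 0 ∧ Matched M r I) ∧ M.card.choose 0 ≤ F.card + prev M.card 0 := by
    intro M r
    refine ⟨{∅}, fun I hI => ?_, by simp⟩
    rw [Finset.mem_singleton.1 hI]
    exact ⟨rfl, Finset.empty_subset _, id, by simp, by simp⟩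
  induction M using Finset.induction_on with
  | empty =>
    refine ⟨fun _ => 0, fun b hb => ?_⟩
    obtain rfl : b = 0 := by simpa using hb
    exact hzero _ _
  | insert x M hx ih =>
    obtain ⟨r, hr⟩ := ih
    let r' : α → ℕ := Function.update r x (M.sup r + 1)
    have hr' : ∀ a ∈ M, r' a = r a := fun a ha =>
      Function.update_of_ne (fun e : a = x => hx (e ▸ ha)) _ _
    have hr'x : r' x = M.sup r + 1 := Function.update_self _ _ _
    have hold : ∀ I, Matched M r I → Matched (insert x M) r' I := by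
      rintro I ⟨hI, m, hinj, hm⟩
      refine ⟨hI.trans (Finset.subset_insert _ _), m, hinj, fun a ha => ?_⟩
      refine ⟨Finset.mem_insert_of_mem (hm a ha).1, (hm a ha).2.1, ?_⟩
      rw [hr' _ (hm a ha).1, hr' _ (hI ha)]
      exact (hm a ha).2.2
    have hnew : ∀ I, 2 * I.card < M.card → Matched M r I → Matched (insert x M) r' (insert x I) := by
      rintro I hc ⟨hI, m, hinj, hm⟩
      have hxI : x ∉ I := fun h => hx (hI h)
      obtain ⟨z, hzM, hz⟩ : ∃ z ∈ M, z ∉ I ∪ I.image m := by
        refine Finset.exists_mem_notMem_of_card_lt_card ?_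
        have h1 := Finset.card_union_le I (I.image m)
        have h2 : (I.image m).card ≤ I.card := Finset.card_image_le
        omega
      rw [Finset.mem_union, not_or] at hz
      have hmx : Function.update m x z x = z := Function.update_self _ _ _
      have hma : ∀ a ∈ I, Function.update m x z a = m a := fun a ha =>
        Function.update_of_ne (fun e : a = x => hxI (e ▸ ha)) _ _
      refine ⟨Finset.insert_subset_insert _ hI, Function.update m x z, ?_, fun a ha => ?_⟩
      · intro a ha c hc e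
        rcases Finset.mem_insert.1 (Finset.mem_coe.1 ha) with ha | ha <;>
          rcases Finset.mem_insert.1 (Finset.mem_coe.1 hc) with hc | hc
        · rw [ha, hc]
        · rw [ha, hmx, hma c hc] at e
          exact absurd (Finset.mem_image.2 ⟨c, hc, e.symm⟩) hz.2
        · rw [hc, hmx, hma a ha] at e
          exact absurd (Finset.mem_image.2 ⟨a, ha, e⟩) hz.2
        · rw [hma a ha, hma c hc] at e
          exact hinj ha hc e
      · rcases Finset.mem_insert.1 ha with ha | ha
        · rw [ha, hmx, hr'x, hr' z hzM]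
          refine ⟨Finset.mem_insert_of_mem hzM, fun h => ?_, Nat.lt_succ_of_le (Finset.le_sup hzM)⟩
          rcases Finset.mem_insert.1 h with h | h
          · exact hx (h ▸ hzM)
          · exact hz.1 h
        · rw [hma a ha, hr' _ (hm a ha).1, hr' _ (hI ha)]
          refine ⟨Finset.mem_insert_of_mem (hm a ha).1, fun h => ?_, (hm a ha).2.2⟩
          rcases Finset.mem_insert.1 h with h | h
          · exact hx (h ▸ (hm a ha).1)
          · exact (hm a ha).2.1 h
    refine ⟨r', fun b hb => ?_⟩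
    cases b with
    | zero => exact hzero _ _
    | succ b =>
      rw [Finset.card_insert_of_notMem hx] at hb ⊢
      obtain ⟨F₁, hF₁, hc₁⟩ := hr b (by omega)
      obtain ⟨F₂, hF₂, hc₂⟩ : ∃ F : Finset (Finset α), (∀ I ∈ F, I.card = b + 1 ∧ Matched M r I) ∧
          M.card.choose (b + 1) ≤ F.card + M.card.choose b := by
        by_cases h2 : 2 * (b + 1) ≤ M.card
        · exact hr (b + 1) h2
        · refine ⟨∅, by simp, ?_⟩
          have hM : M.card = 2 * b + 1 := by omega
          rw [hM, Nat.choose_symm_half]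
          simp
      have hxI : ∀ I ∈ F₁, x ∉ I := fun I hI h => hx ((hF₁ I hI).2.1 h)
      have hinjF : Set.InjOn (insert x) (F₁ : Set (Finset α)) := by
        intro I hI I' hI' e
        rw [← Finset.erase_insert (hxI I hI), e, Finset.erase_insert (hxI I' hI')]
      have hdisj : Disjoint F₂ (F₁.image (insert x)) := by
        rw [Finset.disjoint_left]
        intro I hI hI'
        obtain ⟨I', -, rfl⟩ := Finset.mem_image.1 hI'
        exact hx ((hF₂ _ hI).2.1 (Finset.mem_insert_self _ _))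
      refine ⟨F₂ ∪ F₁.image (insert x), fun I hI => ?_, ?_⟩
      · rcases Finset.mem_union.1 hI with hI | hI
        · exact ⟨(hF₂ I hI).1, hold I (hF₂ I hI).2⟩
        · obtain ⟨I', hI', rfl⟩ := Finset.mem_image.1 hI
          refine ⟨by rw [Finset.card_insert_of_notMem (hxI I' hI'), (hF₁ I' hI').1], ?_⟩
          refine hnew I' ?_ (hF₁ I' hI').2
          rw [(hF₁ I' hI').1]; omega
      · rw [Finset.card_union_of_disjoint hdisj, Finset.card_image_of_injOn hinjF, prev,
          Nat.choose_succ_succ', prev_succ]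
        omega

theorem ballot_arith {j b f : ℕ} (hb : b ≤ j) (h : (j + b).choose b ≤ f + prev (j + b) b) :
    (j + b).choose b ≤ (j + 1) * f := by
  cases b with
  | zero =>
    simp only [prev, add_zero, Nat.choose_zero_right] at h ⊢
    nlinarith
  | succ b =>
    rw [prev] at h
    have h1 := Nat.choose_succ_right_eq (j + (b + 1)) b
    have h2 : j + (b + 1) - b = j + 1 := by omega
    rw [h2] at h1
    set C := (j + (b + 1)).choose (b + 1)
    set P := (j + (b + 1)).choose b
    have h3 : (j + 1) * C ≤ (j + 1) * f + (b + 1) * C := by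
      calc (j + 1) * C ≤ (j + 1) * (f + P) := Nat.mul_le_mul_left _ h
        _ = (j + 1) * f + (b + 1) * C := by rw [mul_add, mul_comm (j + 1) P, ← h1, mul_comm C]
    have h4 : (b + 2) * C ≤ (j + 1) * C := Nat.mul_le_mul_right _ (by omega)
    nlinarith

end Crest.Agent.R155.M1
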