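import Crest.Agent.R155.Mult1_A

/-!
# The D-lemma (part D of `Mult1`)
-/

set_option autoImplicit false
set_option linter.unusedSectionVars false

namespace Crest.Agent.R155.M1

open Finset Module

variable {α V : Type*} [DecidableEq α] [NormedAddCommGroup V] [InnerProductSpace ℝ V]

/-- Product of the transpositions `(a, m a)`. -/
def wl (m : α → α) : List α → Equiv.Perm α
  | [] => 1
  | a :: l => Equiv.swap a (m a) * wl m l

/-- Product of the operators `1 - τ (a, m a)`. -/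
def Dop (ρ : Representation ℝ (Equiv.Perm α) V) (m : α → α) : List α → Module.End ℝ V
  | [] => 1
  | a :: l => Dop ρ m l * (1 - ρ (Equiv.swap a (m a)))

/-- Admissible lists. -/
def Good (N J : Finset α) (m : α → α) (l : List α) : Prop :=
  l.Nodup ∧ (∀ a ∈ l, a ∈ N ∧ a ∉ J ∧ m a ∈ J) ∧ ∀ a ∈ l, ∀ c ∈ l, m a = m c → a = c

theorem Good.tail {N J : Finset α} {m : α → α} {a : α} {l : List α} (h : Good N J m (a :: l)) :
    Good N J m l :=
  ⟨h.1.of_cons, fun c hc => h.2.1 c (List.mem_cons_of_mem _ hc),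
    fun c hc d hd => h.2.2 c (List.mem_cons_of_mem _ hc) d (List.mem_cons_of_mem _ hd)⟩

theorem Good.perm {N J : Finset α} {m : α → α} {l l' : List α} (h : Good N J m l)
    (hp : l.Perm l') : Good N J m l' :=
  ⟨hp.nodup_iff.1 h.1, fun c hc => h.2.1 c (hp.mem_iff.2 hc),
    fun c hc d hd => h.2.2 c (hp.mem_iff.2 hc) d (hp.mem_iff.2 hd)⟩

theorem Good.left {N J : Finset α} {m : α → α} {l l' : List α} (h : Good N J m (l ++ l')) :
    Good N J m l :=
  ⟨h.1.of_append_left, fun c hc => h.2.1 c (List.mem_append_left _ hc),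
    fun c hc d hd => h.2.2 c (List.mem_append_left _ hc) d (List.mem_append_left _ hd)⟩

theorem wl_fix (m : α → α) (x : α) :
    ∀ l : List α, (∀ c ∈ l, x ≠ c ∧ x ≠ m c) → wl m l x = x
  | [], _ => rfl
  | a :: l, h => by
    rw [wl, Equiv.Perm.mul_apply, wl_fix m x l fun c hc => h c (List.mem_cons_of_mem _ hc)]
    exact Equiv.swap_apply_of_ne_of_ne (h a List.mem_cons_self).1 (h a List.mem_cons_self).2

theorem Good.head_ne {N J : Finset α} {m : α → α} {a : α} {l : List α} (h : Good N J m (a :: l)) :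
    ∀ c ∈ l, (a ≠ c ∧ a ≠ m c) ∧ (m a ≠ c ∧ m a ≠ m c) := by
  intro c hc
  have ha := h.2.1 a List.mem_cons_self
  have hc' := h.2.1 c (List.mem_cons_of_mem _ hc)
  have hac : a ≠ c := fun e => (List.nodup_cons.1 h.1).1 (e ▸ hc)
  refine ⟨⟨hac, fun e => ha.2.1 (e ▸ hc'.2.2)⟩, fun e => hc'.2.1 (e ▸ ha.2.2), fun e => hac ?_⟩
  exact h.2.2 a List.mem_cons_self c (List.mem_cons_of_mem _ hc) e

theorem wl_apply {N J : Finset α} {m : α → α} :
    ∀ l : List α, Good N J m l → ∀ c ∈ l, wl m l c = m c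
  | [], _, _, hc => absurd hc List.not_mem_nil
  | a :: l, h, c, hc => by
    rw [wl, Equiv.Perm.mul_apply]
    rcases List.mem_cons.1 hc with hc | hc
    · rw [hc, wl_fix m a l fun d hd => (h.head_ne d hd).1, Equiv.swap_apply_left]
    · rw [wl_apply l h.tail c hc]
      exact Equiv.swap_apply_of_ne_of_ne (h.head_ne c hc).1.2.symm (h.head_ne c hc).2.2.symm

theorem inner_swap {ρ : Representation ℝ (Equiv.Perm α) V} (hρ : IsOrth ρ) (a b : α) (x y : V) :
    inner ℝ x (ρ (Equiv.swap a b) y) = inner ℝ (ρ (Equiv.swap a b) x) y := by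
  rw [← hρ (Equiv.swap a b) x, swap_swap]

/-- The one-step recursion of the sign lemma. -/
theorem sign_step {ρ : Representation ℝ (Equiv.Perm α) V} (hρ : IsOrth ρ) {U : Submodule ℝ V}
    {N : Finset α} (hU : Stab ρ U N) {J : Finset α} (hJ : J ⊆ N)
    (hno : NoInv ρ U N (J.card + 1)) {m : α → α} {a : α} {l : List α} (h : Good N J m (a :: l))
    {u u' : V} (hu : u ∈ U ⊓ InvJ ρ J) (hu' : u' ∈ InvJ ρ J) :
    ∃ k : ℕ, 0 < k ∧ k + l.length = J.card ∧
      (k : ℝ) * inner ℝ u (ρ (wl m (a :: l)) u') =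
        -(inner ℝ u (ρ (wl m l) u') +
          ∑ c ∈ l.toFinset, inner ℝ u (ρ (wl m l) (ρ (Equiv.swap a c) u'))) := by
  have ha := h.2.1 a List.mem_cons_self
  have hinj : Set.InjOn m (l.toFinset : Set α) := fun c hc d hd e =>
    h.tail.2.2 c (List.mem_toFinset.1 hc) d (List.mem_toFinset.1 hd) e
  have hsub : l.toFinset.image m ⊆ J := by
    intro q hq
    obtain ⟨c, hc, rfl⟩ := Finset.mem_image.1 hq
    exact (h.tail.2.1 c (List.mem_toFinset.1 hc)).2.2
  have hma : m a ∈ J \ l.toFinset.image m := by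
    refine Finset.mem_sdiff.2 ⟨ha.2.2, fun hq => ?_⟩
    obtain ⟨c, hc, e⟩ := Finset.mem_image.1 hq
    exact (h.head_ne c (List.mem_toFinset.1 hc)).2.2 e.symm
  refine ⟨(J \ l.toFinset.image m).card, Finset.card_pos.2 ⟨_, hma⟩, ?_, ?_⟩
  · have h1 := Finset.card_sdiff_add_card_eq_card hsub
    rwa [Finset.card_image_of_injOn hinj, List.toFinset_card_of_nodup h.tail.1] at h1
  have hsum : ∑ q ∈ J, inner ℝ u (ρ (Equiv.swap a q) (ρ (wl m l) u')) =
      -inner ℝ u (ρ (wl m l) u') := by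
    simp_rw [inner_swap hρ]
    rw [← sum_inner, sum_swap ρ U N hU J hJ hno a ha.1 ha.2.1 u hu, inner_neg_left]
  rw [← Finset.sum_sdiff hsub, Finset.sum_image hinj] at hsum
  have h1 : ∀ q ∈ J \ l.toFinset.image m,
      inner ℝ u (ρ (Equiv.swap a q) (ρ (wl m l) u')) = inner ℝ u (ρ (wl m (a :: l)) u') := by
    intro q hq
    have hqJ := (Finset.mem_sdiff.1 hq).1
    have hfix : ∀ x ∈ J \ l.toFinset.image m, wl m l x = x := by
      intro x hx
      refine wl_fix m x l fun c hc => ⟨fun e => ?_, fun e => ?_⟩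
      · exact (h.tail.2.1 c hc).2.1 (e ▸ (Finset.mem_sdiff.1 hx).1)
      · exact (Finset.mem_sdiff.1 hx).2
          (Finset.mem_image.2 ⟨c, List.mem_toFinset.2 hc, e.symm⟩)
    have haq : a ≠ q := fun e => ha.2.1 (e ▸ hqJ)
    have hama : a ≠ m a := fun e => ha.2.1 (e ▸ ha.2.2)
    have e1 : ρ (wl m l) u' = ρ (Equiv.swap q (m a)) (ρ (wl m l) u') := by
      have := rho_swap_comm ρ (wl m l) q (m a) u'
      rwa [hu' q hqJ (m a) ha.2.2, hfix q hq, hfix _ hma] at this
    have e2 := rho_swap_comm ρ (Equiv.swap q (m a)) a q (ρ (wl m l) u')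
    rw [Equiv.swap_apply_of_ne_of_ne haq hama, Equiv.swap_apply_left, ← e1] at e2
    rw [wl, rho_mul, ← e2, inner_swap hρ q (m a), hu.2 q hqJ (m a) ha.2.2]
  have h2 : ∀ c ∈ l.toFinset, inner ℝ u (ρ (Equiv.swap a (m c)) (ρ (wl m l) u')) =
      inner ℝ u (ρ (wl m l) (ρ (Equiv.swap a c) u')) := by
    intro c hc
    rw [rho_swap_comm ρ (wl m l), wl_apply l h.tail c (List.mem_toFinset.1 hc),
      wl_fix m a l fun d hd => (h.head_ne d hd).1]
  rw [Finset.sum_congr rfl h1, Finset.sum_congr rfl h2, Finset.sum_const, nsmul_eq_mul] at hsum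
  linarith

theorem swap_mem_InvJ {ρ : Representation ℝ (Equiv.Perm α) V} {J : Finset α} {a c : α}
    (ha : a ∉ J) (hc : c ∉ J) {u : V} (hu : u ∈ InvJ ρ J) : ρ (Equiv.swap a c) u ∈ InvJ ρ J := by
  intro p hp q hq
  have hp' : Equiv.swap a c p = p :=
    Equiv.swap_apply_of_ne_of_ne (fun e => ha (e ▸ hp)) (fun e => hc (e ▸ hp))
  have hq' : Equiv.swap a c q = q :=
    Equiv.swap_apply_of_ne_of_ne (fun e => ha (e ▸ hq)) (fun e => hc (e ▸ hq))
  have := rho_swap_comm ρ (Equiv.swap a c) p q u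
  rw [hu p hp q hq, hp', hq'] at this
  exact this.symm

/-- The sign lemma. -/
theorem sign_lemma {ρ : Representation ℝ (Equiv.Perm α) V} (hρ : IsOrth ρ) {U : Submodule ℝ V}
    {N : Finset α} (hU : Stab ρ U N) {J : Finset α} (hJ : J ⊆ N)
    (hno : NoInv ρ U N (J.card + 1)) {m : α → α} {u : V} (hu : u ∈ U ⊓ InvJ ρ J) :
    ∀ l : List α, Good N J m l → ∃ y ∈ InvJ ρ l.toFinset, ∃ c μ : ℝ, 0 < c ∧ 0 < μ ∧
      (∀ u' ∈ InvJ ρ J, (-1 : ℝ) ^ l.length * inner ℝ u (ρ (wl m l) u') = c * inner ℝ y u') ∧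
      ∀ y' ∈ InvJ ρ l.toFinset, inner ℝ y y' = μ * inner ℝ u y'
  | [], _ => by
    refine ⟨u, fun a ha => by simp at ha, 1, 1, one_pos, one_pos, fun u' _ => ?_, fun y' _ => ?_⟩
    · simp [wl]
    · simp
  | a :: l, h => by
    obtain ⟨y, hy, c, μ, hc, hμ, h1, h2⟩ := sign_lemma hρ hU hJ hno hu l h.tail
    have hal : a ∉ l.toFinset := fun e => (List.nodup_cons.1 h.1).1 (List.mem_toFinset.1 e)
    have ha := h.2.1 a List.mem_cons_self
    have hk : 0 < J.card - l.length := by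
      obtain ⟨k, hk, hk2, -⟩ := sign_step hρ hU hJ hno h hu hu.2
      omega
    have hkR : (0 : ℝ) < ((J.card - l.length : ℕ) : ℝ) := by exact_mod_cast hk
    refine ⟨y + ∑ q ∈ l.toFinset, ρ (Equiv.swap a q) y, ?_, c / ((J.card - l.length : ℕ) : ℝ),
      (l.toFinset.card + 1) * μ, div_pos hc hkR, by positivity, fun u' hu' => ?_,
      fun y' hy' => ?_⟩
    · rw [List.toFinset_cons]; exact symm_insert ρ _ a hal y hy
    · obtain ⟨k, -, hk2, hk3⟩ := sign_step hρ hU hJ hno h hu hu'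
      have hkk : J.card - l.length = k := by omega
      rw [hkk] at hkR ⊢
      have e1 : ∀ q ∈ l.toFinset, c * inner ℝ (ρ (Equiv.swap a q) y) u' =
          (-1 : ℝ) ^ l.length * inner ℝ u (ρ (wl m l) (ρ (Equiv.swap a q) u')) := by
        intro q hq
        rw [h1 _ (swap_mem_InvJ ha.2.1 (h.tail.2.1 q (List.mem_toFinset.1 hq)).2.1 hu'),
          inner_swap hρ]
      rw [div_mul_eq_mul_div, eq_div_iff hkR.ne', inner_add_left, sum_inner, mul_add,
        Finset.mul_sum, Finset.sum_congr rfl e1, ← h1 u' hu', ← Finset.mul_sum, List.length_cons,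
        pow_succ]
      linear_combination (-(-1 : ℝ) ^ l.length) * hk3
    · rw [List.toFinset_cons] at hy'
      have hy'' : y' ∈ InvJ ρ l.toFinset := InvJ_mono ρ (Finset.subset_insert _ _) hy'
      have e1 : ∀ q ∈ l.toFinset, inner ℝ (ρ (Equiv.swap a q) y) y' = μ * inner ℝ u y' := by
        intro q hq
        rw [← inner_swap hρ, hy' a (Finset.mem_insert_self _ _) q (Finset.mem_insert_of_mem hq),
          h2 y' hy'']
      rw [inner_add_left, sum_inner, Finset.sum_congr rfl e1, h2 y' hy'', Finset.sum_const,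
        nsmul_eq_mul]
      ring

theorem sign_nonneg {ρ : Representation ℝ (Equiv.Perm α) V} (hρ : IsOrth ρ) {U : Submodule ℝ V}
    {N : Finset α} (hU : Stab ρ U N) {J : Finset α} (hJ : J ⊆ N)
    (hno : NoInv ρ U N (J.card + 1)) {m : α → α} {u : V} (hu : u ∈ U ⊓ InvJ ρ J)
    (l : List α) (h : Good N J m l) : 0 ≤ (-1 : ℝ) ^ l.length * inner ℝ u (ρ (wl m l) u) := by
  obtain ⟨y, hy, c, μ, hc, hμ, h1, h2⟩ := sign_lemma hρ hU hJ hno hu l h
  rw [h1 u hu.2]
  have h3 := h2 y hy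
  have h4 : (0 : ℝ) ≤ inner ℝ y y := real_inner_self_nonneg
  rw [h3] at h4
  rw [real_inner_comm]
  exact mul_nonneg hc.le (nonneg_of_mul_nonneg_right h4 hμ)

theorem D_ge {ρ : Representation ℝ (Equiv.Perm α) V} (hρ : IsOrth ρ) {U : Submodule ℝ V}
    {N : Finset α} (hU : Stab ρ U N) {J : Finset α} (hJ : J ⊆ N)
    (hno : NoInv ρ U N (J.card + 1)) {m : α → α} {u : V} (hu : u ∈ U ⊓ InvJ ρ J) :
    ∀ (T S : List α), Good N J m (S ++ T) → (-1 : ℝ) ^ S.length * inner ℝ u (ρ (wl m S) u) ≤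
      (-1 : ℝ) ^ S.length * inner ℝ u (Dop ρ m T (ρ (wl m S) u))
  | [], S, _ => by simp [Dop]
  | a :: T, S, h => by
    have h' : Good N J m ((a :: S) ++ T) := h.perm List.perm_middle
    have i1 := D_ge hρ hU hJ hno hu T S h'.tail
    have i2 := D_ge hρ hU hJ hno hu T (a :: S) h'
    have i3 := sign_nonneg hρ hU hJ hno hu (a :: S) h'.left
    rw [List.length_cons, pow_succ] at i2 i3
    rw [wl, rho_mul] at i2 i3
    rw [Dop, Module.End.mul_apply, LinearMap.sub_apply, Module.End.one_apply, map_sub,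
      inner_sub_right]
    linarith

/-- `D` is injective on `U^J`. -/
theorem D_inj {ρ : Representation ℝ (Equiv.Perm α) V} (hρ : IsOrth ρ) {U : Submodule ℝ V}
    {N : Finset α} (hU : Stab ρ U N) {J : Finset α} (hJ : J ⊆ N)
    (hno : NoInv ρ U N (J.card + 1)) {m : α → α} {u : V} (hu : u ∈ U ⊓ InvJ ρ J)
    (T : List α) (h : Good N J m T) (h0 : Dop ρ m T u = 0) : u = 0 := by
  have := D_ge hρ hU hJ hno hu T [] h
  simp only [List.length_nil, pow_zero, wl, map_one, Module.End.one_apply, one_mul, h0,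
    inner_zero_right] at this
  exact inner_self_eq_zero.1 (le_antisymm this real_inner_self_nonneg)

/-- `D` kills the vectors fixed by one of its transpositions. -/
theorem D_kill {ρ : Representation ℝ (Equiv.Perm α) V} {N J : Finset α} {m : α → α} {a : α} :
    ∀ (T : List α), Good N J m T → a ∈ T → ∀ v, ρ (Equiv.swap a (m a)) v = v → Dop ρ m T v = 0
  | [], _, ha, _, _ => absurd ha List.not_mem_nil
  | b :: T, h, ha, v, hv => by
    rw [Dop, Module.End.mul_apply, LinearMap.sub_apply, Module.End.one_apply]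
    rcases List.mem_cons.1 ha with ha | ha
    · rw [← ha, hv, sub_self, map_zero]
    · refine D_kill T h.tail ha _ ?_
      have hne := h.head_ne a ha
      rw [map_sub, hv, rho_swap_comm, hv, Equiv.swap_apply_of_ne_of_ne hne.1.1 hne.1.2,
        Equiv.swap_apply_of_ne_of_ne hne.2.1 hne.2.2]

end Crest.Agent.R155.M1
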