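import Crest.Agent.R155.Defs

/-! Auxiliary estimates for `numerics`: Stirling bounds and the low regime. -/

set_option autoImplicit false

namespace Crest.Agent.R155.Num

open Finset Filter Topology

lemma stirling_sq {m : ℕ} (hm : 1 ≤ m) :
    ((m.factorial : ℝ) * Real.exp m / (m : ℝ) ^ m) ^ 2 ≤ Real.exp 2 * m := by
  obtain ⟨k, rfl⟩ : ∃ k, m = k + 1 := ⟨m - 1, by omega⟩
  have h := Stirling.stirlingSeq'_antitone (Nat.zero_le k)
  simp only [Function.comp, Nat.succ_eq_add_one, zero_add, Stirling.stirlingSeq_one] at h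
  unfold Stirling.stirlingSeq at h
  set m : ℝ := ((k + 1 : ℕ) : ℝ) with hm'
  have hm0 : 0 < m := by positivity
  have he := Real.exp_pos 1
  rw [div_le_div_iff₀ (by positivity) (by positivity)] at h
  have h1 : Real.exp m = Real.exp 1 ^ (k + 1) := by rw [← Real.exp_nat_mul, mul_one]
  have h2 : ((k + 1).factorial : ℝ) * Real.exp m / m ^ (k + 1) ≤ Real.exp 1 * √m := by
    rw [div_le_iff₀ (by positivity), h1]
    rw [Real.sqrt_mul (by norm_num), div_pow] at h
    have h3 : 0 < √2 := by positivity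
    have h4 : ((k + 1).factorial : ℝ) ≤ Real.exp 1 * (√m * (m ^ (k + 1) / Real.exp 1 ^ (k + 1))) := by
      refine le_of_mul_le_mul_right ?_ h3
      linarith
    calc ((k + 1).factorial : ℝ) * Real.exp 1 ^ (k + 1)
        ≤ Real.exp 1 * (√m * (m ^ (k + 1) / Real.exp 1 ^ (k + 1))) * Real.exp 1 ^ (k + 1) := by
          gcongr
      _ = _ := by field_simp
  calc _ ≤ (Real.exp 1 * √m) ^ 2 := by gcongr
    _ = Real.exp 2 * m := by
      rw [mul_pow, Real.sq_sqrt hm0.le, ← Real.exp_nat_mul]; norm_num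

lemma stirling_lin {m : ℕ} (hm : 1 ≤ m) :
    (m.factorial : ℝ) * Real.exp m / (m : ℝ) ^ m ≤ Real.exp 1 * m := by
  have h := stirling_sq hm
  have hm1 : (1:ℝ) ≤ m := by exact_mod_cast hm
  refine (pow_le_pow_iff_left₀ (by positivity) (by positivity) two_ne_zero).1 (h.trans ?_)
  rw [mul_pow, ← Real.exp_nat_mul]
  norm_num
  gcongr
  nlinarith

/-- crude rational Stirling bound -/
lemma stirling_rat {m : ℕ} (hm : 1 ≤ m) :
    (m.factorial : ℝ) ≤ 3 * m * ((m : ℝ) * (500 / 1359)) ^ m := by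
  have h := stirling_lin hm
  have hm0 : (0:ℝ) < m := by exact_mod_cast hm
  rw [div_le_iff₀ (by positivity)] at h
  have h1 : Real.exp m = Real.exp 1 ^ m := by rw [← Real.exp_nat_mul, mul_one]
  have h2 : (1359 / 500 : ℝ) ^ m ≤ Real.exp m := by
    rw [h1]; gcongr; linarith [Real.exp_one_gt_d9]
  have h3 : Real.exp 1 ≤ 3 := by linarith [Real.exp_one_lt_d9]
  have h4 : (m.factorial : ℝ) * (1359 / 500) ^ m ≤ 3 * m * (m : ℝ) ^ m :=
    (mul_le_mul_of_nonneg_left h2 (by positivity)).trans (h.trans (by gcongr))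
  have h5 : (3 * m * ((m : ℝ) * (500 / 1359)) ^ m) * (1359 / 500) ^ m = 3 * m * (m : ℝ) ^ m := by
    rw [mul_assoc, ← mul_pow]; congr 2; ring
  exact le_of_mul_le_mul_right (h4.trans h5.ge) (by positivity)

lemma stirling_mul (a : ℕ) (ha : 1 ≤ a) {N : ℕ} (hN : 1 ≤ N) :
    ((a * N).factorial : ℝ) ≤ 3 * a * N * (((a : ℝ) * (500 / 1359)) ^ a) ^ N * (N : ℝ) ^ (a * N) := by
  have h := stirling_rat (m := a * N) (Nat.mul_pos ha hN)
  push_cast at h
  rw [← pow_mul]
  calc _ ≤ _ := h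
    _ = _ := by rw [show (a : ℝ) * N * (500 / 1359) = a * (500 / 1359) * N by ring, mul_pow]; ring

lemma fact_mul_le (a l d : ℕ) (h : a ≤ l) :
    (a + d).factorial * l.factorial ≤ a.factorial * (l + d).factorial := by
  induction d with
  | zero => simp
  | succ d ih =>
    rw [← add_assoc, ← add_assoc, Nat.factorial_succ, Nat.factorial_succ, mul_assoc,
      mul_left_comm a.factorial]
    exact Nat.mul_le_mul (by omega) ih

lemma zb_div_choose (Q : ℝ) (h k l : ℕ) (z : ℝ) :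
    zb Q h (k + l) z / ((k + l).choose k : ℝ)
      = (k.factorial : ℝ) * l.factorial / ((2 * h : ℝ) * z) ^ (k + l)
        * (1 + 2 * z + Q * z ^ 2) ^ h := by
  have h1 : (((k + l).choose k : ℕ) : ℝ) * k.factorial * l.factorial = (k + l).factorial := by
    have := Nat.choose_mul_factorial_mul_factorial (Nat.le_add_right k l)
    rw [Nat.add_sub_cancel_left] at this
    exact_mod_cast this
  have h2 : (((k + l).choose k : ℕ) : ℝ) ≠ 0 := by
    exact_mod_cast (Nat.choose_pos (Nat.le_add_right k l)).ne'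
  unfold zb
  rw [← h1]
  field_simp

lemma P_pow_le {z : ℝ} (hz : 0 ≤ z) (h : ℕ) :
    (1 + 2 * z + 19 * z ^ 2) ^ h ≤ Real.exp (h * (2 * z + 19 * z ^ 2)) := by
  rw [Real.exp_nat_mul]
  gcongr
  linarith [Real.add_one_le_exp (2 * z + 19 * z ^ 2)]

lemma Z_zero_le {Z : ℝ} {h : ℕ} (hZ : ∀ z : ℝ, 0 < z → Z ≤ zb 19 h 0 z) : Z ≤ 1 := by
  have h1 : Tendsto (fun z : ℝ => (1 + 2 * z + 19 * z ^ 2) ^ h) (𝓝[>] 0) (𝓝 1) := by
    have : Continuous (fun z : ℝ => (1 + 2 * z + 19 * z ^ 2) ^ h) := by fun_prop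
    simpa using (this.tendsto 0).mono_left (nhdsWithin_le_nhds (s := Set.Ioi 0))
  refine ge_of_tendsto h1 ?_
  filter_upwards [self_mem_nhdsWithin] with z hz
  simpa [zb] using hZ z hz

/-- the choice of `l` in the low regime -/
def ell (N k : ℕ) : ℕ := Nat.sqrt (4 * k * N) + 1

lemma ell_le {N k : ℕ} (hk : k < 4 * N) : ell N k ≤ 4 * N + 1 := by
  unfold ell
  have : Nat.sqrt (4 * k * N) < 4 * N := by
    rw [Nat.sqrt_lt]
    nlinarith
  omega

lemma low_A {N k : ℕ} (hk1 : 1 ≤ k) (hk : k < 4 * N) {Z : ℝ}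
    (hZ : ∀ z : ℝ, 0 < z → Z ≤ zb 19 (32 * N) k z) :
    ((64 * N).choose k : ℝ) * Z ≤ (64 * N / k) ^ k * Real.exp (51 / 32 * k) := by
  have hk0 : (0:ℝ) < k := by exact_mod_cast hk1
  have hkN : (k:ℝ) ≤ 4 * N := by exact_mod_cast hk.le
  have hN : (0:ℝ) < N := by linarith
  have h1 := hZ (k / (64 * N)) (by positivity)
  have h2 : ((64 * N).choose k : ℝ) * k.factorial ≤ (64 * N) ^ k := by
    have := Nat.choose_le_pow_div (α := ℝ) k (64 * N)
    rw [le_div_iff₀ (by positivity)] at this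
    exact_mod_cast this
  have h3 := P_pow_le (z := k / (64 * N)) (by positivity) (32 * N)
  have h4 : ((32 * N : ℕ) : ℝ) * (2 * (k / (64 * N)) + 19 * (k / (64 * N)) ^ 2) ≤ 51 / 32 * k := by
    push_cast
    have : (32 * N : ℝ) * (2 * (k / (64 * N)) + 19 * (k / (64 * N)) ^ 2)
        = k + 19 / 32 * k * (k / (4 * N)) := by field_simp; ring
    rw [this]
    have h5 : (k:ℝ) / (4 * N) ≤ 1 := by rw [div_le_one (by positivity)]; exact hkN
    nlinarith
  have h6 : (2 * ((32 * N : ℕ) : ℝ)) * (k / (64 * N)) = k := by push_cast; field_simp; norm_num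
  unfold zb at h1
  rw [h6] at h1
  calc ((64 * N).choose k : ℝ) * Z
      ≤ ((64 * N).choose k : ℝ) * (k.factorial / (k:ℝ) ^ k * Real.exp (51 / 32 * k)) := by
        gcongr
        exact h1.trans (by gcongr; exact h3.trans (Real.exp_le_exp.2 h4))
    _ = ((64 * N).choose k : ℝ) * k.factorial / (k:ℝ) ^ k * Real.exp (51 / 32 * k) := by ring
    _ ≤ (64 * N) ^ k / (k:ℝ) ^ k * Real.exp (51 / 32 * k) := by gcongr
    _ = _ := by rw [div_pow]

lemma low_B {N k : ℕ} (hk1 : 1 ≤ k) (hk : k < 4 * N) {Z : ℝ} (hZ0 : 0 ≤ Z)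
    (hZ : ∀ z : ℝ, 0 < z → Z ≤ zb 19 (32 * N) (k + ell N k) z) :
    (Z / ((k + ell N k).choose k : ℝ)) ^ 2
      ≤ Real.exp 10 * (k:ℝ) ^ 2 * ell N k * (k / (4 * N)) ^ k * Real.exp (-(13 / 16) * k) := by
  have hk0 : (0:ℝ) < k := by exact_mod_cast hk1
  have hkN : (k:ℝ) ≤ 4 * N := by exact_mod_cast hk.le
  have hN : (0:ℝ) < N := by linarith
  have hN1 : (1:ℝ) ≤ N := by exact_mod_cast (by omega : 1 ≤ N)
  set l := ell N k with hl
  have hl1 : 1 ≤ l := by rw [hl, ell]; omega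
  have hl0 : (0:ℝ) < l := by exact_mod_cast hl1
  have hlo : 4 * (k:ℝ) * N ≤ (l:ℝ) ^ 2 := by
    have := (Nat.lt_succ_sqrt' (4 * k * N)).le
    exact_mod_cast this
  have hhi : ((l:ℝ) - 1) ^ 2 ≤ 4 * k * N := by
    have := Nat.sqrt_le' (4 * k * N)
    rw [hl, ell]; push_cast
    rw [add_sub_cancel_right]; exact_mod_cast this
  have hl4 : (l:ℝ) ≤ 4 * N + 1 := by exact_mod_cast ell_le hk
  have h1 : Z / ((k + l).choose k : ℝ) ≤ zb 19 (32 * N) (k + l) (l / (64 * N))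
      / ((k + l).choose k : ℝ) := by
    gcongr; exact hZ _ (by positivity)
  rw [zb_div_choose] at h1
  have h6 : (2 * ((32 * N : ℕ) : ℝ)) * (l / (64 * N)) = l := by push_cast; field_simp; norm_num
  rw [h6] at h1
  have h3 := P_pow_le (z := l / (64 * N)) (by positivity) (32 * N)
  have h4 : ((32 * N : ℕ) : ℝ) * (2 * (l / (64 * N)) + 19 * (l / (64 * N)) ^ 2)
      ≤ l + (19 / 32 * k + 3) := by
    push_cast
    have : (32 * N : ℝ) * (2 * (l / (64 * N)) + 19 * (l / (64 * N)) ^ 2)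
        = l + 19 / 128 * (l ^ 2 / N) := by field_simp; ring
    rw [this]
    have h5 : (l:ℝ) ^ 2 / N ≤ 4 * k + 10 := by
      rw [div_le_iff₀ hN]; nlinarith
    linarith
  have h7 : Z / ((k + l).choose k : ℝ)
      ≤ (k.factorial * Real.exp k / (k:ℝ) ^ k) * (l.factorial * Real.exp l / (l:ℝ) ^ l)
        * ((k:ℝ) / l) ^ k * Real.exp (3 - 13 / 32 * k) := by
    refine h1.trans ?_
    calc _ ≤ (k.factorial : ℝ) * l.factorial / (l:ℝ) ^ (k + l)
          * Real.exp (l + (19 / 32 * k + 3)) := by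
          gcongr; exact h3.trans (Real.exp_le_exp.2 h4)
      _ = _ := by
          have : Real.exp (l + (19 / 32 * k + 3))
              = Real.exp k * Real.exp l * Real.exp (3 - 13 / 32 * k) := by
            rw [← Real.exp_add, ← Real.exp_add]; congr 1; ring
          rw [this, pow_add, div_pow]
          field_simp
  have h8 := stirling_lin hk1
  have h9 := stirling_sq hl1
  have h10 : (((k:ℝ) / l) ^ k) ^ 2 ≤ (k / (4 * N)) ^ k := by
    rw [← pow_mul, mul_comm k 2, pow_mul]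
    gcongr
    rw [div_pow, div_le_div_iff₀ (by positivity) (by positivity)]
    nlinarith
  calc _ ≤ ((k.factorial * Real.exp k / (k:ℝ) ^ k) * (l.factorial * Real.exp l / (l:ℝ) ^ l)
        * ((k:ℝ) / l) ^ k * Real.exp (3 - 13 / 32 * k)) ^ 2 := by gcongr
    _ = (k.factorial * Real.exp k / (k:ℝ) ^ k) ^ 2 * (l.factorial * Real.exp l / (l:ℝ) ^ l) ^ 2
        * (((k:ℝ) / l) ^ k) ^ 2 * Real.exp (3 - 13 / 32 * k) ^ 2 := by ring
    _ ≤ (Real.exp 1 * k) ^ 2 * (Real.exp 2 * l) * (k / (4 * N)) ^ k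
        * Real.exp (3 - 13 / 32 * k) ^ 2 := by gcongr
    _ = _ := by
        have e1 : Real.exp 10 * Real.exp (-(13 / 16) * k)
            = Real.exp 1 ^ 2 * Real.exp 2 * Real.exp (3 - 13 / 32 * k) ^ 2 := by
          rw [← Real.exp_nat_mul, ← Real.exp_nat_mul, ← Real.exp_add, ← Real.exp_add,
            ← Real.exp_add]
          congr 1; push_cast; ring
        linear_combination (-(k:ℝ) ^ 2 * l * (k / (4 * N)) ^ k) * e1

/-- constant of the low regime -/
noncomputable def Klow : ℝ := Real.exp 155 * 10 ^ 8 * (Nat.factorial 49)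

lemma low {N k : ℕ} (hk1 : 1 ≤ k) (hk : k < 4 * N) {Z Z' : ℝ} (hZ0 : 0 ≤ Z) (hZ0' : 0 ≤ Z')
    (hZ : ∀ z : ℝ, 0 < z → Z ≤ zb 19 (32 * N) k z)
    (hZ' : ∀ z : ℝ, 0 < z → Z' ≤ zb 19 (32 * N) (k + ell N k) z) :
    ((64 * N).choose k : ℝ) * Z * (Z' / ((k + ell N k).choose k : ℝ)) ^ 31 ≤ Klow / N ^ 2 := by
  have hk0 : (0:ℝ) < k := by exact_mod_cast hk1
  have hk1' : (1:ℝ) ≤ k := by exact_mod_cast hk1
  have hkN : (k:ℝ) ≤ 4 * N := by exact_mod_cast hk.le
  have hN : (0:ℝ) < N := by linarith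
  have hN1 : (1:ℝ) ≤ N := by exact_mod_cast (by omega : 1 ≤ N)
  have hA := low_A hk1 hk hZ
  have hB := low_B hk1 hk hZ0' hZ'
  have hhi : ((ell N k : ℝ) - 1) ^ 2 ≤ 4 * k * N := by
    have := Nat.sqrt_le' (4 * k * N)
    rw [ell]; push_cast
    rw [add_sub_cancel_right]; exact_mod_cast this
  have hl1 : (1:ℝ) ≤ ell N k := by rw [ell]; push_cast; linarith [Nat.cast_nonneg (α := ℝ) (Nat.sqrt (4 * k * N))]
  set l : ℝ := (ell N k : ℝ) with hl
  set u : ℝ := k / (4 * N) with hu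
  have hu0 : 0 < u := by positivity
  have hu1 : u ≤ 1 := by rw [hu, div_le_one (by positivity)]; exact hkN
  have hl2 : l ^ 2 ≤ 10 * k * N := by nlinarith [sq_nonneg (l - 2), mul_le_mul hk1' hN1 zero_le_one hk0.le]
  have hl31 : l ^ 31 ≤ (10 * k * N) ^ 16 :=
    (pow_le_pow_right₀ hl1 (by norm_num : 31 ≤ 2 * 16)).trans (by rw [pow_mul]; gcongr)
  have hu29 : (u ^ k) ^ 29 ≤ (k / N) ^ 20 := by
    rw [← pow_mul]
    refine (pow_le_pow_of_le_one hu0.le hu1 (by omega : 20 ≤ k * 29)).trans ?_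
    gcongr
    rw [hu]; gcongr; linarith
  have h256 : (256:ℝ) ^ k * Real.exp (-22 * k) ≤ Real.exp (-k) ^ 2 := by
    have h1 : (256:ℝ) ≤ Real.exp 8 := by
      have : Real.exp 8 = Real.exp 1 ^ 8 := by rw [← Real.exp_nat_mul]; norm_num
      rw [this, show (256:ℝ) = 2 ^ 8 by norm_num]
      gcongr; linarith [Real.exp_one_gt_d9]
    calc (256:ℝ) ^ k * Real.exp (-22 * k) ≤ Real.exp 8 ^ k * Real.exp (-22 * k) := by gcongr
      _ ≤ _ := by
        rw [← Real.exp_nat_mul, ← Real.exp_nat_mul, ← Real.exp_add]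
        apply Real.exp_le_exp.2; push_cast; nlinarith
  have h49 : (k:ℝ) ^ 49 * Real.exp (-k) ≤ Nat.factorial 49 := by
    have := Real.pow_div_factorial_le_exp (k:ℝ) hk0.le 49
    rw [div_le_iff₀ (by positivity)] at this
    rw [Real.exp_neg, ← div_eq_mul_inv, div_le_iff₀ (by positivity)]
    linarith
  have hA' : (64 * N / k : ℝ) ^ k = 16 ^ k / u ^ k := by
    rw [← div_pow]; congr 1; rw [hu]; field_simp; norm_num
  rw [hA'] at hA
  set B := Z' / ((k + ell N k).choose k : ℝ) with hBdef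
  have hB0 : 0 ≤ B := by positivity
  refine (pow_le_pow_iff_left₀ (by positivity) (by unfold Klow; positivity) two_ne_zero).1 ?_
  calc (((64 * N).choose k : ℝ) * Z * B ^ 31) ^ 2
      = (((64 * N).choose k : ℝ) * Z) ^ 2 * (B ^ 2) ^ 31 := by ring
    _ ≤ (16 ^ k / u ^ k * Real.exp (51 / 32 * k)) ^ 2
        * (Real.exp 10 * (k:ℝ) ^ 2 * l * u ^ k * Real.exp (-(13 / 16) * k)) ^ 31 := by gcongr
    _ = Real.exp 155 ^ 2 * (k:ℝ) ^ 62 * l ^ 31 * (u ^ k) ^ 29
        * (256 ^ k * Real.exp (-22 * k)) := by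
        have e1 : Real.exp 10 ^ 31 = Real.exp 155 ^ 2 := by
          rw [← Real.exp_nat_mul, ← Real.exp_nat_mul]; norm_num
        have e2 : Real.exp (51 / 32 * k) ^ 2 * Real.exp (-(13 / 16) * k) ^ 31
            = Real.exp (-22 * k) := by
          rw [← Real.exp_nat_mul, ← Real.exp_nat_mul, ← Real.exp_add]; congr 1; push_cast; ring
        have e3 : (256:ℝ) ^ k = (16 ^ k) ^ 2 := by
          rw [← pow_mul, mul_comm, pow_mul]; norm_num
        rw [← e1, ← e2, e3]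
        have : u ^ k ≠ 0 := by positivity
        generalize u ^ k = w at *
        field_simp
    _ ≤ Real.exp 155 ^ 2 * (k:ℝ) ^ 62 * (10 * k * N) ^ 16 * (k / N) ^ 20
        * Real.exp (-k) ^ 2 := by gcongr
    _ = (Real.exp 155 * 10 ^ 8 * ((k:ℝ) ^ 49 * Real.exp (-k)) / N ^ 2) ^ 2 := by
        field_simp
    _ ≤ (Klow / N ^ 2) ^ 2 := by unfold Klow; gcongr

end Crest.Agent.R155.Num
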