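import Crest.Agent.R155.Defs

set_option autoImplicit false

namespace Crest.Agent.R155.Ren

open Finset BigOperators

theorem expect_prod {A B : Type*} [Fintype A] [Fintype B] (f : A × B → ℝ) :
    𝔼 x, f x = 𝔼 a, 𝔼 b, f (a, b) := by
  rw [← univ_product_univ, expect_product]

theorem expect_eq_zero_of_neg {A : Type*} [Fintype A] (e : A → A) (he : Function.Involutive e)
    (f : A → ℝ) (h : ∀ a, f (e a) = -f a) : 𝔼 a, f a = 0 := by
  have h1 : 𝔼 a, f (e a) = 𝔼 a, f a :=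
    Fintype.expect_equiv (he.toPerm e) _ _ fun _ => rfl
  simp only [h, expect_neg_distrib] at h1
  linarith

/-- Independent coins: the expectation of a product factorises. -/
theorem expect_prod_coins {β : Type*} [Fintype β] [DecidableEq β] (T : Finset β)
    (ψ : β → Bool → ℝ) :
    𝔼 s : β → Bool, ∏ q ∈ T, ψ q (s q) = ∏ q ∈ T, (ψ q false + ψ q true) / 2 := by
  have h1 : ∀ s : β → Bool, ∏ q ∈ T, ψ q (s q) = ∏ q, (if q ∈ T then ψ q (s q) else 1) := by
    intro s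
    rw [Fintype.prod_ite_mem]
  simp only [h1]
  rw [Fintype.expect_eq_sum_div_card, ← Fintype.piFinset_univ,
    ← prod_univ_sum (fun _ => (univ : Finset Bool)) (fun q b => if q ∈ T then ψ q b else 1)]
  rw [← Fintype.prod_ite_mem T (fun q => (ψ q false + ψ q true) / 2)]
  have h2 : ((Fintype.card (β → Bool) : ℕ) : ℝ) = ∏ _q : β, (2 : ℝ) := by simp
  rw [h2, ← prod_div_distrib]
  refine prod_congr rfl fun q _ => ?_
  by_cases hq : q ∈ T <;> simp [hq, add_comm]

theorem expect_prod_coins_perm {β : Type*} [Fintype β] [DecidableEq β] (T : Finset β)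
    (σ : Equiv.Perm β) (ψ : β → Bool → ℝ) :
    𝔼 s : β → Bool, ∏ q ∈ T, ψ q (s (σ q)) = ∏ q ∈ T, (ψ q false + ψ q true) / 2 := by
  rw [← expect_prod_coins T ψ]
  exact Fintype.expect_equiv (Equiv.arrowCongr σ.symm (Equiv.refl Bool)) _ _ fun _ => rfl

theorem fiber_le {Ω L : Type*} [DecidableEq L] (S : Finset Ω) (l : Ω → L) (τ V : ℝ) (hτ : 0 < τ)
    (hV : ((S.image l).card : ℝ) ≤ V) :
    ∑ _ω ∈ S, (S.card : ℝ) ^ τ ≤
      ∑ ω ∈ S, (V * ((S.filter fun ω' => l ω' = l ω).card : ℝ)) ^ τ := by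
  have hV0 : 0 ≤ V := le_trans (Nat.cast_nonneg _) hV
  set a : L → ℝ := fun y => ((S.filter fun ω' => l ω' = y).card : ℝ) with ha
  have ha0 : ∀ y, 0 ≤ a y := fun y => Nat.cast_nonneg _
  have hS : (S.card : ℝ) = ∑ y ∈ S.image l, a y := by
    rw [card_eq_sum_card_image l S]
    push_cast
    rfl
  have h1 : ∑ ω ∈ S, (V * a (l ω)) ^ τ = ∑ y ∈ S.image l, a y * (V * a y) ^ τ := by
    rw [← sum_fiberwise_of_maps_to (g := l) (t := S.image l) (fun ω hω => mem_image_of_mem l hω)]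
    refine sum_congr rfl fun y _ => ?_
    rw [sum_congr rfl (g := fun _ => (V * a y) ^ τ) fun ω hω => by rw [(mem_filter.1 hω).2]]
    simp [ha]
  have h2 := Real.rpow_sum_le_const_mul_sum_rpow_of_nonneg (S.image l) (f := a) (p := 1 + τ)
    (by linarith) fun y _ => ha0 y
  have hp : ∀ y : ℝ, 0 ≤ y → y ^ (1 + τ) = y * y ^ τ := fun y hy => by
    rw [Real.rpow_add' hy (by linarith), Real.rpow_one]
  calc ∑ _ω ∈ S, (S.card : ℝ) ^ τ = (S.card : ℝ) ^ (1 + τ) := by
        rw [hp _ (Nat.cast_nonneg _)]; simp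
    _ ≤ ((S.image l).card : ℝ) ^ (1 + τ - 1) * ∑ y ∈ S.image l, a y ^ (1 + τ) := by
        rw [hS]; exact h2
    _ ≤ V ^ τ * ∑ y ∈ S.image l, a y ^ (1 + τ) := by
        refine mul_le_mul_of_nonneg_right ?_ (sum_nonneg fun y _ => Real.rpow_nonneg (ha0 y) _)
        rw [add_sub_cancel_left]
        exact Real.rpow_le_rpow (Nat.cast_nonneg _) hV hτ.le
    _ = ∑ y ∈ S.image l, a y * (V * a y) ^ τ := by
        rw [mul_sum]
        refine sum_congr rfl fun y _ => ?_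
        rw [hp _ (ha0 y), Real.mul_rpow hV0 (ha0 y)]
        ring
    _ = _ := h1.symm

theorem expect_ite_eq_card {Ω : Type*} [Fintype Ω] (p : Ω → Prop) [DecidablePred p] :
    𝔼 ω, (if p ω then (1 : ℝ) else 0) = ((univ.filter p).card : ℝ) / Fintype.card Ω := by
  rw [Fintype.expect_eq_sum_div_card, sum_boole]

/-- Refining classes by labels: the power mean inequality. -/
theorem refine_le {Ω C L : Type*} [Fintype Ω] [Nonempty Ω] [DecidableEq C] [DecidableEq L]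
    (c : Ω → C) (l : Ω → L) (τ : ℝ) (hτ : 0 < τ) (F V : Ω → ℝ) (hF : ∀ ω, 0 ≤ F ω)
    (hFc : ∀ ω ω', c ω' = c ω → F ω' = F ω) (hVc : ∀ ω ω', c ω' = c ω → V ω' = V ω)
    (hV : ∀ ω, (((univ.filter fun ω' => c ω' = c ω).image l).card : ℝ) ≤ V ω) :
    𝔼 ω, (𝔼 ω', if c ω' = c ω then (1 : ℝ) else 0) ^ τ * F ω ≤
      𝔼 ω, (V ω * 𝔼 ω', if c ω' = c ω ∧ l ω' = l ω then (1 : ℝ) else 0) ^ τ * F ω := by
  simp only [expect_ite_eq_card]
  rw [Fintype.expect_eq_sum_div_card, Fintype.expect_eq_sum_div_card]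
  have hM : (0 : ℝ) < Fintype.card Ω := by exact_mod_cast Fintype.card_pos
  refine div_le_div_of_nonneg_right ?_ hM.le
  rw [← sum_fiberwise_of_maps_to (g := c) (t := univ.image c)
      (fun ω hω => mem_image_of_mem c hω),
    ← sum_fiberwise_of_maps_to (g := c) (t := univ.image c) (fun ω hω => mem_image_of_mem c hω)]
  refine sum_le_sum fun y hy => ?_
  obtain ⟨ω₀, -, rfl⟩ := mem_image.1 hy
  set S := univ.filter fun ω' => c ω' = c ω₀ with hS
  have hV0 : 0 ≤ V ω₀ := le_trans (Nat.cast_nonneg _) (hV ω₀)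
  have key := fiber_le S l τ (V ω₀) hτ (hV ω₀)
  have hMτ : 0 < (Fintype.card Ω : ℝ) ^ τ := Real.rpow_pos_of_pos hM τ
  calc ∑ ω ∈ S, (((univ.filter fun ω' => c ω' = c ω).card : ℝ) / Fintype.card Ω) ^ τ * F ω
      = (∑ _ω ∈ S, (S.card : ℝ) ^ τ) * (F ω₀ / (Fintype.card Ω : ℝ) ^ τ) := by
        rw [sum_mul]
        refine sum_congr rfl fun ω hω => ?_
        have h := (mem_filter.1 hω).2
        rw [hFc ω₀ ω h, h, Real.div_rpow (Nat.cast_nonneg _) hM.le]
        ring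
    _ ≤ (∑ ω ∈ S, (V ω₀ * ((S.filter fun ω' => l ω' = l ω).card : ℝ)) ^ τ) *
          (F ω₀ / (Fintype.card Ω : ℝ) ^ τ) :=
        mul_le_mul_of_nonneg_right key (div_nonneg (hF _) hMτ.le)
    _ = _ := by
        rw [sum_mul]
        refine sum_congr rfl fun ω hω => ?_
        have h := (mem_filter.1 hω).2
        rw [hFc ω₀ ω h, hVc ω₀ ω h, h, hS, filter_filter, ← mul_div_assoc (V ω₀),
          Real.div_rpow (mul_nonneg hV0 (Nat.cast_nonneg _)) hM.le]
        ring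

end Crest.Agent.R155.Ren
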