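import Crest.Agent.R155.Renyi_Basic

set_option autoImplicit false

namespace Crest.Agent.R155.Ren

open Finset BigOperators

section General

variable {α : Type*}

/-- `S` is closed under `σ⁻¹ ∘ g`. -/
def Closed (g : α → α) (σ : Equiv.Perm α) (S : Finset α) : Prop :=
  ∀ v ∈ S, ∃ w ∈ S, g v = σ w

/-- `R` meets all cycles of `σ⁻¹ ∘ g` inside `X`. -/
def Hit (g : α → α) (σ : Equiv.Perm α) (X R : Finset α) : Prop :=
  ∀ S ⊆ X, S.Nonempty → Closed g σ S → ∃ v ∈ S, v ∈ R

def TwoSided (g : α → α) (σ : Equiv.Perm α) (S : Finset α) : Prop :=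
  Closed g σ S ∧ ∀ w ∈ S, ∃ v ∈ S, g v = σ w

theorem exists_twoSided (g : α → α) (σ : Equiv.Perm α) (S : Finset α) (hne : S.Nonempty)
    (hS : Closed g σ S) : ∃ T ⊆ S, T.Nonempty ∧ TwoSided g σ T := by
  classical
  induction S using Finset.strongInduction with
  | H S ih =>
    by_cases h : ∀ w ∈ S, ∃ v ∈ S, g v = σ w
    · exact ⟨S, subset_rfl, hne, hS, h⟩
    · have hss : (S.filter fun w => ∃ v ∈ S, g v = σ w) ⊂ S := filter_ssubset.2 (by
        push Not at h
        obtain ⟨w, hw, h'⟩ := h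
        exact ⟨w, hw, by push Not; exact h'⟩)
      obtain ⟨T, hT, h'⟩ := ih _ hss (by
        obtain ⟨v, hv⟩ := hne
        obtain ⟨w, hw, e⟩ := hS v hv
        exact ⟨w, mem_filter.2 ⟨hw, v, hv, e⟩⟩) (by
        intro v hv
        have hv' := (mem_filter.1 hv).1
        obtain ⟨w, hw, e⟩ := hS v hv'
        exact ⟨w, mem_filter.2 ⟨hw, v, hv', e⟩, e⟩)
      exact ⟨T, hT.trans hss.subset, h'⟩

theorem TwoSided.injOn {g : α → α} {σ : Equiv.Perm α} {S : Finset α} (h : TwoSided g σ S) :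
    Set.InjOn g S := by
  classical
  refine injOn_of_card_image_eq (le_antisymm card_image_le ?_)
  rw [← card_image_of_injective S σ.injective]
  refine card_le_card fun y hy => ?_
  obtain ⟨w, hw, rfl⟩ := mem_image.1 hy
  obtain ⟨v, hv, e⟩ := h.2 w hw
  exact mem_image.2 ⟨v, hv, e⟩

theorem TwoSided.unique {g : α → α} {σ : Equiv.Perm α} {S T : Finset α} (hS : TwoSided g σ S)
    (hT : TwoSided g σ T) {v w : α} (hv : v ∈ S) (hw : w ∈ T) (e : g v = g w) : v = w := by
  classical
  have h : TwoSided g σ (S ∪ T) := by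
    constructor
    · intro a ha
      rcases mem_union.1 ha with ha | ha
      · obtain ⟨b, hb, e⟩ := hS.1 a ha
        exact ⟨b, mem_union_left _ hb, e⟩
      · obtain ⟨b, hb, e⟩ := hT.1 a ha
        exact ⟨b, mem_union_right _ hb, e⟩
    · intro a ha
      rcases mem_union.1 ha with ha | ha
      · obtain ⟨b, hb, e⟩ := hS.2 a ha
        exact ⟨b, mem_union_left _ hb, e⟩
      · obtain ⟨b, hb, e⟩ := hT.2 a ha
        exact ⟨b, mem_union_right _ hb, e⟩
  exact h.injOn (mem_coe.2 (mem_union_left _ hv)) (mem_coe.2 (mem_union_right _ hw)) e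

open Classical in
/-- The predecessor of a periodic point on its cycle. -/
noncomputable def cpred (g : α → α) (σ : Equiv.Perm α) (p : α) : α :=
  if h : ∃ v, ∃ S, TwoSided g σ S ∧ v ∈ S ∧ g v = σ p then h.choose else p

theorem cpred_eq {g : α → α} {σ : Equiv.Perm α} {S : Finset α} (hS : TwoSided g σ S) {v p : α}
    (hv : v ∈ S) (e : g v = σ p) : cpred g σ p = v := by
  have h : ∃ v, ∃ S, TwoSided g σ S ∧ v ∈ S ∧ g v = σ p := ⟨v, S, hS, hv, e⟩
  rw [cpred, dif_pos h]
  obtain ⟨T, hT, hv', e'⟩ := h.choose_spec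
  exact hT.unique hS hv' hv (e'.trans e.symm)

variable {ι : Type*} [Fintype ι] [DecidableEq α]

def pay (u : ι → α → ℝ) (X : Finset α) (R : ι → Finset α) : ℝ :=
  ∏ v ∈ X, (1 + ∑ i, if v ∈ R i then u i v else 0)

/-- The weighted cycle functional. -/
noncomputable def W (g : ι → α → α) (u : ι → α → ℝ) (X : Finset α) (σ : Equiv.Perm α) : ℝ :=
  sInf (pay u X '' {R | ∀ i, Hit (g i) σ X (R i)})

omit [DecidableEq α] in
theorem hit_self (g : α → α) (σ : Equiv.Perm α) (X : Finset α) : Hit g σ X X :=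
  fun _ hS ⟨v, hv⟩ _ => ⟨v, hv, hS hv⟩

theorem exists_W [Fintype α] (g : ι → α → α) (u : ι → α → ℝ) (X : Finset α) (σ : Equiv.Perm α) :
    ∃ R : ι → Finset α, (∀ i, Hit (g i) σ X (R i)) ∧ pay u X R = W g u X σ := by
  have h : (pay u X '' {R | ∀ i, Hit (g i) σ X (R i)}).Nonempty :=
    ⟨_, fun _ => X, fun i => hit_self (g i) σ X, rfl⟩
  exact h.csInf_mem ((Set.toFinite _).image _)

theorem W_le [Fintype α] {g : ι → α → α} (u : ι → α → ℝ) {X : Finset α} {σ : Equiv.Perm α}
    {R : ι → Finset α} (hR : ∀ i, Hit (g i) σ X (R i)) : W g u X σ ≤ pay u X R :=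
  csInf_le ((Set.toFinite _).image _).bddBelow ⟨R, hR, rfl⟩

theorem pay_nonneg {u : ι → α → ℝ} (hu : ∀ i v, 0 ≤ u i v) (X : Finset α) (R : ι → Finset α) :
    0 ≤ pay u X R := by
  refine prod_nonneg fun v _ => add_nonneg zero_le_one (sum_nonneg fun i _ => ?_)
  split_ifs
  · exact hu i v
  · exact le_rfl

theorem W_nonneg [Fintype α] (g : ι → α → α) {u : ι → α → ℝ} (hu : ∀ i v, 0 ≤ u i v)
    (X : Finset α) (σ : Equiv.Perm α) : 0 ≤ W g u X σ := by
  obtain ⟨R, -, h⟩ := exists_W g u X σ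
  rw [← h]
  exact pay_nonneg hu X R

omit [DecidableEq α] in
theorem Hit.congr {g : α → α} {σ σ' : Equiv.Perm α} {X R : Finset α} (h : Hit g σ X R)
    (e : ∀ v ∈ X, σ' v = σ v) : Hit g σ' X R := by
  intro S hS hne hc
  refine h S hS hne fun v hv => ?_
  obtain ⟨w, hw, e'⟩ := hc v hv
  exact ⟨w, hw, e'.trans (e w (hS hw))⟩

theorem W_congr (g : ι → α → α) (u : ι → α → ℝ) {X : Finset α} {σ σ' : Equiv.Perm α}
    (e : ∀ v ∈ X, σ' v = σ v) : W g u X σ' = W g u X σ := by
  unfold W
  congr 2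
  ext R
  exact ⟨fun h i => (h i).congr fun v hv => (e v hv).symm, fun h i => (h i).congr e⟩

end General

section Step

variable {β : Type*}

/-- One step of the Beneš recursion. -/
def ben (s : β → Bool) (σ₀ σ₁ : Equiv.Perm β) (s' : β → Bool) : Equiv.Perm (Bool × β) :=
  sw s' * blk σ₀ σ₁ * sw s

/-- The card sent to position `p` of the half `b`. -/
def inp (s : β → Bool) (b : Bool) (p : β) : Bool × β := (xor b (s p), p)

theorem inp_eq (s : β → Bool) (v : Bool × β) : inp s (xor v.1 (s v.2)) v.2 = v := by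
  simp [inp]

theorem ben_false (s : β → Bool) (σ₀ σ₁ : Equiv.Perm β) (s' : β → Bool) (p : β) :
    ben s σ₀ σ₁ s' (inp s false p) = inp s' false (σ₀ p) := by
  simp [ben, inp]

theorem ben_true (s : β → Bool) (σ₀ σ₁ : Equiv.Perm β) (s' : β → Bool) (p : β) :
    ben s σ₀ σ₁ s' (inp s true p) = inp s' true (σ₁ p) := by
  simp [ben, inp]

theorem inp_cases (s : β → Bool) (v : Bool × β) :
    (∃ p, v = inp s false p) ∨ ∃ p, v = inp s true p := by
  rcases h : xor v.1 (s v.2) with _ | _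
  · left; exact ⟨v.2, by rw [← h, inp_eq]⟩
  · right; exact ⟨v.2, by rw [← h, inp_eq]⟩

@[simp] theorem inp_side (s : β → Bool) (b : Bool) (p : β) :
    xor (inp s b p).1 (s (inp s b p).2) = b := by simp [inp]

@[simp] theorem inp_snd (s : β → Bool) (b : Bool) (p : β) : (inp s b p).2 = p := rfl

theorem mem_side [Fintype β] [DecidableEq β] {s : β → Bool} {b : Bool} {X : Finset (Bool × β)}
    {p : β} : p ∈ side s b X ↔ inp s b p ∈ X := by
  simp [side, inp]

theorem prod_side [Fintype β] [DecidableEq β] {M : Type*} [CommMonoid M] (s : β → Bool)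
    (X : Finset (Bool × β)) (f : Bool × β → M) :
    ∏ v ∈ X, f v = (∏ p ∈ side s false X, f (inp s false p)) *
      ∏ p ∈ side s true X, f (inp s true p) := by
  rw [← prod_filter_mul_prod_filter_not X (fun v => xor v.1 (s v.2) = false)]
  congr 1
  · symm
    refine prod_bij (fun p _ => inp s false p) ?_ ?_ ?_ fun _ _ => rfl
    · intro p hp
      exact mem_filter.2 ⟨mem_side.1 hp, inp_side _ _ _⟩
    · intro p _ q _ h
      exact congrArg Prod.snd h
    · intro v hv
      obtain ⟨h1, h2⟩ := mem_filter.1 hv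
      refine ⟨v.2, mem_side.2 ?_, ?_⟩ <;> rw [← h2, inp_eq]
      exact h1
  · symm
    refine prod_bij (fun p _ => inp s true p) ?_ ?_ ?_ fun _ _ => rfl
    · intro p hp
      exact mem_filter.2 ⟨mem_side.1 hp, by rw [inp_side]; simp⟩
    · intro p _ q _ h
      exact congrArg Prod.snd h
    · intro v hv
      obtain ⟨h1, h2⟩ := mem_filter.1 hv
      have h3 : xor v.1 (s v.2) = true := by simpa using h2
      refine ⟨v.2, mem_side.2 ?_, ?_⟩ <;> rw [← h3, inp_eq]
      exact h1

theorem sum_side [Fintype β] [DecidableEq β] (s : β → Bool)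
    (X : Finset (Bool × β)) (f : Bool × β → ℝ) :
    ∑ v ∈ X, f v = (∑ p ∈ side s false X, f (inp s false p)) +
      ∑ p ∈ side s true X, f (inp s true p) :=
  prod_side (M := Multiplicative ℝ) s X f

theorem card_side [Fintype β] [DecidableEq β] (s : β → Bool) (X : Finset (Bool × β)) :
    X.card = (side s false X).card + (side s true X).card := by
  have := prod_side (M := Multiplicative ℕ) s X fun _ => Multiplicative.ofAdd 1
  simpa [← ofAdd_nsmul, ← ofAdd_add] using this

/-- One move through the upper half. -/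
def retStep (g : Bool × β → Bool × β) (s : β → Bool) (σ₁ : Equiv.Perm β) (s' : β → Bool)
    (y : Bool × β) : Bool × β :=
  if xor y.1 (s' y.2) = false then y else g (inp s true (σ₁⁻¹ y.2))

open Classical in
/-- First return map to the lower half. -/
noncomputable def gLow (g : Bool × β → Bool × β) (s : β → Bool) (σ₁ : Equiv.Perm β)
    (s' : β → Bool) (p : β) : β :=
  if h : ∃ n, xor ((retStep g s σ₁ s')^[n] (g (inp s false p))).1
      (s' ((retStep g s σ₁ s')^[n] (g (inp s false p))).2) = false then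
    ((retStep g s σ₁ s')^[h.choose] (g (inp s false p))).2
  else p

/-- The family for the upper half (it forgets the output coins). -/
def gUp (g : Bool × β → Bool × β) (s : β → Bool) (p : β) : β := (g (inp s true p)).2

/-- The value of the output coin needed for the cycle through `p` to survive. -/
noncomputable def bitUp (g : Bool × β → Bool × β) (s : β → Bool) (σ₁ : Equiv.Perm β) (p : β) :
    Bool := !(g (inp s true (cpred (gUp g s) σ₁ p))).1

theorem hit_pure [Fintype β] [DecidableEq β] (g : Bool × β → Bool × β) (s : β → Bool)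
    (σ₀ σ₁ : Equiv.Perm β) (s' : β → Bool) (X : Finset (Bool × β)) (R : Finset β)
    (hR : Hit (gUp g s) σ₁ (side s true X) R) (S : Finset (Bool × β)) (hS : S ⊆ X)
    (hne : S.Nonempty) (hc : Closed g (ben s σ₀ σ₁ s') S) (hup : ∀ v ∈ S, ∃ p, v = inp s true p) :
    ∃ p ∈ R, inp s true p ∈ S ∧ s' (σ₁ p) = bitUp g s σ₁ p := by
  obtain ⟨T, hT, hTne, hT2⟩ := exists_twoSided g _ S hne hc
  have hT' : TwoSided (gUp g s) σ₁ (side s true T) := by
    constructor
    · intro p hp
      obtain ⟨w, hw, e⟩ := hT2.1 _ (mem_side.1 hp)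
      obtain ⟨q, rfl⟩ := hup w (hT hw)
      refine ⟨q, mem_side.2 hw, ?_⟩
      rw [gUp, e, ben_true, inp_snd]
    · intro p hp
      obtain ⟨w, hw, e⟩ := hT2.2 _ (mem_side.1 hp)
      obtain ⟨q, rfl⟩ := hup w (hT hw)
      refine ⟨q, mem_side.2 hw, ?_⟩
      rw [gUp, e, ben_true, inp_snd]
  obtain ⟨p, hp, hpR⟩ := hR (side s true T) (fun q hq => mem_side.2 (hS (hT (mem_side.1 hq))))
    (by
      obtain ⟨v, hv⟩ := hTne
      obtain ⟨q, rfl⟩ := hup v (hT hv)
      exact ⟨q, mem_side.2 hv⟩) hT'.1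
  refine ⟨p, hpR, hT (mem_side.1 hp), ?_⟩
  obtain ⟨w, hw, e⟩ := hT2.2 _ (mem_side.1 hp)
  obtain ⟨q, rfl⟩ := hup w (hT hw)
  have hq : cpred (gUp g s) σ₁ p = q :=
    cpred_eq hT' (mem_side.2 hw) (by rw [gUp, e, ben_true, inp_snd])
  rw [bitUp, hq, e, ben_true]
  simp [inp]

/-- Hitting sets of the two halves combine to a hitting set. -/
theorem hit_combine [Fintype β] [DecidableEq β] (g : Bool × β → Bool × β) (s : β → Bool)
    (σ₀ σ₁ : Equiv.Perm β) (s' : β → Bool) (X : Finset (Bool × β)) (RL RU : Finset β)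
    (hL : Hit (gLow g s σ₁ s') σ₀ (side s false X) RL)
    (hU : Hit (gUp g s) σ₁ (side s true X) RU) (R : Finset (Bool × β))
    (hRL : ∀ p ∈ RL, inp s false p ∈ R)
    (hRU : ∀ p ∈ RU, s' (σ₁ p) = bitUp g s σ₁ p → inp s true p ∈ R) :
    Hit g (ben s σ₀ σ₁ s') X R := by
  classical
  intro S hS hne hc
  set σ := ben s σ₀ σ₁ s' with hσ
  set φ := retStep g s σ₁ s' with hφ
  have hφ1 : ∀ p, φ (σ (inp s true p)) = g (inp s true p) := by
    intro p
    rw [hφ, retStep, hσ, ben_true, inp_side]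
    simp
  have hφ0 : ∀ p, φ (σ (inp s false p)) = σ (inp s false p) := by
    intro p
    rw [hφ, retStep, hσ, ben_false, inp_side]
    simp
  have hstay : ∀ n, ∀ v ∈ S, ∃ w ∈ S, φ^[n] (σ v) = σ w := by
    intro n
    induction n with
    | zero => exact fun v hv => ⟨v, hv, rfl⟩
    | succ n ih =>
      intro v hv
      obtain ⟨w, hw, e⟩ := ih v hv
      rw [Function.iterate_succ_apply', e]
      rcases inp_cases s w with ⟨p, rfl⟩ | ⟨p, rfl⟩
      · exact ⟨_, hw, hφ0 p⟩
      · rw [hφ1]; exact hc _ hw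
  have hlow : ∀ w, xor (σ w).1 (s' (σ w).2) = false → ∃ p, w = inp s false p := by
    intro w hw
    rcases inp_cases s w with h | ⟨p, rfl⟩
    · exact h
    · rw [hσ, ben_true, inp_side] at hw
      exact absurd hw (by simp)
  by_cases hA : ∃ v ∈ S, ∀ n, ¬xor (φ^[n] (σ v)).1 (s' (φ^[n] (σ v)).2) = false
  · set S' := S.filter fun v => ∀ n, ¬xor (φ^[n] (σ v)).1 (s' (φ^[n] (σ v)).2) = false with hS'
    have hup : ∀ v ∈ S', ∃ p, v = inp s true p := by
      intro v hv
      rcases inp_cases s v with ⟨p, rfl⟩ | h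
      · have := (mem_filter.1 hv).2 0
        rw [Function.iterate_zero_apply, hσ, ben_false, inp_side] at this
        exact absurd rfl this
      · exact h
    obtain ⟨p, hpR, hpS, hb⟩ := hit_pure g s σ₀ σ₁ s' X RU hU S'
      ((filter_subset _ _).trans hS)
      (by obtain ⟨v, hv, h⟩ := hA; exact ⟨v, mem_filter.2 ⟨hv, h⟩⟩)
      (by
        intro v hv
        obtain ⟨p, rfl⟩ := hup v hv
        obtain ⟨w, hw, e⟩ := hc _ (mem_filter.1 hv).1
        refine ⟨w, mem_filter.2 ⟨hw, fun n => ?_⟩, e⟩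
        have := (mem_filter.1 hv).2 (n + 1)
        rwa [Function.iterate_succ_apply, hφ1, e] at this) hup
    exact ⟨_, (mem_filter.1 hpS).1, hRU p hpR hb⟩
  · push Not at hA
    obtain ⟨p, hp, hpR⟩ := hL (side s false S) (fun q hq => mem_side.2 (hS (mem_side.1 hq)))
      (by
        obtain ⟨v, hv⟩ := hne
        obtain ⟨n, hn⟩ := hA v hv
        obtain ⟨w, hw, e⟩ := hstay n v hv
        rw [e] at hn
        obtain ⟨q, rfl⟩ := hlow w hn
        exact ⟨q, mem_side.2 hw⟩)
      (by
        intro p hp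
        obtain ⟨v, hv, e⟩ := hc _ (mem_side.1 hp)
        have h : ∃ n, xor (φ^[n] (g (inp s false p))).1
            (s' (φ^[n] (g (inp s false p))).2) = false := by
          rw [e]; exact hA v hv
        have h1 := h.choose_spec
        have h2 : gLow g s σ₁ s' p = (φ^[h.choose] (g (inp s false p))).2 := by
          rw [gLow, dif_pos h]
        obtain ⟨w, hw, e'⟩ := hstay h.choose v hv
        rw [← e] at e'
        rw [e'] at h1 h2
        obtain ⟨q, rfl⟩ := hlow w h1
        refine ⟨q, mem_side.2 hw, ?_⟩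
        rw [h2, hσ, ben_false, inp_snd])
    exact ⟨_, mem_side.1 hp, hRL p hpR⟩

end Step

end Crest.Agent.R155.Ren
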