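import Crest.Agent.R155.Renyi_Step

set_option autoImplicit false

namespace Crest.Agent.R155.Ren

open Finset BigOperators

variable {β : Type*}

theorem inp_not (s : β → Bool) (b : Bool) (p : β) : inp (fun q => !s q) b p = inp s (!b) p := by
  simp [inp]

theorem ben_not (s : β → Bool) (σ₀ σ₁ : Equiv.Perm β) (s' : β → Bool) :
    ben (fun q => !s q) σ₁ σ₀ (fun q => !s' q) = ben s σ₀ σ₁ s' := by
  refine Equiv.ext fun v => ?_
  rcases inp_cases s v with ⟨p, rfl⟩ | ⟨p, rfl⟩
  · rw [ben_false, show inp s false p = inp (fun q => !s q) true p from (inp_not s true p).symm,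
      ben_true, inp_not]
    rfl
  · rw [ben_true, show inp s true p = inp (fun q => !s q) false p from (inp_not s false p).symm,
      ben_false, inp_not]
    rfl

theorem valid_ben (X : Finset (Bool × β)) (s : β → Bool) (σ₀ σ₁ : Equiv.Perm β) (s' : β → Bool) :
    Valid X (ben s σ₀ σ₁ s') (s, s') := by
  intro v _
  rcases inp_cases s v with ⟨p, rfl⟩ | ⟨p, rfl⟩
  · rw [ben_false, inp_side, inp_side]
  · rw [ben_true, inp_side, inp_side]

variable [Fintype β] [DecidableEq β]

theorem side_not (s : β → Bool) (b : Bool) (X : Finset (Bool × β)) :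
    side (fun q => !s q) b X = side s (!b) X := by
  ext p
  rw [mem_side, mem_side, inp_not]

theorem card_inter_side (s : β → Bool) (X : Finset (Bool × β)) :
    (side s false X ∩ side s true X).card = npair X := by
  unfold npair
  congr 1
  ext p
  simp only [mem_inter, mem_side, mem_filter, mem_univ, true_and, inp]
  cases s p <;> simp [and_comm]

theorem agree_iff (X : Finset (Bool × β)) (s : β → Bool) (σ₀ σ₁ σ₀' σ₁' : Equiv.Perm β)
    (s' : β → Bool) :
    (∀ v ∈ X, ben s σ₀' σ₁' s' v = ben s σ₀ σ₁ s' v) ↔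
      (∀ p ∈ side s false X, σ₀' p = σ₀ p) ∧ ∀ p ∈ side s true X, σ₁' p = σ₁ p := by
  constructor
  · intro h
    refine ⟨fun p hp => ?_, fun p hp => ?_⟩
    · have := h _ (mem_side.1 hp)
      rw [ben_false, ben_false] at this
      exact congrArg Prod.snd this
    · have := h _ (mem_side.1 hp)
      rw [ben_true, ben_true] at this
      exact congrArg Prod.snd this
  · rintro ⟨h0, h1⟩ v hv
    rcases inp_cases s v with ⟨p, rfl⟩ | ⟨p, rfl⟩
    · rw [ben_false, ben_false, h0 p (mem_side.2 hv)]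
    · rw [ben_true, ben_true, h1 p (mem_side.2 hv)]

variable {Ω : Type*} [Fintype Ω]

/-- The Beneš network built from two independent copies of `π`. -/
def benStep (π : Ω → Equiv.Perm β) (ω : ((β → Bool) × (β → Bool)) × Ω × Ω) :
    Equiv.Perm (Bool × β) :=
  ben ω.1.1 (π ω.2.1) (π ω.2.2) ω.1.2

/-- The restriction of a permutation to `X`. -/
def cls (X : Finset (Bool × β)) (σ : Equiv.Perm (Bool × β)) : Bool × β → Bool × β :=
  fun v => if v ∈ X then σ v else v

omit [Fintype β] in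
theorem cls_eq_iff (X : Finset (Bool × β)) (σ σ' : Equiv.Perm (Bool × β)) :
    cls X σ' = cls X σ ↔ ∀ v ∈ X, σ' v = σ v := by
  constructor
  · intro h v hv
    have := congrFun h v
    simpa [cls, hv] using this
  · intro h
    funext v
    by_cases hv : v ∈ X <;> simp [cls, hv, h]

theorem refined_prob (π : Ω → Equiv.Perm β) (X : Finset (Bool × β))
    (ω : ((β → Bool) × (β → Bool)) × Ω × Ω) :
    (Fintype.card ((β → Bool) × (β → Bool)) : ℝ) *
      𝔼 ω', (if cls X (benStep π ω') = cls X (benStep π ω) ∧ ω'.1 = ω.1 then (1 : ℝ) else 0) =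
      kap π (side ω.1.1 false X) (π ω.2.1) * kap π (side ω.1.1 true X) (π ω.2.2) := by
  rw [expect_prod, Fintype.card_mul_expect, sum_eq_single ω.1]
  · rw [expect_prod, kap, kap, expect_mul_expect]
    refine expect_congr rfl fun ω₀ _ => expect_congr rfl fun ω₁ _ => ?_
    simp only [cls_eq_iff, benStep, agree_iff, and_true]
    split_ifs <;> simp_all
  · intro t _ ht
    exact expect_eq_zero fun _ _ => if_neg fun h => ht h.2
  · intro h
    exact absurd (mem_univ _) h

theorem refine_step [Nonempty Ω] {ι : Type} [Fintype ι] (π : Ω → Equiv.Perm β) (τ : ℝ)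
    (hτ : 0 < τ) (g : ι → Bool × β → Bool × β) (u : ι → Bool × β → ℝ) (hu : ∀ i v, 0 ≤ u i v)
    (X : Finset (Bool × β)) :
    𝔼 ω, kap (benStep π) X (benStep π ω) ^ τ * W g u X (benStep π ω) ≤
      𝔼 s, 𝔼 s', 𝔼 ω₀, 𝔼 ω₁, integ π τ g u X s s' ω₀ ω₁ := by
  have hM : (0 : ℝ) < Fintype.card ((β → Bool) × (β → Bool)) := by exact_mod_cast Fintype.card_pos
  have key := refine_le (fun ω => cls X (benStep π ω)) Prod.fst τ hτ
    (fun ω => W g u X (benStep π ω))
    (fun ω => (Fintype.card ((β → Bool) × (β → Bool)) : ℝ) * vp X (benStep π ω))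
    (fun ω => W_nonneg g hu _ _)
    (fun ω ω' h => W_congr g u ((cls_eq_iff _ _ _).1 h))
    (fun ω ω' h => by rw [vp_congr ((cls_eq_iff _ _ _).1 h)])
    (fun ω => by
      rw [vp, expect_ite_eq_card, mul_div_cancel₀ _ hM.ne']
      refine Nat.cast_le.2 (card_le_card fun t ht => ?_)
      obtain ⟨ω', hω', rfl⟩ := mem_image.1 ht
      have h := (cls_eq_iff _ _ _).1 (mem_filter.1 hω').2
      refine mem_filter.2 ⟨mem_univ _, fun v hv => ?_⟩
      rw [← h v hv]
      exact valid_ben X _ _ _ _ v hv)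
  refine le_trans (le_of_eq ?_) (key.trans_eq ?_)
  · refine expect_congr rfl fun ω _ => ?_
    rw [kap]
    congr 2
    refine expect_congr rfl fun ω' _ => ?_
    simp only [cls_eq_iff]
    congr
  · have : ∀ ω : ((β → Bool) × (β → Bool)) × Ω × Ω,
        ((Fintype.card ((β → Bool) × (β → Bool)) : ℝ) * vp X (benStep π ω) *
          𝔼 ω', (if cls X (benStep π ω') = cls X (benStep π ω) ∧ ω'.1 = ω.1 then (1 : ℝ)
            else 0)) ^ τ * W g u X (benStep π ω) =
          integ π τ g u X ω.1.1 ω.1.2 ω.2.1 ω.2.2 := by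
      intro ω
      rw [integ, ← refined_prob π X ω]
      congr 2
      rw [benStep]
      ring
    rw [expect_congr rfl fun ω _ => this ω, expect_prod, expect_prod]
    exact expect_congr rfl fun s _ => expect_congr rfl fun s' _ => expect_prod _

theorem step [Nonempty Ω] (π : Ω → Equiv.Perm β) (τ x a t : ℝ)
    (hτ : 0 < τ) (hx : (2 : ℝ) ^ τ ≤ x) (ha : 0 ≤ a) (G : Finset β → ℝ) (hG : ∀ X, 0 ≤ G X)
    (h : RB π τ a t G) :
    RB (benStep π) τ (a * ((2 : ℝ) ^ τ)⁻¹) (t * (x / 2 + 1 / 4)) fun X =>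
      Real.exp (t * (x - 1) * (npair X : ℝ)) *
        𝔼 s : β → Bool, G (side s false X) * G (side s true X) := by
  intro ι _ g u hu X
  refine (refine_step π τ hτ g u hu X).trans ?_
  rw [← mul_assoc, mul_expect]
  refine expect_le_expect fun s _ => ?_
  have h1 := oneSided π τ x a t hτ hx ha G hG h g u hu X s
  have h2 := oneSided π τ x a t hτ hx ha G hG h g u hu X fun q => !s q
  have hsym : 𝔼 s', 𝔼 ω₀, 𝔼 ω₁, integ π τ g u X (fun q => !s q) s' ω₀ ω₁ =
      𝔼 s', 𝔼 ω₀, 𝔼 ω₁, integ π τ g u X s s' ω₀ ω₁ := by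
    symm
    refine Fintype.expect_equiv (Function.Involutive.toPerm (fun (s' : β → Bool) q => !s' q)
      fun s' => by simp) _ _ fun s' => ?_
    rw [expect_comm]
    refine expect_congr rfl fun ω₁ _ => expect_congr rfl fun ω₀ _ => ?_
    simp only [integ, Function.Involutive.coe_toPerm, ben_not, side_not, Bool.not_false,
      Bool.not_true]
    rw [mul_comm (kap _ _ _)]
  rw [hsym] at h2
  simp only [side_not, inp_not, Bool.not_false, Bool.not_true] at h2
  rw [inter_comm, mul_comm (G _)] at h2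
  rw [card_inter_side] at h1 h2
  rw [sum_side s X]
  set S₀ := ∑ p ∈ side s false X, ∑ i, u i (inp s false p)
  set S₁ := ∑ p ∈ side s true X, ∑ i, u i (inp s true p)
  have hK : 0 ≤ (a * ((2 : ℝ) ^ τ)⁻¹) ^ X.card * (G (side s false X) * G (side s true X)) :=
    mul_nonneg (by positivity) (mul_nonneg (hG _) (hG _))
  have e : (a * ((2 : ℝ) ^ τ)⁻¹) ^ X.card * Real.exp (t * (x / 2 + 1 / 4) * (S₀ + S₁)) *
      Real.exp (t * (x - 1) * (npair X : ℝ)) * (G (side s false X) * G (side s true X)) =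
      (a * ((2 : ℝ) ^ τ)⁻¹) ^ X.card * (G (side s false X) * G (side s true X)) *
        Real.exp (t * (x / 2 + 1 / 4) * (S₀ + S₁) + t * (x - 1) * (npair X : ℝ)) := by
    rw [Real.exp_add]; ring
  rw [e]
  rcases le_total (t * (x * S₀ + (x - 1) * (npair X : ℝ) + S₁ / 2))
    (t * (x * S₁ + (x - 1) * (npair X : ℝ) + S₀ / 2)) with hle | hle
  · exact h1.trans (mul_le_mul_of_nonneg_left (Real.exp_le_exp.2 (by linarith)) hK)
  · exact h2.trans (mul_le_mul_of_nonneg_left (Real.exp_le_exp.2 (by linarith)) hK)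

theorem RB.of_law {Ω' : Type*} [Fintype Ω'] {π : Ω → Equiv.Perm β} {π' : Ω' → Equiv.Perm β}
    (hlaw : ∀ F : Equiv.Perm β → ℝ, 𝔼 ω, F (π' ω) = 𝔼 ω, F (π ω)) {τ a t : ℝ}
    {G : Finset β → ℝ} (h : RB π τ a t G) : RB π' τ a t G := by
  intro ι _ g u hu X
  have hk : kap π' X = kap π X :=
    funext fun σ => by
      unfold kap
      convert hlaw fun ρ => if ∀ v ∈ X, ρ v = σ v then (1 : ℝ) else 0
  rw [hk, hlaw fun ρ => kap π X ρ ^ τ * W g u X ρ]
  exact h ι g u hu X

omit [Fintype β] [DecidableEq β] in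
theorem law_pair (T : Ω → Equiv.Perm β) [Fintype β] [DecidableEq β]
    (F : Equiv.Perm (Bool × β) → ℝ) :
    𝔼 ω, F (pairLaw (fun θ : (β → Bool) × Ω × Ω => blk (T θ.2.1) (T θ.2.2) * sw θ.1) ω) =
      𝔼 ω, F (benStep (pairLaw T) ω) := by
  refine Fintype.expect_equiv
    { toFun := fun ω => ((ω.1.1, ω.2.1), (ω.1.2.1, ω.2.2.1), (ω.1.2.2, ω.2.2.2))
      invFun := fun ω => ((ω.1.1, ω.2.1.1, ω.2.2.1), (ω.1.2, ω.2.1.2, ω.2.2.2))
      left_inv := fun _ => rfl
      right_inv := fun _ => rfl } _ _ fun ω => ?_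
  congr 1
  simp only [pairLaw, benStep, ben, Equiv.coe_fn_mk, mul_inv_rev, sw_inv]
  rw [mul_assoc, mul_assoc, ← mul_assoc (blk _ _)⁻¹]
  congr 2
  rw [inv_mul_eq_iff_eq_mul]
  refine Equiv.ext fun v => ?_
  obtain ⟨b, p⟩ := v
  cases b <;> simp

end Crest.Agent.R155.Ren
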