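import Crest.Agent.R155.Renyi_Valid

set_option autoImplicit false

namespace Crest.Agent.R155.Ren

open Finset BigOperators

variable {β : Type*} [Fintype β] [DecidableEq β]

section Pointwise

variable {ι : Type} [Fintype ι]

/-- Families for the lower half. -/
noncomputable def gL (g : ι → Bool × β → Bool × β) (s : β → Bool) (σ₁ : Equiv.Perm β)
    (s' : β → Bool) : Option ι → β → β
  | none => σ₁
  | some i => gLow (g i) s σ₁ s'

/-- Weights for the lower half. -/
def uL (x : ℝ) (u : ι → Bool × β → ℝ) (s : β → Bool) (X : Finset (Bool × β)) : Option ι → β → ℝ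
  | none => fun p => if p ∈ side s true X then x - 1 else 0
  | some i => fun p => x * u i (inp s false p)

/-- Weights for the upper half. -/
noncomputable def uU (u : ι → Bool × β → ℝ) (s : β → Bool) (i : ι) (p : β) : ℝ :=
  u i (inp s true p) / 2

/-- Payment of the surviving cycles of the upper half. -/
noncomputable def payUp (g : ι → Bool × β → Bool × β) (u : ι → Bool × β → ℝ) (s : β → Bool)
    (X : Finset (Bool × β)) (σ₁ : Equiv.Perm β) (RU : ι → Finset β) (s' : β → Bool) : ℝ :=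
  ∏ p ∈ side s true X, (1 + ∑ i,
    if p ∈ RU i ∧ s' (σ₁ p) = bitUp (g i) s σ₁ p then u i (inp s true p) else 0)

theorem payUp_nonneg (g : ι → Bool × β → Bool × β) {u : ι → Bool × β → ℝ} (hu : ∀ i v, 0 ≤ u i v)
    (s : β → Bool) (X : Finset (Bool × β)) (σ₁ : Equiv.Perm β) (RU : ι → Finset β)
    (s' : β → Bool) : 0 ≤ payUp g u s X σ₁ RU s' := by
  refine prod_nonneg fun v _ => add_nonneg zero_le_one (sum_nonneg fun i _ => ?_)
  split_ifs
  · exact hu _ _
  · exact le_rfl

theorem expect_payUp (g : ι → Bool × β → Bool × β) (u : ι → Bool × β → ℝ) (s : β → Bool)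
    (X : Finset (Bool × β)) (σ₁ : Equiv.Perm β) (RU : ι → Finset β) :
    𝔼 s', payUp g u s X σ₁ RU s' = pay (uU u s) (side s true X) RU := by
  unfold payUp pay
  rw [expect_prod_coins_perm (side s true X) σ₁ (fun p b => 1 + ∑ i,
    if p ∈ RU i ∧ b = bitUp (g i) s σ₁ p then u i (inp s true p) else 0)]
  refine prod_congr rfl fun p _ => ?_
  have : ∀ i, (if p ∈ RU i then uU u s i p else 0) =
      ((if p ∈ RU i ∧ false = bitUp (g i) s σ₁ p then u i (inp s true p) else 0) +
        (if p ∈ RU i ∧ true = bitUp (g i) s σ₁ p then u i (inp s true p) else 0)) / 2 := by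
    intro i
    by_cases h : p ∈ RU i <;> cases bitUp (g i) s σ₁ p <;> simp [h, uU]
  simp only [this]
  rw [← sum_div, sum_add_distrib]
  ring

theorem uL_nonneg {x : ℝ} (hx : 1 ≤ x) {u : ι → Bool × β → ℝ} (hu : ∀ i v, 0 ≤ u i v)
    (s : β → Bool) (X : Finset (Bool × β)) : ∀ o p, 0 ≤ uL x u s X o p
  | none, p => by
    simp only [uL]
    split_ifs <;> linarith
  | some i, p => mul_nonneg (by linarith) (hu _ _)

theorem pointwise (τ x : ℝ) (hτ : 0 < τ) (hx : (2 : ℝ) ^ τ ≤ x) (g : ι → Bool × β → Bool × β)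
    (u : ι → Bool × β → ℝ) (hu : ∀ i v, 0 ≤ u i v) (X : Finset (Bool × β)) (s : β → Bool)
    (σ₀ σ₁ : Equiv.Perm β) (s' : β → Bool) (RU : ι → Finset β)
    (hRU : ∀ i, Hit (gUp (g i) s) σ₁ (side s true X) (RU i)) :
    vp X (ben s σ₀ σ₁ s') ^ τ * W g u X (ben s σ₀ σ₁ s') ≤
      (((2 : ℝ) ^ τ)⁻¹) ^ X.card * (W (gL g s σ₁ s') (uL x u s X) (side s false X) σ₀ *
        payUp g u s X σ₁ RU s') := by
  have hx1 : 1 ≤ x := le_trans (Real.one_le_rpow (by norm_num) hτ.le) hx
  obtain ⟨RL, hRL, hW⟩ := exists_W (gL g s σ₁ s') (uL x u s X) (side s false X) σ₀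
  set R : ι → Finset (Bool × β) := fun i => univ.filter fun v =>
    if xor v.1 (s v.2) = false then v.2 ∈ RL (some i)
    else v.2 ∈ RU i ∧ s' (σ₁ v.2) = bitUp (g i) s σ₁ v.2 with hR
  have hR0 : ∀ i p, inp s false p ∈ R i ↔ p ∈ RL (some i) := fun i p => by
    simp only [hR, mem_filter, mem_univ, true_and]
    rw [inp_side, if_pos rfl, inp_snd]
  have hR1 : ∀ i p, inp s true p ∈ R i ↔ p ∈ RU i ∧ s' (σ₁ p) = bitUp (g i) s σ₁ p :=
    fun i p => by
      simp only [hR, mem_filter, mem_univ, true_and]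
      rw [inp_side, if_neg (by simp), inp_snd]
  have hhit : ∀ i, Hit (g i) (ben s σ₀ σ₁ s') X (R i) := fun i =>
    hit_combine (g i) s σ₀ σ₁ s' X (RL (some i)) (RU i) (hRL (some i)) (hRU i) (R i)
      (fun p hp => (hR0 i p).2 hp) fun p hp hb => (hR1 i p).2 ⟨hp, hb⟩
  have h1 : W g u X (ben s σ₀ σ₁ s') ≤ (∏ p ∈ side s false X,
      (1 + ∑ i, if p ∈ RL (some i) then u i (inp s false p) else 0)) * payUp g u s X σ₁ RU s' := by
    refine (W_le u hhit).trans_eq ?_
    rw [pay, prod_side s]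
    simp only [hR0, hR1, payUp]
  have h2 : vp X (ben s σ₀ σ₁ s') ^ τ ≤ (((2 : ℝ) ^ τ)⁻¹) ^ X.card *
      ∏ p ∈ side s false X, if p ∈ RL none ∧ p ∈ side s true X then x else 1 := by
    refine (Real.rpow_le_rpow (vp_nonneg _ _) (vp_le s σ₀ σ₁ s' X (RL none) (hRL none))
      hτ.le).trans ?_
    rw [Real.div_rpow (by positivity) (by positivity), ← Real.rpow_pow_comm (by norm_num),
      ← Real.rpow_pow_comm (by norm_num), prod_ite, prod_const, prod_const_one, mul_one, inv_pow,
      div_eq_inv_mul]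
    refine mul_le_mul_of_nonneg_left ?_ (by positivity)
    exact pow_le_pow_left₀ (by positivity) hx _
  have h3 : (∏ p ∈ side s false X, if p ∈ RL none ∧ p ∈ side s true X then x else 1) *
      (∏ p ∈ side s false X, (1 + ∑ i, if p ∈ RL (some i) then u i (inp s false p) else 0)) ≤
      W (gL g s σ₁ s') (uL x u s X) (side s false X) σ₀ := by
    rw [← hW, pay, ← prod_mul_distrib]
    have ha : ∀ p, 0 ≤ ∑ i, if p ∈ RL (some i) then u i (inp s false p) else 0 := fun p =>
      sum_nonneg fun i _ => by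
        split_ifs
        · exact hu _ _
        · exact le_rfl
    refine prod_le_prod (fun p _ => mul_nonneg (by split_ifs <;> linarith)
      (add_nonneg zero_le_one (ha p))) fun p _ => ?_
    rw [Fintype.sum_option]
    have hs : (∑ i, if p ∈ RL (some i) then uL x u s X (some i) p else 0) =
        x * ∑ i, if p ∈ RL (some i) then u i (inp s false p) else 0 := by
      rw [mul_sum]
      refine sum_congr rfl fun i _ => ?_
      simp only [uL]
      split_ifs <;> simp
    rw [hs]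
    have := ha p
    by_cases h : p ∈ RL none <;> by_cases h' : p ∈ side s true X <;> simp only [uL, h, h'] <;>
      simp <;> nlinarith
  have hp := payUp_nonneg g hu s X σ₁ RU s'
  calc vp X (ben s σ₀ σ₁ s') ^ τ * W g u X (ben s σ₀ σ₁ s')
      ≤ ((((2 : ℝ) ^ τ)⁻¹) ^ X.card *
        ∏ p ∈ side s false X, if p ∈ RL none ∧ p ∈ side s true X then x else 1) *
        ((∏ p ∈ side s false X,
        (1 + ∑ i, if p ∈ RL (some i) then u i (inp s false p) else 0)) *
          payUp g u s X σ₁ RU s') := by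
        refine mul_le_mul h2 h1 (W_nonneg g hu _ _) (le_trans ?_ h2)
        exact Real.rpow_nonneg (vp_nonneg _ _) _
    _ = (((2 : ℝ) ^ τ)⁻¹) ^ X.card *
        (((∏ p ∈ side s false X, if p ∈ RL none ∧ p ∈ side s true X then x else 1) *
        (∏ p ∈ side s false X, (1 + ∑ i, if p ∈ RL (some i) then u i (inp s false p) else 0))) *
          payUp g u s X σ₁ RU s') := by ring
    _ ≤ _ := mul_le_mul_of_nonneg_left (mul_le_mul_of_nonneg_right h3 hp) (by positivity)

end Pointwise

variable {Ω : Type*} [Fintype Ω]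

/-- The inductive claim. -/
def RB (π : Ω → Equiv.Perm β) (τ a t : ℝ) (G : Finset β → ℝ) : Prop :=
  ∀ (ι : Type) [Fintype ι] (g : ι → β → β) (u : ι → β → ℝ), (∀ i v, 0 ≤ u i v) →
    ∀ X : Finset β, 𝔼 ω, kap π X (π ω) ^ τ * W g u X (π ω) ≤
      a ^ X.card * Real.exp (t * ∑ v ∈ X, ∑ i, u i v) * G X

omit [Fintype β] in
theorem kap_nonneg (π : Ω → Equiv.Perm β) (X : Finset β) (σ : Equiv.Perm β) : 0 ≤ kap π X σ :=
  expect_nonneg fun _ _ => by split_ifs <;> norm_num

/-- The integrand after refining the classes. -/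
noncomputable def integ {ι : Type} [Fintype ι] (π : Ω → Equiv.Perm β) (τ : ℝ)
    (g : ι → Bool × β → Bool × β) (u : ι → Bool × β → ℝ) (X : Finset (Bool × β))
    (s s' : β → Bool) (ω₀ ω₁ : Ω) : ℝ :=
  (vp X (ben s (π ω₀) (π ω₁) s') *
    (kap π (side s false X) (π ω₀) * kap π (side s true X) (π ω₁))) ^ τ *
    W g u X (ben s (π ω₀) (π ω₁) s')

theorem oneSided [Nonempty Ω] {ι : Type} [Fintype ι] (π : Ω → Equiv.Perm β) (τ x a t : ℝ)
    (hτ : 0 < τ) (hx : (2 : ℝ) ^ τ ≤ x) (ha : 0 ≤ a) (G : Finset β → ℝ) (hG : ∀ X, 0 ≤ G X)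
    (h : RB π τ a t G) (g : ι → Bool × β → Bool × β) (u : ι → Bool × β → ℝ)
    (hu : ∀ i v, 0 ≤ u i v) (X : Finset (Bool × β)) (s : β → Bool) :
    𝔼 s', 𝔼 ω₀, 𝔼 ω₁, integ π τ g u X s s' ω₀ ω₁ ≤
      (a * ((2 : ℝ) ^ τ)⁻¹) ^ X.card * (G (side s false X) * G (side s true X)) *
        Real.exp (t * (x * ∑ p ∈ side s false X, ∑ i, u i (inp s false p) +
          (x - 1) * ((side s false X ∩ side s true X).card : ℝ) +
          (∑ p ∈ side s true X, ∑ i, u i (inp s true p)) / 2)) := by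
  have hx1 : 1 ≤ x := le_trans (Real.one_le_rpow (by norm_num) hτ.le) hx
  choose RU hRU hW using fun ω₁ : Ω =>
    exists_W (fun i => gUp (g i) s) (uU u s) (side s true X) (π ω₁)
  set c : ℝ := (((2 : ℝ) ^ τ)⁻¹) ^ X.card with hc
  have hc0 : 0 ≤ c := by positivity
  set B₀ : ℝ := a ^ (side s false X).card *
    Real.exp (t * ∑ p ∈ side s false X, ∑ o, uL x u s X o p) * G (side s false X) with hB₀
  have hB₀0 : 0 ≤ B₀ := mul_nonneg (by positivity) (hG _)
  have step1 : ∀ s' ω₁, 𝔼 ω₀, integ π τ g u X s s' ω₀ ω₁ ≤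
      c * B₀ * (kap π (side s true X) (π ω₁) ^ τ * payUp g u s X (π ω₁) (RU ω₁) s') := by
    intro s' ω₁
    have hk : 0 ≤ kap π (side s true X) (π ω₁) ^ τ * payUp g u s X (π ω₁) (RU ω₁) s' :=
      mul_nonneg (Real.rpow_nonneg (kap_nonneg _ _ _) _) (payUp_nonneg g hu _ _ _ _ _)
    calc 𝔼 ω₀, integ π τ g u X s s' ω₀ ω₁
        ≤ 𝔼 ω₀, c * (kap π (side s false X) (π ω₀) ^ τ *
            W (gL g s (π ω₁) s') (uL x u s X) (side s false X) (π ω₀)) *
            (kap π (side s true X) (π ω₁) ^ τ * payUp g u s X (π ω₁) (RU ω₁) s') := by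
          refine expect_le_expect fun ω₀ _ => ?_
          have hp := pointwise τ x hτ hx g u hu X s (π ω₀) (π ω₁) s' (RU ω₁) (hRU ω₁)
          have hk0 := Real.rpow_nonneg (kap_nonneg π (side s false X) (π ω₀)) τ
          have hk1 := Real.rpow_nonneg (kap_nonneg π (side s true X) (π ω₁)) τ
          rw [integ, Real.mul_rpow (vp_nonneg _ _)
            (mul_nonneg (kap_nonneg _ _ _) (kap_nonneg _ _ _)),
            Real.mul_rpow (kap_nonneg _ _ _) (kap_nonneg _ _ _)]
          have := mul_le_mul_of_nonneg_left hp (mul_nonneg hk0 hk1)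
          calc _ = kap π (side s false X) (π ω₀) ^ τ * kap π (side s true X) (π ω₁) ^ τ *
                (vp X (ben s (π ω₀) (π ω₁) s') ^ τ * W g u X (ben s (π ω₀) (π ω₁) s')) := by ring
            _ ≤ _ := this
            _ = _ := by ring
      _ = c * (𝔼 ω₀, kap π (side s false X) (π ω₀) ^ τ *
            W (gL g s (π ω₁) s') (uL x u s X) (side s false X) (π ω₀)) *
            (kap π (side s true X) (π ω₁) ^ τ * payUp g u s X (π ω₁) (RU ω₁) s') := by
          rw [← expect_mul, ← mul_expect]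
      _ ≤ _ := mul_le_mul_of_nonneg_right (mul_le_mul_of_nonneg_left
          (h (Option ι) _ _ (uL_nonneg hx1 hu s X) _) hc0) hk
  have hU := h ι (fun i => gUp (g i) s) (uU u s)
    (fun i p => div_nonneg (hu _ _) (by norm_num)) (side s true X)
  calc 𝔼 s', 𝔼 ω₀, 𝔼 ω₁, integ π τ g u X s s' ω₀ ω₁
      = 𝔼 ω₁, 𝔼 s', 𝔼 ω₀, integ π τ g u X s s' ω₀ ω₁ := by
        refine (expect_congr rfl fun s' _ => expect_comm _ _ _).trans ?_
        exact expect_comm _ _ _
    _ ≤ 𝔼 ω₁, 𝔼 s', c * B₀ *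
          (kap π (side s true X) (π ω₁) ^ τ * payUp g u s X (π ω₁) (RU ω₁) s') :=
        expect_le_expect fun ω₁ _ => expect_le_expect fun s' _ => step1 s' ω₁
    _ = c * B₀ * 𝔼 ω₁, kap π (side s true X) (π ω₁) ^ τ *
          W (fun i => gUp (g i) s) (uU u s) (side s true X) (π ω₁) := by
        rw [mul_expect]
        refine expect_congr rfl fun ω₁ _ => ?_
        rw [← mul_expect, ← mul_expect, expect_payUp, hW]
    _ ≤ c * B₀ * (a ^ (side s true X).card *
          Real.exp (t * ∑ p ∈ side s true X, ∑ i, uU u s i p) * G (side s true X)) :=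
        mul_le_mul_of_nonneg_left hU (mul_nonneg hc0 hB₀0)
    _ = _ := by
        have e1 : ∑ p ∈ side s false X, ∑ o, uL x u s X o p =
            x * ∑ p ∈ side s false X, ∑ i, u i (inp s false p) +
              (x - 1) * ((side s false X ∩ side s true X).card : ℝ) := by
          simp only [Fintype.sum_option, uL, sum_add_distrib, ← mul_sum]
          rw [sum_ite_mem, sum_const, nsmul_eq_mul]
          ring
        have e2 : ∑ p ∈ side s true X, ∑ i, uU u s i p =
            (∑ p ∈ side s true X, ∑ i, u i (inp s true p)) / 2 := by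
          simp only [uU, ← sum_div]
        rw [hB₀, hc, e1, e2, mul_add t _ (_ / 2), Real.exp_add, mul_pow a, card_side s X,
          pow_add a]
        ring

end Crest.Agent.R155.Ren
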