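import Crest.Agent.R155.Renyi_Cyc

set_option autoImplicit false

namespace Crest.Agent.R155.Ren

open Finset BigOperators

variable {β : Type*}

/-- The outer switch settings `t` are compatible with the partial routing `σ` on `X`. -/
def Valid (X : Finset (Bool × β)) (σ : Equiv.Perm (Bool × β)) (t : (β → Bool) × (β → Bool)) :
    Prop :=
  ∀ v ∈ X, xor v.1 (t.1 v.2) = xor (σ v).1 (t.2 (σ v).2)

instance (X : Finset (Bool × β)) (σ : Equiv.Perm (Bool × β)) : DecidablePred (Valid X σ) :=
  fun _ => by unfold Valid; infer_instance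

def flp (v : Bool × β) : Bool × β := (!v.1, v.2)

@[simp] theorem flp_flp (v : Bool × β) : flp (flp v) = v := by simp [flp]

theorem flp_inp (s : β → Bool) (b : Bool) (p : β) : flp (inp s b p) = inp s (!b) p := by
  simp [flp, inp]

theorem eq_or_eq_flp {v w : Bool × β} (h : w.2 = v.2) : w = v ∨ w = flp v := by
  obtain ⟨a, p⟩ := v
  obtain ⟨b, q⟩ := w
  simp only at h
  subst h
  cases a <;> cases b <;> simp [flp]

def EvenSet (σ : Equiv.Perm (Bool × β)) (E : Finset (Bool × β)) : Prop :=
  (∀ v ∈ E, flp v ∈ E) ∧ ∀ v ∈ E, ∃ w ∈ E, σ w = flp (σ v)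

def sg (b : Bool) : ℝ := if b then -1 else 1

theorem sg_not (b : Bool) : sg (!b) = -sg b := by cases b <;> simp [sg]

def chi (σ : Equiv.Perm (Bool × β)) (t : (β → Bool) × (β → Bool)) (v : Bool × β) : ℝ :=
  sg (xor (xor v.1 (t.1 v.2)) (xor (σ v).1 (t.2 (σ v).2)))

theorem indicator_valid (X : Finset (Bool × β)) (σ : Equiv.Perm (Bool × β))
    (t : (β → Bool) × (β → Bool)) :
    (if Valid X σ t then (1 : ℝ) else 0) = (∏ v ∈ X, (1 + chi σ t v)) / 2 ^ X.card := by
  rw [eq_div_iff (by positivity)]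
  split_ifs with h
  · rw [prod_congr rfl (g := fun _ => (2 : ℝ)) fun v hv => by
      rw [chi, h v hv]; norm_num [sg]]
    simp
  · unfold Valid at h
    push Not at h
    obtain ⟨v, hv, h⟩ := h
    rw [prod_eq_zero hv, zero_mul]
    rw [chi, Bool.xor_iff_ne.2 h]
    simp [sg]

variable [Fintype β] [DecidableEq β]

noncomputable def vp (X : Finset (Bool × β)) (σ : Equiv.Perm (Bool × β)) : ℝ :=
  𝔼 t, if Valid X σ t then (1 : ℝ) else 0

theorem vp_nonneg (X : Finset (Bool × β)) (σ : Equiv.Perm (Bool × β)) : 0 ≤ vp X σ :=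
  expect_nonneg fun _ _ => by split_ifs <;> norm_num

theorem vp_congr {X : Finset (Bool × β)} {σ σ' : Equiv.Perm (Bool × β)}
    (e : ∀ v ∈ X, σ' v = σ v) : vp X σ' = vp X σ := by
  unfold vp
  refine expect_congr rfl fun t _ => if_congr ?_ rfl rfl
  exact forall₂_congr fun v hv => by rw [e v hv]

/-- Toggle one coin. -/
def tog (s : β → Bool) (p : β) : β → Bool := Function.update s p (!s p)

omit [Fintype β] in
theorem tog_tog (s : β → Bool) (p : β) : tog (tog s p) p = s := by
  simp [tog]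

omit [Fintype β] in
theorem prod_neg_one (E : Finset (Bool × β)) (f f' : Bool × β → ℝ) (v : Bool × β) (hv : v ∈ E)
    (h1 : f' v = -f v) (h2 : ∀ w ∈ E, w ≠ v → f' w = f w) :
    ∏ w ∈ E, f' w = -∏ w ∈ E, f w := by
  rw [← mul_prod_erase E f' hv, ← mul_prod_erase E f hv, h1,
    prod_congr rfl fun w hw => h2 w (mem_of_mem_erase hw) (ne_of_mem_erase hw), neg_mul]

theorem expect_chi_eq_zero (σ : Equiv.Perm (Bool × β)) (E : Finset (Bool × β))
    (h : ¬EvenSet σ E) : 𝔼 t, ∏ v ∈ E, chi σ t v = 0 := by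
  rw [EvenSet, not_and_or] at h
  rcases h with h | h
  · push Not at h
    obtain ⟨v, hv, h⟩ := h
    refine expect_eq_zero_of_neg (fun t => (tog t.1 v.2, t.2)) (fun t => by simp [tog_tog]) _
      fun t => prod_neg_one E _ _ v hv ?_ fun w hw hne => ?_
    · simp only [chi, tog, Function.update_self]
      rw [← sg_not]
      congr 1
      simp
    · have : w.2 ≠ v.2 := fun e => by
        rcases eq_or_eq_flp e with e | e
        · exact hne e
        · exact h (e ▸ hw)
      simp only [chi, tog, Function.update_of_ne this]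
  · push Not at h
    obtain ⟨v, hv, h⟩ := h
    refine expect_eq_zero_of_neg (fun t => (t.1, tog t.2 (σ v).2)) (fun t => by simp [tog_tog]) _
      fun t => prod_neg_one E _ _ v hv ?_ fun w hw hne => ?_
    · simp only [chi, tog, Function.update_self]
      rw [← sg_not]
      congr 1
      simp
    · have : (σ w).2 ≠ (σ v).2 := fun e => by
        rcases eq_or_eq_flp e with e | e
        · exact hne (σ.injective e)
        · exact h w hw e
      simp only [chi, tog, Function.update_of_ne this]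

open Classical in
theorem vp_le_even (X : Finset (Bool × β)) (σ : Equiv.Perm (Bool × β)) :
    vp X σ ≤ ((X.powerset.filter (EvenSet σ)).card : ℝ) / 2 ^ X.card := by
  unfold vp
  simp only [indicator_valid, prod_one_add]
  rw [← expect_div, expect_sum_comm]
  refine div_le_div_of_nonneg_right ?_ (by positivity)
  rw [← sum_boole]
  refine sum_le_sum fun E _ => ?_
  split_ifs with h
  · refine expect_le univ_nonempty fun t _ => ?_
    refine (le_abs_self _).trans ?_
    rw [abs_prod]
    refine prod_le_one (fun _ _ => abs_nonneg _) fun v _ => ?_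
    unfold chi sg
    split_ifs <;> simp
  · exact (expect_chi_eq_zero σ E h).le

omit [Fintype β] in
theorem EvenSet.sdiff {σ : Equiv.Perm (Bool × β)} {E E' : Finset (Bool × β)} (h : EvenSet σ E)
    (h' : EvenSet σ E') : EvenSet σ (E \ E') := by
  constructor
  · intro v hv
    obtain ⟨h1, h2⟩ := mem_sdiff.1 hv
    refine mem_sdiff.2 ⟨h.1 v h1, fun h3 => h2 ?_⟩
    simpa using h'.1 _ h3
  · intro v hv
    obtain ⟨h1, h2⟩ := mem_sdiff.1 hv
    obtain ⟨w, hw, e⟩ := h.2 v h1
    refine ⟨w, mem_sdiff.2 ⟨hw, fun h3 => h2 ?_⟩, e⟩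
    obtain ⟨w', hw', e'⟩ := h'.2 w h3
    rw [e, flp_flp] at e'
    exact σ.injective e' ▸ hw'

theorem even_hit (s : β → Bool) (σ₀ σ₁ : Equiv.Perm β) (s' : β → Bool) (X : Finset (Bool × β))
    (R : Finset β) (hR : Hit σ₁ σ₀ (side s false X) R) (D : Finset (Bool × β)) (hD : D ⊆ X)
    (hne : D.Nonempty) (he : EvenSet (ben s σ₀ σ₁ s') D) : ∃ p ∈ R, inp s false p ∈ D := by
  obtain ⟨p, hp, hpR⟩ := hR (side s false D) (fun q hq => mem_side.2 (hD (mem_side.1 hq)))
    (by
      obtain ⟨v, hv⟩ := hne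
      rcases inp_cases s v with ⟨p, rfl⟩ | ⟨p, rfl⟩
      · exact ⟨p, mem_side.2 hv⟩
      · refine ⟨p, mem_side.2 ?_⟩
        have := he.1 _ hv
        rwa [flp_inp] at this)
    (by
      intro p hp
      have h1 := he.1 _ (mem_side.1 hp)
      rw [flp_inp] at h1
      obtain ⟨w, hw, e⟩ := he.2 _ h1
      rw [Bool.not_false, ben_true, flp_inp] at e
      rcases inp_cases s w with ⟨q, rfl⟩ | ⟨q, rfl⟩
      · rw [ben_false] at e
        exact ⟨q, mem_side.2 hw, (congrArg Prod.snd e).symm⟩
      · rw [ben_true] at e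
        have h2 := inp_side s' true (σ₁ q)
        rw [e, inp_side] at h2
        exact absurd h2 (by simp))
  exact ⟨p, hpR, mem_side.1 hp⟩

theorem vp_le (s : β → Bool) (σ₀ σ₁ : Equiv.Perm β) (s' : β → Bool) (X : Finset (Bool × β))
    (R : Finset β) (hR : Hit σ₁ σ₀ (side s false X) R) :
    vp X (ben s σ₀ σ₁ s') ≤
      2 ^ ((side s false X).filter fun p => p ∈ R ∧ p ∈ side s true X).card / 2 ^ X.card := by
  classical
  refine (vp_le_even X _).trans (div_le_div_of_nonneg_right ?_ (by positivity))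
  have : (X.powerset.filter (EvenSet (ben s σ₀ σ₁ s'))).card ≤
      ((side s false X).filter fun p => p ∈ R ∧ p ∈ side s true X).powerset.card := by
    refine card_le_card_of_injOn (fun E => side s false E ∩ R) ?_ ?_
    · intro E hE
      obtain ⟨h1, h2⟩ := mem_filter.1 (mem_coe.1 hE)
      have h1 := mem_powerset.1 h1
      refine mem_coe.2 (mem_powerset.2 fun p hp => ?_)
      obtain ⟨h3, h4⟩ := mem_inter.1 hp
      refine mem_filter.2 ⟨mem_side.2 (h1 (mem_side.1 h3)), h4, mem_side.2 (h1 ?_)⟩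
      have := h2.1 _ (mem_side.1 h3)
      rwa [flp_inp] at this
    · have key : ∀ E E' : Finset (Bool × β), E ⊆ X → EvenSet (ben s σ₀ σ₁ s') E →
          EvenSet (ben s σ₀ σ₁ s') E' → side s false E ∩ R = side s false E' ∩ R → E ⊆ E' := by
        intro E E' hE h h' e
        rw [← sdiff_eq_empty_iff_subset]
        by_contra hne
        obtain ⟨p, hpR, hp⟩ := even_hit s σ₀ σ₁ s' X R hR (E \ E') (sdiff_subset.trans hE)
          (nonempty_iff_ne_empty.2 hne) (h.sdiff h')
        obtain ⟨h1, h2⟩ := mem_sdiff.1 hp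
        have : p ∈ side s false E' ∩ R := e ▸ mem_inter.2 ⟨mem_side.2 h1, hpR⟩
        exact h2 (mem_side.1 (mem_inter.1 this).1)
      intro E hE E' hE' e
      obtain ⟨h1, h2⟩ := mem_filter.1 (mem_coe.1 hE)
      obtain ⟨h1', h2'⟩ := mem_filter.1 (mem_coe.1 hE')
      exact Subset.antisymm (key E E' (mem_powerset.1 h1) h2 h2' e)
        (key E' E (mem_powerset.1 h1') h2' h2 e.symm)
  rw [card_powerset] at this
  exact_mod_cast this

end Crest.Agent.R155.Ren
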