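import Crest.Agent.R155.Defs

set_option autoImplicit false

namespace Crest.Agent.R155

open Finset Module

variable {V : Type*} [NormedAddCommGroup V] [InnerProductSpace ℝ V] [FiniteDimensional ℝ V]

/-- Trace of powers of a symmetric operator through eigenspaces. -/
theorem trace_pow_eq (A : V →ₗ[ℝ] V) (hA : A.IsSymmetric) :
    ∃ B : Finset ℝ, (∀ s : ℕ, LinearMap.trace ℝ V (A ^ s) =
      ∑ β ∈ B, β ^ s * (finrank ℝ (End.eigenspace A β) : ℝ)) ∧
      ∀ β ∉ B, End.eigenspace A β = ⊥ := by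
  classical
  set n := finrank ℝ V with hn
  have hn' : finrank ℝ V = n := rfl
  set e := hA.eigenvalues hn' with he
  set b := hA.eigenvectorBasis hn' with hb
  refine ⟨univ.image e, fun s => ?_, fun β hβ => ?_⟩
  · have hpow : ∀ i, (A ^ s) (b i) = e i ^ s • b i := by
      intro i
      induction s with
      | zero => simp
      | succ s ih =>
        rw [pow_succ', Module.End.mul_apply, ih, map_smul, hb, hA.apply_eigenvectorBasis hn' i,
          smul_smul, pow_succ]
        rfl
    rw [LinearMap.trace_eq_sum_inner _ b]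
    have h1 : ∀ i, inner ℝ (b i) ((A ^ s) (b i)) = e i ^ s := by
      intro i
      rw [hpow, inner_smul_right, real_inner_self_eq_norm_sq, b.orthonormal.1 i]
      simp
    simp_rw [h1]
    rw [← Finset.sum_fiberwise_of_maps_to (s := univ) (t := univ.image e) (g := e)
      (fun i _ => mem_image_of_mem e (mem_univ i))]
    refine Finset.sum_congr rfl fun β _ => ?_
    have h2 := hA.card_filter_eigenvalues_eq hn' β
    rw [Finset.sum_congr rfl (g := fun _ => β ^ s) (fun i hi => by rw [(mem_filter.1 hi).2])]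
    rw [Finset.sum_const, nsmul_eq_mul, mul_comm, ← h2]
    rfl
  · by_contra hne
    obtain ⟨i, hi⟩ := hA.exists_eigenvalues_eq hn' (μ := β) hne
    exact hβ (mem_image.2 ⟨i, mem_univ _, hi⟩)

theorem sum_le_trace_pow (A : V →ₗ[ℝ] V) (hA : A.IsSymmetric) (s : ℕ) (hs : Even s)
    (B : Finset ℝ) (W : ℝ → Submodule ℝ V) (hW : ∀ β ∈ B, W β ≤ End.eigenspace A β) :
    ∑ β ∈ B, β ^ s * (finrank ℝ (W β) : ℝ) ≤ LinearMap.trace ℝ V (A ^ s) := by
  classical
  obtain ⟨B₀, h1, h2⟩ := trace_pow_eq A hA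
  rw [h1 s]
  calc ∑ β ∈ B, β ^ s * (finrank ℝ (W β) : ℝ)
      ≤ ∑ β ∈ B, β ^ s * (finrank ℝ (End.eigenspace A β) : ℝ) := by
        refine Finset.sum_le_sum fun β hβ => ?_
        refine mul_le_mul_of_nonneg_left ?_ (hs.pow_nonneg β)
        exact_mod_cast Submodule.finrank_mono (hW β hβ)
    _ ≤ ∑ β ∈ B ∪ B₀, β ^ s * (finrank ℝ (End.eigenspace A β) : ℝ) := by
        refine Finset.sum_le_sum_of_subset_of_nonneg subset_union_left fun β _ _ => ?_
        exact mul_nonneg (hs.pow_nonneg β) (Nat.cast_nonneg _)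
    _ = ∑ β ∈ B₀, β ^ s * (finrank ℝ (End.eigenspace A β) : ℝ) := by
        symm
        refine Finset.sum_subset subset_union_right fun β _ hβ => ?_
        rw [h2 β hβ]
        simp

end Crest.Agent.R155
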